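import Vale.Agent.P224.R2.H355.Cls2
import Vale.Agent.P224.R2.H876.Max

/-!
Comparison of a solution of the h-form with explicit functions on `[0, 1]`.
-/

namespace Vale.Agent.P224.R2.H355

open Set Filter Real Vale.Agent.P224.R2.H627 Vale.Agent.P224.R2.H876
open scoped Topology

section

variable {a L κ φ : ℝ} {s : HSol a L}

/-- every `h` in `(0, 1)` is a value of `hv` -/
lemma exists_hv {h : ℝ} (hh : h ∈ Ioo (0 : ℝ) 1) : ∃ T ∈ Ioo (0 : ℝ) 1, hv T = h := by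
  obtain ⟨h0, h1⟩ := hh
  have hp : 0 < 1 + h := by linarith
  have hq : 0 < 1 - h := by linarith
  have hr : 0 < (1 - h) / (1 + h) := by positivity
  refine ⟨√((1 - h) / (1 + h)), ⟨sqrt_pos.2 hr, ?_⟩, ?_⟩
  · rw [sqrt_lt' one_pos, div_lt_iff₀ hp]
    linarith
  · unfold hv
    rw [sq_sqrt hr.le]
    field_simp
    ring

/-- an inequality on `(0, 1)` extends to `[0, 1]` -/
lemma le_Icc {f g : ℝ → ℝ} (hf : ContinuousOn f (Icc 0 1)) (hg : ContinuousOn g (Icc 0 1))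
    (h : ∀ x ∈ Ioo (0 : ℝ) 1, f x ≤ g x) : ∀ x ∈ Icc (0 : ℝ) 1, f x ≤ g x := by
  have hcl : Icc (0 : ℝ) 1 ⊆ closure (Ioo 0 1) := by rw [closure_Ioo zero_ne_one]
  intro x hx
  exact ContinuousWithinAt.closure_le (s := Ioo 0 1) (f := f) (g := g) (hcl hx)
    ((hf x hx).mono Ioo_subset_Icc_self) ((hg x hx).mono Ioo_subset_Icc_self) h

theorem V_one_le (st : Stg κ φ s) (hL : 0 ≤ L) (ha : 3 ≤ a) :
    ∀ h ∈ Icc (0 : ℝ) 1, 1 ≤ s.V h := by
  refine le_Icc continuousOn_const s.cV.c0 fun h hh => ?_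
  obtain ⟨T, hT, rfl⟩ := exists_hv hh
  have ha2 : 2 ≤ a := by linarith
  have h1 := V_ge (c := 1) st hL one_pos ha hT
  have h2 := Wf_anti (c := 1) one_pos ha2 hT
  have h3 := Wf_pos (a := a) (c := 1) (T := 1) one_pos ha2
  have h4 := Wf_pos (a := a) (c := 1) (T := T) one_pos ha2
  rw [div_le_div_iff₀ h3 h4] at h1
  by_contra hcon
  push Not at hcon
  have : s.V (hv T) * Wf a 1 1 < 1 * Wf a 1 1 := by gcongr
  linarith

end

/-- values at the left end -/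
lemma fst_le {f g f1 g1 : ℝ → ℝ} (hf : ContinuousOn f (Icc 0 1)) (hg : ContinuousOn g (Icc 0 1))
    (df : ∀ h ∈ Ioo (0 : ℝ) 1, HasDerivAt f (f1 h) h)
    (dg : ∀ h ∈ Ioo (0 : ℝ) 1, HasDerivAt g (g1 h) h)
    (h1 : ∀ h ∈ Ioo (0 : ℝ) 1, f1 h ≤ g1 h) (h0 : f 0 ≤ g 0) :
    ∀ h ∈ Icc (0 : ℝ) 1, f h ≤ g h := by
  have hm : MonotoneOn (fun h => g h - f h) (Icc 0 1) := by
    refine monotoneOn_of_deriv_nonneg (convex_Icc 0 1) (hg.sub hf) ?_ ?_
    · rw [interior_Icc]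
      exact fun x hx => ((dg x hx).fun_sub (df x hx)).differentiableAt.differentiableWithinAt
    · rw [interior_Icc]
      intro x hx
      rw [((dg x hx).fun_sub (df x hx)).deriv]
      linarith [h1 x hx]
  intro h hh
  have := hm ⟨le_rfl, zero_le_one⟩ hh hh.1
  simp only at this
  linarith

/-- comparison for the operator `2 h (1 - h ^ 2) f' + c f` -/
theorem cmpH {c f f1 F F1 : ℝ → ℝ} (hf : ContinuousOn f (Icc 0 1))
    (hd : ∀ h ∈ Ioo (0 : ℝ) 1, HasDerivAt f (f1 h) h) (hF : ContinuousOn F (Icc 0 1))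
    (hD : ∀ h ∈ Ioo (0 : ℝ) 1, HasDerivAt F (F1 h) h) (hc : ∀ h ∈ Icc (0 : ℝ) 1, 0 < c h)
    (he : ∀ h ∈ Icc (0 : ℝ) 1, 2 * h * (1 - h ^ 2) * f1 h + c h * f h
      ≤ 2 * h * (1 - h ^ 2) * F1 h + c h * F h) : ∀ h ∈ Icc (0 : ℝ) 1, f h ≤ F h :=
  le_of_le (a := fun h => 2 * h * (1 - h ^ 2)) zero_le_one hf hd hF hD (by simp) (by simp) hc he

section

variable {a L κ φ : ℝ} {s : HSol a L}

lemma dV (s : HSol a L) : ∀ h ∈ Ioo (0 : ℝ) 1, HasDerivAt s.V (s.V1 h) h := fun h hh =>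
  s.cV.d1 h ⟨by linarith [hh.1], hh.2⟩
lemma dV1 (s : HSol a L) : ∀ h ∈ Ioo (0 : ℝ) 1, HasDerivAt s.V1 (s.V2 h) h := fun h hh =>
  s.cV.d2 h ⟨by linarith [hh.1], hh.2⟩
lemma dE (s : HSol a L) : ∀ h ∈ Ioo (0 : ℝ) 1, HasDerivAt s.E (s.E1 h) h := fun h hh =>
  s.cE.d1 h ⟨by linarith [hh.1], hh.2⟩
lemma dG (s : HSol a L) : ∀ h ∈ Ioo (0 : ℝ) 1, HasDerivAt s.G (s.G1 h) h := fun h hh =>
  s.cG.d1 h ⟨by linarith [hh.1], hh.2⟩
lemma dP (s : HSol a L) : ∀ h ∈ Ioo (0 : ℝ) 1, HasDerivAt s.P (s.P1 h) h := fun h hh =>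
  s.cP.d1 h ⟨by linarith [hh.1], hh.2⟩
lemma dP1 (s : HSol a L) : ∀ h ∈ Ioo (0 : ℝ) 1, HasDerivAt s.P1 (s.P2 h) h := fun h hh =>
  s.cP.d2 h ⟨by linarith [hh.1], hh.2⟩

/-- upper barrier for `V` -/
theorem V_le_bar (st : Stg κ φ s) (hL : 0 ≤ L) (ha : 4 ≤ a) {v v1 v2 : ℝ → ℝ}
    (hv : ContinuousOn v (Icc 0 1)) (hv1 : ContinuousOn v1 (Icc 0 1))
    (d1 : ∀ h ∈ Ioo (0 : ℝ) 1, HasDerivAt v (v1 h) h)
    (d2 : ∀ h ∈ Ioo (0 : ℝ) 1, HasDerivAt v1 (v2 h) h) (h0 : v 0 = 1)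
    (hpos : ∀ h ∈ Icc (0 : ℝ) 1, 1 ≤ v h) (hv1p : ∀ h ∈ Icc (0 : ℝ) 1, 0 ≤ v1 h)
    (hres : ∀ h ∈ Icc (0 : ℝ) 1, L / 4 * h ^ 2 * (15 + κ / a * h ^ 5) * v h
      ≤ 2 * h * (1 - h ^ 2) * v2 h + (2 * a - 6 * h ^ 2) * v1 h - 3 / 2 * h * v h) :
    (∀ h ∈ Icc (0 : ℝ) 1, s.V h ≤ v h) ∧ ∀ h ∈ Icc (0 : ℝ) 1, s.V1 h ≤ v1 h := by
  have hV := V_one_le st hL (by linarith)
  have hU : ∀ h ∈ Icc (0 : ℝ) 1, s.V1 h * v h - s.V h * v1 h ≤ 0 := by
    refine nonpos_of_le (a := fun h => 2 * h * (1 - h ^ 2)) (c := fun h => 2 * a - 6 * h ^ 2)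
      (g := fun h => s.V2 h * v h - s.V h * v2 h) zero_le_one
      ((s.cV.c1.mul hv).sub (s.cV.c0.mul hv1)) ?_ (by simp) (by simp) ?_ ?_
    · intro h hh
      refine (((dV1 s h hh).fun_mul (d1 h hh)).fun_sub
        ((dV s h hh).fun_mul (d2 h hh))).congr_deriv ?_
      ring
    · intro h hh
      have : h ^ 2 ≤ 1 := pow_le_one₀ hh.1 hh.2
      linarith
    · intro h hh
      have e := s.eV h hh
      have r := hres h hh
      have S := st.Su h hh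
      have p1 := hpos h hh
      have p2 := hV h hh
      have e1 : L / 8 * (2 * h * s.F1 h + s.F h) ≤ L / 4 * h ^ 2 * (15 + κ / a * h ^ 5) := by
        calc L / 8 * (2 * h * s.F1 h + s.F h) ≤ L / 8 * (2 * h ^ 2 * (15 + κ / a * h ^ 5)) := by
              gcongr
          _ = _ := by ring
      set R := 2 * h * (1 - h ^ 2) * v2 h + (2 * a - 6 * h ^ 2) * v1 h - 3 / 2 * h * v h with hR
      have e2 : 2 * h * (1 - h ^ 2) * (s.V2 h * v h - s.V h * v2 h)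
          + (2 * a - 6 * h ^ 2) * (s.V1 h * v h - s.V h * v1 h)
          = v h * (L / 8 * (2 * h * s.F1 h + s.F h)) - s.V h * R := by
        rw [hR]
        linear_combination v h * e
      rw [e2]
      have e3 : v h * (L / 8 * (2 * h * s.F1 h + s.F h)) ≤ R := by
        calc v h * (L / 8 * (2 * h * s.F1 h + s.F h))
            ≤ v h * (L / 4 * h ^ 2 * (15 + κ / a * h ^ 5)) := by gcongr
          _ = L / 4 * h ^ 2 * (15 + κ / a * h ^ 5) * v h := by ring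
          _ ≤ R := r
      have e4 : 0 ≤ v h * (L / 8 * (2 * h * s.F1 h + s.F h)) := by
        have := st.F0 h hh
        have := st.F10 h hh
        have := hh.1
        positivity
      nlinarith
  have hle : ∀ h ∈ Icc (0 : ℝ) 1, s.V h / v h ≤ 1 := by
    refine fst_le (f1 := fun h => (s.V1 h * v h - s.V h * v1 h) / v h ^ 2) (g1 := fun _ => 0)
      (s.cV.c0.div hv fun h hh => by linarith [hpos h hh]) continuousOn_const ?_
      (fun h _ => hasDerivAt_const h 1) ?_ ?_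
    · intro h hh
      have hh' := Ioo_subset_Icc_self hh
      exact (dV s h hh).div (d1 h hh) (by linarith [hpos h hh'])
    · intro h hh
      have hh' := Ioo_subset_Icc_self hh
      exact div_nonpos_of_nonpos_of_nonneg (hU h hh') (by positivity)
    · rw [s.V0, h0]
      norm_num
  have hVle : ∀ h ∈ Icc (0 : ℝ) 1, s.V h ≤ v h := fun h hh => by
    have := hle h hh
    have hp : 0 < v h := by linarith [hpos h hh]
    rwa [div_le_one hp] at this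
  refine ⟨hVle, fun h hh => ?_⟩
  have h1 := hU h hh
  have h2 := hVle h hh
  have h3 := hv1p h hh
  have h4 := hpos h hh
  have h5 : s.V1 h * v h ≤ v1 h * v h := by nlinarith
  exact le_of_mul_le_mul_right h5 (by linarith)

/-- lower barrier for `V` -/
theorem V_ge_bar (st : Stg κ φ s) (hL : 0 ≤ L) (ha : 4 ≤ a) {v v1 v2 : ℝ → ℝ}
    (hv : ContinuousOn v (Icc 0 1)) (hv1 : ContinuousOn v1 (Icc 0 1))
    (d1 : ∀ h ∈ Ioo (0 : ℝ) 1, HasDerivAt v (v1 h) h)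
    (d2 : ∀ h ∈ Ioo (0 : ℝ) 1, HasDerivAt v1 (v2 h) h) (h0 : v 0 = 1)
    (hpos : ∀ h ∈ Icc (0 : ℝ) 1, 1 ≤ v h) (hv1p : ∀ h ∈ Icc (0 : ℝ) 1, 0 ≤ v1 h)
    (hres : ∀ h ∈ Icc (0 : ℝ) 1,
      2 * h * (1 - h ^ 2) * v2 h + (2 * a - 6 * h ^ 2) * v1 h - 3 / 2 * h * v h ≤ 0) :
    (∀ h ∈ Icc (0 : ℝ) 1, v h ≤ s.V h) ∧ ∀ h ∈ Icc (0 : ℝ) 1, v1 h ≤ s.V1 h := by
  have hV := V_one_le st hL (by linarith)
  have hU : ∀ h ∈ Icc (0 : ℝ) 1, -(s.V1 h * v h - s.V h * v1 h) ≤ 0 := by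
    refine nonpos_of_le (a := fun h => 2 * h * (1 - h ^ 2)) (c := fun h => 2 * a - 6 * h ^ 2)
      (g := fun h => -(s.V2 h * v h - s.V h * v2 h)) zero_le_one
      ((s.cV.c1.mul hv).sub (s.cV.c0.mul hv1)).neg ?_ (by simp) (by simp) ?_ ?_
    · intro h hh
      refine (((dV1 s h hh).fun_mul (d1 h hh)).fun_sub
        ((dV s h hh).fun_mul (d2 h hh))).fun_neg.congr_deriv ?_
      ring
    · intro h hh
      have : h ^ 2 ≤ 1 := pow_le_one₀ hh.1 hh.2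
      linarith
    · intro h hh
      have e := s.eV h hh
      have r := hres h hh
      have p1 := hpos h hh
      have p2 := hV h hh
      set R := 2 * h * (1 - h ^ 2) * v2 h + (2 * a - 6 * h ^ 2) * v1 h - 3 / 2 * h * v h with hR
      have e2 : 2 * h * (1 - h ^ 2) * (-(s.V2 h * v h - s.V h * v2 h))
          + (2 * a - 6 * h ^ 2) * (-(s.V1 h * v h - s.V h * v1 h))
          = -(v h * (L / 8 * (2 * h * s.F1 h + s.F h)) - s.V h * R) := by
        rw [hR]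
        linear_combination (-v h) * e
      rw [e2]
      have e4 : 0 ≤ v h * (L / 8 * (2 * h * s.F1 h + s.F h)) := by
        have := st.F0 h hh
        have := st.F10 h hh
        have := hh.1
        positivity
      have e5 : s.V h * R ≤ 0 := mul_nonpos_of_nonneg_of_nonpos (by linarith) r
      linarith
  have hle : ∀ h ∈ Icc (0 : ℝ) 1, 1 ≤ s.V h / v h := by
    refine fst_le (g1 := fun h => (s.V1 h * v h - s.V h * v1 h) / v h ^ 2) (f1 := fun _ => 0)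
      continuousOn_const (s.cV.c0.div hv fun h hh => by linarith [hpos h hh])
      (fun h _ => hasDerivAt_const h 1) ?_ ?_ ?_
    · intro h hh
      have hh' := Ioo_subset_Icc_self hh
      exact (dV s h hh).div (d1 h hh) (by linarith [hpos h hh'])
    · intro h hh
      have hh' := Ioo_subset_Icc_self hh
      exact div_nonneg (by linarith [hU h hh']) (by positivity)
    · rw [s.V0, h0]
      norm_num
  have hVle : ∀ h ∈ Icc (0 : ℝ) 1, v h ≤ s.V h := fun h hh => by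
    have := hle h hh
    have hp : 0 < v h := by linarith [hpos h hh]
    rwa [one_le_div hp] at this
  refine ⟨hVle, fun h hh => ?_⟩
  have h1 := hU h hh
  have h2 := hVle h hh
  have h3 := hv1p h hh
  have h4 := hpos h hh
  have h5 : v1 h * v h ≤ s.V1 h * v h := by nlinarith
  exact le_of_mul_le_mul_right h5 (by linarith)

end

end Vale.Agent.P224.R2.H355
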