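import Vale.Agent.P224.R2.H484.TlL

/-!
The thresholds of odd dimensions on the grid: lower bounds of
`17 (1 - T^10) (1 - 9/(5m)) / (1 + 7/(5m))` on `(0, 1/2]` and of the maximum of `94/5 - 256/(5m)`
and `(63/5 - 146/(5m)) / (1 - T^2)` on `(1/2, 1)`, from the least dimension of a block.
-/

namespace Vale.Agent.P224.R2.H355

open Set Vale.Agent.P224.R2.H484

/-- the factor of the thresholds -/
def thq (m : ℕ) : ℚ := (1 - 9 / (5 * m)) / (1 + 7 / (5 * m))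

/-- rounding down -/
def fl3 (x : ℚ) : ℚ := (⌊x * 1000⌋ : ℤ) / 1000

/-- lower bound of the threshold on the cell `c` -/
def oc1 (m c : ℕ) : ℚ :=
  if tR (c + 1) ≤ 1 / 2 then fl3 (17 * (1 - tR (c + 1) ^ 10) * thq m)
  else if tR c < 1 / 2 then min (fl3 (17 * (1 - (1 / 2) ^ 10) * thq m)) (94 / 5 - 256 / (5 * m))
  else 94 / 5 - 256 / (5 * m)

/-- lower bound of the threshold times `1 - T^2` on the cell `c` -/
def oc2 (m c : ℕ) : ℚ :=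
  if tR c < 1 / 2 then fl3 (oc1 m c * kR (c + 1) ^ 2) else 63 / 5 - 146 / (5 * m)

lemma half_le {q : ℚ} (h : 1 / 2 ≤ q) : (1 : ℝ) / 2 ≤ (q : ℝ) := by
  have h1 : ((1 / 2 : ℚ) : ℝ) ≤ (q : ℝ) := Rat.cast_le.2 h
  push_cast at h1
  exact h1

lemma le_half {q : ℚ} (h : q ≤ 1 / 2) : (q : ℝ) ≤ 1 / 2 := by
  have h1 : (q : ℝ) ≤ ((1 / 2 : ℚ) : ℝ) := Rat.cast_le.2 h
  push_cast at h1
  exact h1

lemma fl3_le (x : ℚ) : fl3 x ≤ x := by
  unfold fl3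
  have := Int.floor_le (x * 1000)
  linarith

lemma kR_sq (c : ℕ) : kR c ^ 2 = 1 - tR c ^ 2 := by
  unfold kR tR
  have h : (40000 + (c : ℚ) ^ 2) ≠ 0 := by positivity
  rw [div_pow, div_pow, eq_sub_iff_add_eq, ← add_div, div_eq_one_iff_eq (pow_ne_zero 2 h)]
  ring

lemma thq_nonneg {m : ℕ} (hm : 17 ≤ m) : (0 : ℝ) ≤ (1 - 9 / (5 * m)) / (1 + 7 / (5 * m)) := by
  have h : (17 : ℝ) ≤ m := by exact_mod_cast hm
  have h1 : 9 / (5 * (m : ℝ)) ≤ 1 := by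
    rw [div_le_one (by positivity)]
    linarith
  exact div_nonneg (by linarith) (by positivity)

lemma thq_le {m1 m : ℕ} (h1 : 17 ≤ m1) (hm : m1 ≤ m) :
    ((thq m1 : ℚ) : ℝ) ≤ (1 - 9 / (5 * m)) / (1 + 7 / (5 * m)) := by
  have h1' : (17 : ℝ) ≤ m1 := by exact_mod_cast h1
  have hm' : (m1 : ℝ) ≤ m := by exact_mod_cast hm
  have h0 : (0 : ℝ) < m := by linarith
  have h0' : (0 : ℝ) < m1 := by linarith
  unfold thq
  push_cast
  have e1 : (1 - 9 / (5 * (m1 : ℝ))) / (1 + 7 / (5 * m1)) = 1 - 16 / (5 * m1 + 7) := by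
    field_simp
    ring
  have e2 : (1 - 9 / (5 * (m : ℝ))) / (1 + 7 / (5 * m)) = 1 - 16 / (5 * m + 7) := by
    field_simp
    ring
  rw [e1, e2]
  have : (16 : ℝ) / (5 * m + 7) ≤ 16 / (5 * m1 + 7) :=
    div_le_div_of_nonneg_left (by norm_num) (by positivity) (by linarith)
  linarith

lemma hiA_le {m1 m : ℕ} (h1 : 17 ≤ m1) (hm : m1 ≤ m) :
    (94 / 5 - 256 / (5 * (m1 : ℝ))) ≤ 94 / 5 - 256 / (5 * m) := by
  have h1' : (17 : ℝ) ≤ m1 := by exact_mod_cast h1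
  have hm' : (m1 : ℝ) ≤ m := by exact_mod_cast hm
  have : (256 : ℝ) / (5 * m) ≤ 256 / (5 * m1) :=
    div_le_div_of_nonneg_left (by norm_num) (by linarith) (by linarith)
  linarith

lemma hiB_le {m1 m : ℕ} (h1 : 17 ≤ m1) (hm : m1 ≤ m) :
    (63 / 5 - 146 / (5 * (m1 : ℝ))) ≤ 63 / 5 - 146 / (5 * m) := by
  have h1' : (17 : ℝ) ≤ m1 := by exact_mod_cast h1
  have hm' : (m1 : ℝ) ≤ m := by exact_mod_cast hm
  have : (146 : ℝ) / (5 * m) ≤ 146 / (5 * m1) :=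
    div_le_div_of_nonneg_left (by norm_num) (by linarith) (by linarith)
  linarith

/-- the low part: from a bound of `T` -/
lemma low_le {m1 m : ℕ} (h17 : 17 ≤ m1) (hm : m1 ≤ m) {x : ℚ} (hx0 : 0 ≤ x) (hx1 : x ≤ 1)
    {T : ℝ} (hT0 : 0 < T) (hT : T ≤ x) :
    ((fl3 (17 * (1 - x ^ 10) * thq m1) : ℚ) : ℝ)
      ≤ 17 * (1 - T ^ 10) * ((1 - 9 / (5 * m)) / (1 + 7 / (5 * m))) := by
  have h1 : ((fl3 (17 * (1 - x ^ 10) * thq m1) : ℚ) : ℝ)
      ≤ ((17 * (1 - x ^ 10) * thq m1 : ℚ) : ℝ) := by exact_mod_cast fl3_le _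
  refine h1.trans ?_
  push_cast
  have hx1' : (x : ℝ) ≤ 1 := by exact_mod_cast hx1
  have hx0' : (0 : ℝ) ≤ x := by exact_mod_cast hx0
  have h2 : T ^ 10 ≤ (x : ℝ) ^ 10 := pow_le_pow_left₀ hT0.le hT 10
  have h3 : (x : ℝ) ^ 10 ≤ 1 := pow_le_one₀ hx0' hx1'
  have h4 := thq_le h17 hm
  have h5 := thq_nonneg (h17.trans hm)
  have h6 : 17 * (1 - (x : ℝ) ^ 10) * (thq m1 : ℚ)
      ≤ 17 * (1 - (x : ℝ) ^ 10) * ((1 - 9 / (5 * m)) / (1 + 7 / (5 * m))) :=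
    mul_le_mul_of_nonneg_left h4 (by linarith)
  refine h6.trans (mul_le_mul_of_nonneg_right (by linarith) h5)

theorem oc_le {m1 m : ℕ} (h17 : 17 ≤ m1) (hm : m1 ≤ m) {lT : ℝ → ℝ}
    (h1 : ∀ T ∈ Ioo (0 : ℝ) 1, T ≤ 1 / 2 →
      17 * (1 - T ^ 10) * ((1 - 9 / (5 * m)) / (1 + 7 / (5 * m))) ≤ lT T)
    (h2 : ∀ T ∈ Ioo (0 : ℝ) 1, 1 / 2 < T → 94 / 5 - 256 / (5 * (m : ℝ)) ≤ lT T
      ∧ (63 / 5 - 146 / (5 * (m : ℝ))) / (1 - T ^ 2) ≤ lT T) :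
    ∀ c < 200, ∀ T ∈ Ioo (0 : ℝ) 1, ((tR c : ℚ) : ℝ) < T → T ≤ tR (c + 1) →
      ((oc1 m1 c : ℚ) : ℝ) ≤ lT T ∧ ((oc2 m1 c : ℚ) : ℝ) / (1 - T ^ 2) ≤ lT T := by
  intro c hc T hT hT1 hT2
  have hk : (0 : ℝ) < 1 - T ^ 2 := by nlinarith [hT.1, hT.2]
  have ht0 : ∀ c : ℕ, 0 ≤ tR c := fun c => by unfold tR; positivity
  have ht1 : ∀ c : ℕ, tR c ≤ 1 := fun c => by
    unfold tR
    rw [div_le_one (by positivity)]
    nlinarith [sq_nonneg ((c : ℚ) - 200)]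
  have hA : ((94 / 5 - 256 / (5 * m1) : ℚ) : ℝ) = 94 / 5 - 256 / (5 * (m1 : ℝ)) := by push_cast; ring
  have hB : ((63 / 5 - 146 / (5 * m1) : ℚ) : ℝ) = 63 / 5 - 146 / (5 * (m1 : ℝ)) := by push_cast; ring
  have key : ((oc1 m1 c : ℚ) : ℝ) ≤ lT T := by
    unfold oc1
    split_ifs with a1 a2
    · have a1' : ((tR (c + 1) : ℚ) : ℝ) ≤ 1 / 2 := le_half a1
      exact (low_le h17 hm (ht0 _) (ht1 _) hT.1 hT2).trans (h1 T hT (hT2.trans a1'))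
    · rcases le_or_gt T (1 / 2) with b | b
      · have h3 := low_le h17 hm (x := 1 / 2) (by norm_num) (by norm_num) hT.1
          (by push_cast; exact b)
        have h4 : ((min (fl3 (17 * (1 - (1 / 2) ^ 10) * thq m1)) (94 / 5 - 256 / (5 * m1)) : ℚ) : ℝ)
            ≤ ((fl3 (17 * (1 - (1 / 2) ^ 10) * thq m1) : ℚ) : ℝ) := by
          exact_mod_cast min_le_left _ _
        exact h4.trans (h3.trans (h1 T hT b))
      · have h4 : ((min (fl3 (17 * (1 - (1 / 2) ^ 10) * thq m1)) (94 / 5 - 256 / (5 * m1)) : ℚ) : ℝ)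
            ≤ ((94 / 5 - 256 / (5 * m1) : ℚ) : ℝ) := by
          exact_mod_cast min_le_right _ _
        exact h4.trans (hA.le.trans ((hiA_le h17 hm).trans (h2 T hT b).1))
    · have a2' : (1 : ℝ) / 2 ≤ ((tR c : ℚ) : ℝ) := half_le (not_lt.1 a2)
      exact hA.le.trans ((hiA_le h17 hm).trans (h2 T hT (lt_of_le_of_lt a2' hT1)).1)
  refine ⟨key, ?_⟩
  unfold oc2
  split_ifs with a1
  · by_cases hneg : (oc1 m1 c : ℝ) ≤ 0
    · have h3 : ((fl3 (oc1 m1 c * kR (c + 1) ^ 2) : ℚ) : ℝ) ≤ 0 := by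
        have h4 : ((fl3 (oc1 m1 c * kR (c + 1) ^ 2) : ℚ) : ℝ)
            ≤ ((oc1 m1 c * kR (c + 1) ^ 2 : ℚ) : ℝ) := by exact_mod_cast fl3_le _
        refine h4.trans ?_
        push_cast
        exact mul_nonpos_of_nonpos_of_nonneg hneg (sq_nonneg _)
      have h5 : (0 : ℝ) ≤ lT T := by
        rcases le_or_gt T (1 / 2) with b | b
        · refine le_trans ?_ (h1 T hT b)
          have h6 : T ^ 10 ≤ 1 := pow_le_one₀ hT.1.le hT.2.le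
          have := thq_nonneg (h17.trans hm)
          have h7 : 0 ≤ 17 * (1 - T ^ 10) := by linarith
          exact mul_nonneg h7 this
        · refine le_trans ?_ (h2 T hT b).1
          have h17' : (17 : ℝ) ≤ m := by exact_mod_cast h17.trans hm
          have : (256 : ℝ) / (5 * m) ≤ 256 / (5 * 17) :=
            div_le_div_of_nonneg_left (by norm_num) (by norm_num) (by linarith)
          norm_num at this ⊢
          linarith
      exact (div_nonpos_of_nonpos_of_nonneg h3 hk.le).trans h5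
    · push Not at hneg
      rw [div_le_iff₀ hk]
      have h4 : ((fl3 (oc1 m1 c * kR (c + 1) ^ 2) : ℚ) : ℝ)
          ≤ ((oc1 m1 c * kR (c + 1) ^ 2 : ℚ) : ℝ) := by exact_mod_cast fl3_le _
      refine h4.trans ?_
      rw [kR_sq]
      push_cast
      have h5 : T ^ 2 ≤ ((tR (c + 1) : ℚ) : ℝ) ^ 2 := pow_le_pow_left₀ hT.1.le hT2 2
      have h6 : (0 : ℝ) ≤ 1 - ((tR (c + 1) : ℚ) : ℝ) ^ 2 := by
        have := pow_le_one₀ (n := 2) (ht0 (c + 1)) (ht1 (c + 1))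
        have : ((tR (c + 1) : ℚ) : ℝ) ^ 2 ≤ 1 := by exact_mod_cast this
        linarith
      have h7 : (oc1 m1 c : ℝ) * (1 - ((tR (c + 1) : ℚ) : ℝ) ^ 2) ≤ oc1 m1 c * (1 - T ^ 2) :=
        mul_le_mul_of_nonneg_left (by linarith) hneg.le
      exact h7.trans (mul_le_mul_of_nonneg_right key hk.le)
  · have a2' : (1 : ℝ) / 2 ≤ ((tR c : ℚ) : ℝ) := half_le (not_lt.1 a1)
    refine le_trans (div_le_div_of_nonneg_right ?_ hk.le)
      (h2 T hT (lt_of_le_of_lt a2' hT1)).2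
    exact hB.le.trans (hiB_le h17 hm)

end Vale.Agent.P224.R2.H355
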