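import Vale.Agent.P224.R2.H869.TlBlk
import Vale.Agent.P224.R2.H355.OThr

/-!
Blocks of dimensions with the thresholds of the odd case: tables, certificates, the relative tail.
-/

namespace Vale.Agent.P224.R2.H355

open MeasureTheory Set Function Real Module Matrix Vale.Agent.P224 Vale.Agent.P224.FV
  Vale.Agent.P224.R2.H582 Vale.Agent.P224.R2.H484 Vale.Agent.P224.R2.H728
  Vale.Agent.P224.R2.H686 Vale.Agent.P224.R2.H662 Vale.Agent.P224.R2.H876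
  Vale.Agent.P224.R2.H869
open Vale.Agent.P224.SM2 hiding ker
open Vale.Agent.P224.R2.H470 hiding tg
open scoped Topology RealInnerProductSpace ContDiff Manifold

set_option linter.unusedSectionVars false

/-- a block with its kernel checked tables; thresholds of the odd case -/
structure BlkO where
  m1 : ℕ
  m2 : ℕ
  L : List CN
  Lm : List ℕ
  η : ℚ
  β : ℚ
  K : ℚ
  jj : ℕ
  i1 : ℕ
  i2 : ℕ
  X2 : ℕ → ℕ → ℚ
  X1 : ℕ → ℕ → ℚ
  X0 : ℕ → ℕ → ℚ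
  z2 : ℚ
  z1 : ℚ
  z0 : ℚ
  h17 : 17 ≤ m1
  ok : okB m1 (oc1 m1) (oc2 m1) η β K jj i1 i2 = true
  cells : cellsOK L m1 m2 (oc1 m1) (oc2 m1) = true
  coef : coefS L m1 (MQ Lm) η β K jj i1 i2 X2 X1 X0 z2 z1 z0 = true
  mom : ∀ m q : ℕ, m1 ≤ m → (m2 = 0 ∨ m ≤ m2) → MM m q ≤ Mt m Lm q

/-- the one point function of the block -/
noncomputable def BlkO.G (B : BlkO) : ℝ → ℝ → ℝ → ℝ := PS B.jj B.X2 B.X1 B.X0 B.z2 B.z1 B.z0

/-- a relative tail for `j_a² ≤ kap (m + 1)`, from the standard multipliers and the pointwise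
inequality -/
structure CertO (B : BlkO) where
  Mu : Mult
  kap : ℚ
  rel : ℚ
  ab : ℚ
  mok : Mu.ok = true
  fit : fitR B.m1 Mu.lam Mu.eta kap rel ab = true
  pt : ∀ m : ℕ, B.m1 ≤ m → (B.m2 = 0 ∨ m ≤ B.m2) → PtIneqB m Mu.lam B.G Mu.row rel

/-- a certificate from the form without square roots -/
def CertO.ofPL {B : BlkO} (Mu : Mult) (kap rel ab : ℚ) (mok : Mu.ok = true)
    (fit : fitR B.m1 Mu.lam Mu.eta kap rel ab = true) {th : List ℚ} {thz : ℚ}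
    {al be : ℕ → ℕ → ℚ} {ra rb : ℚ}
    (hth : thOK B.jj B.X2 B.X1 B.X0 B.z2 B.z1 B.z0 th thz al be ra rb = true)
    (pt : ∀ m : ℕ, PtIneq m (PL B.jj al be ra rb) Mu.row rel) : CertO B where
  Mu := Mu
  kap := kap
  rel := rel
  ab := ab
  mok := mok
  fit := fit
  pt := fun m _ _ => ((pt m).toB Mu.lam).mono fun _ _ _ ha hb hφ => PS_le_PL hth ha hb hφ

section

variable {V W M : Type*} [NormedAddCommGroup V] [InnerProductSpace ℝ V] [FiniteDimensional ℝ V]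
  [NormedAddCommGroup W] [InnerProductSpace ℝ W] [FiniteDimensional ℝ W]
  [TopologicalSpace M] [ChartedSpace V M]
  [MeasurableSpace V] [BorelSpace V] [MeasurableSpace M] [BorelSpace M]
  [MeasurableSpace W] [BorelSpace W] [IsManifold 𝓘(ℝ, V) ∞ M]
  [CompactSpace M] [T2Space M]

/-- **the relative tail of a block of dimensions**, thresholds of the odd case -/
theorem CertO.relTail {B : BlkO} (C : CertO B) {F N : M → W} (D : NrmData V F N)
    {ι : Type*} [Fintype ι] [DecidableEq ι] (b : OrthonormalBasis ι ℝ W) {j : ι → ℝ}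
    [Nontrivial W] (hLS : LSq (nrm (volM V F)) (diagonal j) (co b F) (co b N))
    (hm1 : B.m1 ≤ finrank ℝ V) (hm2 : B.m2 = 0 ∨ finrank ℝ V ≤ B.m2)
    (hP : RowP V F N (dop b j) C.Mu.lam C.Mu.eta C.Mu.c1) {lT : ℝ → ℝ}
    (l1 : ∀ T ∈ Ioo (0 : ℝ) 1, T ≤ 1 / 2 → 17 * (1 - T ^ 10) *
      ((1 - 9 / (5 * (finrank ℝ V : ℝ))) / (1 + 7 / (5 * (finrank ℝ V : ℝ)))) ≤ lT T)
    (l2 : ∀ T ∈ Ioo (0 : ℝ) 1, 1 / 2 < T → 94 / 5 - 256 / (5 * (finrank ℝ V : ℝ)) ≤ lT T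
      ∧ (63 / 5 - 146 / (5 * (finrank ℝ V : ℝ))) / (1 - T ^ 2) ≤ lT T)
    (habs : AbsTail (volM V F) (finrank ℝ V) F N lT C.ab)
    (hj : ∀ a, j a ^ 2 ≤ (C.kap : ℝ) * (finrank ℝ V + 1)) :
    AbsTail (volM V F) (finrank ℝ V) F N lT
      (C.rel * hh (nrm (volM V F)) (diagonal j) (co b F) (co b N)) :=
  rel_endS D b hLS B.ok B.cells B.coef B.mom hm1 hm2 (oc_le B.h17 hm1 l1 l2)
    C.fit (hR_mult D b C.mok (Or.inr hP)) (C.pt _ hm1 hm2) habs hj

end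

end Vale.Agent.P224.R2.H355
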