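import Vale.Agent.P224.R2.H355.TbO37
import Vale.Agent.P224.R2.H355.TbO61
import Vale.Agent.P224.R2.H355.TbO101
import Vale.Agent.P224.R2.H355.TbO201
import Vale.Agent.P224.R2.H355.TbO400
import Vale.Agent.P224.R2.H355.BlkO

/-!
The blocks with the thresholds of odd dimensions.
-/

namespace Vale.Agent.P224.R2.H355

open Vale.Agent.P224.R2.H484 Vale.Agent.P224.R2.H876

/-- the block from 37 to 59 -/
def bO37 : BlkO where
  m1 := 37
  m2 := 59
  L := Lo37
  Lm := L60
  η := 1 / 20
  β := 41 / 50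
  K := 57 / 50
  jj := 5
  i1 := 14
  i2 := 10
  X2 := tN X2o37
  X1 := tN X1o37
  X0 := tN X0o37
  z2 := z2o37
  z1 := z1o37
  z0 := z0o37
  h17 := by norm_num
  ok := oko37
  cells := cellso37
  coef := coefo37
  mom := fun m q h1 h2 => MM_le_60 (by omega) (by omega) q

/-- the block from 61 to 99 -/
def bO61 : BlkO where
  m1 := 61
  m2 := 99
  L := Lo61
  Lm := L100
  η := 1 / 20
  β := 41 / 50
  K := 57 / 50
  jj := 5
  i1 := 14
  i2 := 8
  X2 := tN X2o61
  X1 := tN X1o61
  X0 := tN X0o61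
  z2 := z2o61
  z1 := z1o61
  z0 := z0o61
  h17 := by norm_num
  ok := oko61
  cells := cellso61
  coef := coefo61
  mom := fun m q h1 h2 => MM_le_100 (by omega) (by omega) q

/-- the block from 101 to 199 -/
def bO101 : BlkO where
  m1 := 101
  m2 := 199
  L := Lo101
  Lm := L200
  η := 1 / 20
  β := 39 / 50
  K := 57 / 50
  jj := 5
  i1 := 13
  i2 := 8
  X2 := tN X2o101
  X1 := tN X1o101
  X0 := tN X0o101
  z2 := z2o101
  z1 := z1o101
  z0 := z0o101
  h17 := by norm_num
  ok := oko101
  cells := cellso101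
  coef := coefo101
  mom := fun m q h1 h2 => MM_le_200 (by omega) (by omega) q

/-- the block from 201 to 399 -/
def bO201 : BlkO where
  m1 := 201
  m2 := 399
  L := Lo201
  Lm := L400
  η := 1 / 20
  β := 39 / 50
  K := 57 / 50
  jj := 5
  i1 := 12
  i2 := 7
  X2 := tN X2o201
  X1 := tN X1o201
  X0 := tN X0o201
  z2 := z2o201
  z1 := z1o201
  z0 := z0o201
  h17 := by norm_num
  ok := oko201
  cells := cellso201
  coef := coefo201
  mom := fun m q h1 h2 => MM_le_400 (by omega) (by omega) q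

/-- the block from 400 on -/
def bO400 : BlkO where
  m1 := 400
  m2 := 0
  L := Lo400
  Lm := Linf
  η := 1 / 20
  β := 39 / 50
  K := 57 / 50
  jj := 5
  i1 := 11
  i2 := 7
  X2 := tN X2o400
  X1 := tN X1o400
  X0 := tN X0o400
  z2 := z2o400
  z1 := z1o400
  z0 := z0o400
  h17 := by norm_num
  ok := oko400
  cells := cellso400
  coef := coefo400
  mom := fun m q h1 h2 => MM_le_all (by omega) q

end Vale.Agent.P224.R2.H355
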