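import Vale.Agent.P224.R2.H355.HSys
import Vale.Agent.P224.R2.H627.Bnd

/-!
Comparison of a solution of the h-form of the exact flow with the even weights.
-/

namespace Vale.Agent.P224.R2.H355

open MeasureTheory Set Filter Real Vale.Agent.P224.R2.H627
open scoped Topology

/-- the absolute bounds which are used in the comparison -/
structure Stg {a L : ℝ} (κ φ : ℝ) (s : HSol a L) : Prop where
  F0 : ∀ h ∈ Icc (0 : ℝ) 1, 0 ≤ s.F h
  F10 : ∀ h ∈ Icc (0 : ℝ) 1, 0 ≤ s.F1 h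
  Fu : ∀ h ∈ Icc (0 : ℝ) 1, s.F h ≤ φ * h ^ 2
  Su : ∀ h ∈ Icc (0 : ℝ) 1, 2 * h * s.F1 h + s.F h ≤ 2 * h ^ 2 * (15 + κ / a * h ^ 5)

section

variable {a L c κ φ T : ℝ} (s : HSol a L)

lemma hv_mem (hT : T ∈ Ioo (0 : ℝ) 1) : hv T ∈ Icc (0 : ℝ) 1 :=
  ⟨(hv_pos hT).le, (hv_lt_one hT).le⟩

lemma hv_mem' (hT : T ∈ Ioo (0 : ℝ) 1) : hv T ∈ Ioo (-1 / 3 : ℝ) 1 :=
  ⟨by linarith [hv_pos hT], hv_lt_one hT⟩

/-- composition of the derivative -/
lemma hasDerivAt_H2 {f f1 f2 : ℝ → ℝ} (c : H2 f f1 f2) (hT : T ∈ Ioo (0 : ℝ) 1) :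
    HasDerivAt (fun T => f (hv T)) (-(1 - hv T ^ 2) * f1 (hv T) / T) T :=
  hasDerivAt_comp_hv hT.1.ne' (c.d1 _ (hv_mem' hT))

lemma hasDerivAt_H2' {f f1 f2 : ℝ → ℝ} (c : H2 f f1 f2) (hT : T ∈ Ioo (0 : ℝ) 1) :
    HasDerivAt (fun T => f1 (hv T)) (-(1 - hv T ^ 2) * f2 (hv T) / T) T :=
  hasDerivAt_comp_hv hT.1.ne' (c.d2 _ (hv_mem' hT))

lemma tendsto_d1 {f f1 : ℝ → ℝ} (d : ∀ h ∈ Ioo (-1 / 3 : ℝ) 1, HasDerivAt f (f1 h) h) :
    Tendsto (fun T => f (hv T)) (𝓝[<] 1) (𝓝 (f 0)) :=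
  tendsto_comp_hv (d 0 ⟨by norm_num, by norm_num⟩).continuousAt

/-- the equation of `V` in the variable T -/
lemma V_eq (hT : T ∈ Ioo (0 : ℝ) 1) : -(1 - hv T ^ 2) * s.V2 (hv T)
    = (a / hv T - 3 * hv T) * s.V1 (hv T) - 3 / 4 * s.V (hv T)
      - L / 16 * ((2 * hv T * s.F1 (hv T) + s.F (hv T)) / hv T) := by
  have h0 := hv_pos hT
  have e := s.eV _ (hv_mem hT)
  field_simp
  linarith

/-- the equation of `E` in the variable T -/
lemma E_eq (hT : T ∈ Ioo (0 : ℝ) 1) : -(1 - hv T ^ 2) * s.E1 (hv T)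
    = (a / hv T + (1 - 3 * hv T) / 2) * s.E (hv T)
      - a * (s.W (hv T) - 2 * (1 - hv T) * s.W1 (hv T)) := by
  have h0 := hv_pos hT
  have e := s.eE _ (hv_mem hT)
  field_simp
  linarith

/-- the defect of the logarithmic derivative -/
noncomputable def Uf (s : HSol a L) (c T : ℝ) : ℝ :=
  s.V1 (hv T) - s.V (hv T) * (Pf a c T / Wf a c T)

lemma hasDerivAt_Uf (hc : 0 < c) (ha : 2 ≤ a) (hT : T ∈ Ioo (0 : ℝ) 1) :
    HasDerivAt (Uf s c) (((a / hv T - 3 * hv T + (1 - hv T ^ 2) * (Pf a c T / Wf a c T)) * Uf s c T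
      - L / 16 * ((2 * hv T * s.F1 (hv T) + s.F (hv T)) / hv T)) / T) T := by
  have hw : Wf a c T ≠ 0 := (Wf_pos hc ha).ne'
  have h1 := (hasDerivAt_H2' s.cV hT).fun_sub ((hasDerivAt_H2 s.cV hT).fun_mul
    ((hasDerivAt_Pf (c := c) ha hT).fun_div (hasDerivAt_Wf (c := c) ha hT) hw))
  refine h1.congr_deriv ?_
  have h2 := V_eq s hT
  have hT0 := hT.1.ne'
  rw [h2]
  unfold Uf
  field_simp
  ring

lemma tendsto_Uf (hc : 0 < c) (ha : 2 ≤ a) : Tendsto (Uf s c) (𝓝[<] 1) (𝓝 0) := by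
  have h1 := tendsto_d1 s.cV.d2
  have h2 := tendsto_d1 s.cV.d1
  have h3 := (tendsto_Pf (a := a) hc.le ha).div (tendsto_Wf (c := c) ha) (Wf_pos hc ha).ne'
  have h4 := h1.sub (h2.mul h3)
  rw [s.V10, zero_div, mul_zero, sub_zero] at h4
  exact h4

lemma A_nonneg (ha : 3 ≤ a) (hT : T ∈ Ioo (0 : ℝ) 1) : 0 ≤ a / hv T - 3 * hv T := by
  have h1 := hv_pos hT
  have h2 := hv_lt_one hT
  have h3 : a ≤ a / hv T := by
    rw [le_div_iff₀ h1]
    nlinarith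
  linarith

lemma PW_nonneg (hc : 0 < c) (ha : 2 ≤ a) (hT : T ∈ Ioo (0 : ℝ) 1) : 0 ≤ Pf a c T / Wf a c T :=
  div_nonneg (Pf_nonneg hc.le ha hT) (Wf_pos hc ha).le

lemma A_nonneg' (hc : 0 < c) (ha : 3 ≤ a) (hT : T ∈ Ioo (0 : ℝ) 1) :
    0 ≤ a / hv T - 3 * hv T + (1 - hv T ^ 2) * (Pf a c T / Wf a c T) := by
  have h1 := A_nonneg ha hT
  have h2 := PW_nonneg (a := a) hc (by linarith) hT
  have h3 := hv_pos hT
  have h4 := hv_lt_one hT
  have : 0 ≤ 1 - hv T ^ 2 := by nlinarith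
  positivity

variable {s}

lemma Stg.S0 (st : Stg κ φ s) (hT : T ∈ Ioo (0 : ℝ) 1) :
    0 ≤ (2 * hv T * s.F1 (hv T) + s.F (hv T)) / hv T := by
  have h1 := hv_pos hT
  have h2 := st.F0 _ (hv_mem hT)
  have h3 := st.F10 _ (hv_mem hT)
  positivity

theorem Uf_nonneg (st : Stg κ φ s) (hL : 0 ≤ L) (hc : 0 < c) (ha : 3 ≤ a)
    (hT : T ∈ Ioo (0 : ℝ) 1) : 0 ≤ Uf s c T := by
  refine cmp (A := fun T => a / hv T - 3 * hv T + (1 - hv T ^ 2) * (Pf a c T / Wf a c T))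
    (B := fun T => L / 16 * ((2 * hv T * s.F1 (hv T) + s.F (hv T)) / hv T)) (l := 0)
    (fun T hT => hasDerivAt_Uf s hc (by linarith) hT) (fun T hT => A_nonneg' hc ha hT) ?_
    (tendsto_Uf s hc (by linarith)) le_rfl hT
  intro T hT
  have := st.S0 hT
  positivity

/-- the upper bound of `U` -/
noncomputable def qU (a L κ h : ℝ) : ℝ := L / 8 * (h ^ 2 * (15 + κ / a * h ^ 5) / (a - 3 * h ^ 2))

lemma hasDerivAt_qU {h : ℝ} (hd : a - 3 * h ^ 2 ≠ 0) : HasDerivAt (qU a L κ)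
    (L / 8 * (((2 * h * 15 + 7 * (κ / a) * h ^ 6) * (a - 3 * h ^ 2)
      + h ^ 2 * (15 + κ / a * h ^ 5) * (6 * h)) / (a - 3 * h ^ 2) ^ 2)) h := by
  have h1 : HasDerivAt (fun h : ℝ => h ^ 2 * (15 + κ / a * h ^ 5))
      (2 * h * 15 + 7 * (κ / a) * h ^ 6) h := by
    refine ((hasDerivAt_pow 2 h).fun_mul
      (((hasDerivAt_pow 5 h).const_mul (κ / a)).const_add 15)).congr_deriv ?_
    push_cast
    ring
  have h2 : HasDerivAt (fun h : ℝ => a - 3 * h ^ 2) (-(6 * h)) h := by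
    refine (((hasDerivAt_pow 2 h).const_mul 3).const_sub a).congr_deriv ?_
    push_cast
    ring
  refine ((h1.fun_div h2 hd).const_mul (L / 8)).congr_deriv ?_
  ring

lemma qU_den (ha : 4 ≤ a) {h : ℝ} (h0 : 0 ≤ h) (h1 : h ≤ 1) : 0 < a - 3 * h ^ 2 := by nlinarith

theorem Uf_le (st : Stg κ φ s) (hL : 0 ≤ L) (hκ : 0 ≤ κ) (hc : 0 < c) (ha : 4 ≤ a)
    (hT : T ∈ Ioo (0 : ℝ) 1) : Uf s c T ≤ qU a L κ (hv T) := by
  have ha0 : 0 < a := by linarith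
  have h := cmp (X := fun T => qU a L κ (hv T) - Uf s c T)
    (A := fun T => a / hv T - 3 * hv T + (1 - hv T ^ 2) * (Pf a c T / Wf a c T))
    (B := fun T => (a / hv T - 3 * hv T + (1 - hv T ^ 2) * (Pf a c T / Wf a c T))
      * qU a L κ (hv T) + (1 - hv T ^ 2) * (L / 8 * (((2 * hv T * 15 + 7 * (κ / a) * hv T ^ 6)
      * (a - 3 * hv T ^ 2) + hv T ^ 2 * (15 + κ / a * hv T ^ 5) * (6 * hv T))
        / (a - 3 * hv T ^ 2) ^ 2)) - L / 16 * ((2 * hv T * s.F1 (hv T) + s.F (hv T)) / hv T))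
    (l := 0 - 0) ?_ (fun T hT => A_nonneg' hc (by linarith) hT) ?_ ?_ (by norm_num) hT
  · simpa using h
  · intro T hT
    have hd := qU_den ha (hv_pos hT).le (hv_lt_one hT).le
    refine ((hasDerivAt_comp_hv hT.1.ne' (hasDerivAt_qU hd.ne')).fun_sub
      (hasDerivAt_Uf s hc (by linarith) hT)).congr_deriv ?_
    have hT0 := hT.1.ne'
    field_simp
    ring
  · intro T hT
    have h0 := hv_pos hT
    have h1 := hv_lt_one hT
    have hd := qU_den ha h0.le h1.le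
    have hS := st.Su _ (hv_mem hT)
    have hp := PW_nonneg (a := a) hc (by linarith) hT
    set h := hv T with hh
    have h2 : 0 ≤ 1 - h ^ 2 := by nlinarith
    have hd' := hd.ne'
    have e1 : (a / h - 3 * h) * qU a L κ h = L / 16 * (2 * h ^ 2 * (15 + κ / a * h ^ 5) / h) := by
      have e0 : a / h - 3 * h = (a - 3 * h ^ 2) / h := by field_simp
      rw [e0]
      unfold qU
      field_simp
      ring
    have e2 : L / 16 * ((2 * h * s.F1 h + s.F h) / h)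
        ≤ L / 16 * (2 * h ^ 2 * (15 + κ / a * h ^ 5) / h) := by
      gcongr
    have e3 : 0 ≤ (1 - h ^ 2) * (Pf a c T / Wf a c T) * qU a L κ h := by
      unfold qU
      positivity
    have e4 : 0 ≤ (1 - h ^ 2) * (L / 8 * (((2 * h * 15 + 7 * (κ / a) * h ^ 6)
        * (a - 3 * h ^ 2) + h ^ 2 * (15 + κ / a * h ^ 5) * (6 * h)) / (a - 3 * h ^ 2) ^ 2)) := by
      positivity
    nlinarith
  · have h1 : Tendsto (fun T => qU a L κ (hv T)) (𝓝[<] 1) (𝓝 (qU a L κ 0)) :=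
      tendsto_comp_hv (hasDerivAt_qU (by nlinarith)).continuousAt
    have h2 : qU a L κ 0 = 0 := by
      unfold qU
      simp
    rw [h2] at h1
    exact h1.sub (tendsto_Uf s hc (by linarith))

lemma hasDerivAt_ratio (hc : 0 < c) (ha : 2 ≤ a) (hT : T ∈ Ioo (0 : ℝ) 1) :
    HasDerivAt (fun T => s.V (hv T) / Wf a c T)
      (-(1 - hv T ^ 2) * (Uf s c T / Wf a c T) / T) T := by
  have hw : Wf a c T ≠ 0 := (Wf_pos hc ha).ne'
  refine ((hasDerivAt_H2 s.cV hT).fun_div (hasDerivAt_Wf (c := c) ha hT) hw).congr_deriv ?_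
  have hT0 := hT.1.ne'
  unfold Uf
  field_simp
  ring

lemma tendsto_ratio (hc : 0 < c) (ha : 2 ≤ a) :
    Tendsto (fun T => s.V (hv T) / Wf a c T) (𝓝[<] 1) (𝓝 (1 / Wf a c 1)) := by
  have h2 := tendsto_d1 s.cV.d1
  rw [s.V0] at h2
  exact h2.div (tendsto_Wf (c := c) ha) (Wf_pos hc ha).ne'

lemma Wf_anti (hc : 0 < c) (ha : 2 ≤ a) (hT : T ∈ Ioo (0 : ℝ) 1) : Wf a c 1 ≤ Wf a c T := by
  have h := cmp (X := fun T => Wf a c T - Wf a c 1) (A := fun _ => 0)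
    (B := fun T => (1 - hv T ^ 2) * Pf a c T) (l := Wf a c 1 - Wf a c 1) ?_
    (fun _ _ => le_rfl) ?_ ?_ (by simp) hT
  · simpa using h
  · intro T hT
    refine ((hasDerivAt_Wf (c := c) ha hT).sub_const _).congr_deriv ?_
    ring
  · intro T hT
    have h1 := hv_pos hT
    have h2 := hv_lt_one hT
    have h3 := Pf_nonneg hc.le ha hT
    have : 0 ≤ 1 - hv T ^ 2 := by nlinarith
    positivity
  · exact (tendsto_Wf (c := c) ha).sub_const _

/-- lower bound of V -/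
theorem V_ge (st : Stg κ φ s) (hL : 0 ≤ L) (hc : 0 < c) (ha : 3 ≤ a)
    (hT : T ∈ Ioo (0 : ℝ) 1) : 1 / Wf a c 1 ≤ s.V (hv T) / Wf a c T := by
  have ha2 : 2 ≤ a := by linarith
  have h := cmp (X := fun T => s.V (hv T) / Wf a c T - 1 / Wf a c 1) (A := fun _ => 0)
    (B := fun T => (1 - hv T ^ 2) * (Uf s c T / Wf a c T)) (l := 1 / Wf a c 1 - 1 / Wf a c 1) ?_
    (fun _ _ => le_rfl) ?_ ?_ (by simp) hT
  · simpa using h
  · intro T hT
    refine ((hasDerivAt_ratio hc ha2 hT).sub_const _).congr_deriv ?_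
    ring
  · intro T hT
    have h1 := hv_pos hT
    have h2 := hv_lt_one hT
    have h3 := Uf_nonneg st hL hc ha hT
    have h4 := Wf_pos (T := T) hc ha2
    have : 0 ≤ 1 - hv T ^ 2 := by nlinarith
    positivity
  · exact (tendsto_ratio hc ha2).sub_const _

/-- the upper bound of the ratio -/
noncomputable def JJ (a L κ h : ℝ) : ℝ := L / (8 * a) * (5 * h ^ 3 + 9 / (a - 3) * h ^ 5
  + κ / (8 * a) * h ^ 8 + 3 * κ / (10 * a * (a - 3)) * h ^ 10)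

lemma hasDerivAt_JJ (ha : 4 ≤ a) (h : ℝ) : HasDerivAt (JJ a L κ)
    (L / (8 * a) * (h ^ 2 * (15 + κ / a * h ^ 5) * (1 + 3 / (a - 3) * h ^ 2))) h := by
  have h0 : a ≠ 0 := by linarith
  have h3 : a - 3 ≠ 0 := by linarith
  refine ((((((hasDerivAt_pow 3 h).const_mul 5).fun_add
    ((hasDerivAt_pow 5 h).const_mul (9 / (a - 3)))).fun_add
    ((hasDerivAt_pow 8 h).const_mul (κ / (8 * a)))).fun_add
    ((hasDerivAt_pow 10 h).const_mul (3 * κ / (10 * a * (a - 3))))).const_mul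
      (L / (8 * a))).congr_deriv ?_
  push_cast
  field_simp
  ring

lemma qU_le (hL : 0 ≤ L) (hκ : 0 ≤ κ) (ha : 4 ≤ a) {h : ℝ} (h0 : 0 ≤ h) (h1 : h ≤ 1) :
    qU a L κ h ≤ L / (8 * a) * (h ^ 2 * (15 + κ / a * h ^ 5) * (1 + 3 / (a - 3) * h ^ 2)) := by
  have ha0 : 0 < a := by linarith
  have h3 : 0 < a - 3 := by linarith
  have hd := qU_den ha h0 h1
  have e : a / (a - 3 * h ^ 2) ≤ 1 + 3 / (a - 3) * h ^ 2 := by
    have e1 : 1 + 3 / (a - 3) * h ^ 2 = (a - 3 + 3 * h ^ 2) / (a - 3) := by field_simp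
    rw [e1, div_le_div_iff₀ hd h3]
    have : 0 ≤ h ^ 2 * (1 - h ^ 2) := mul_nonneg (by positivity) (by nlinarith)
    nlinarith
  have e2 : qU a L κ h = L / (8 * a) * (h ^ 2 * (15 + κ / a * h ^ 5) * (a / (a - 3 * h ^ 2))) := by
    unfold qU
    have := hd.ne'
    field_simp
  rw [e2]
  gcongr

/-- upper bound of V -/
theorem V_le (st : Stg κ φ s) (hL : 0 ≤ L) (hκ : 0 ≤ κ) (hc : 0 < c) (ha : 4 ≤ a)
    (hT : T ∈ Ioo (0 : ℝ) 1) :
    s.V (hv T) / Wf a c T ≤ 1 / Wf a c 1 * (1 + JJ a L κ (hv T)) := by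
  have ha2 : 2 ≤ a := by linarith
  have hw1 := Wf_pos (T := 1) hc ha2
  have h := cmp (X := fun T => 1 / Wf a c 1 * (1 + JJ a L κ (hv T)) - s.V (hv T) / Wf a c T)
    (A := fun _ => 0)
    (B := fun T => (1 - hv T ^ 2) * (1 / Wf a c 1 * (L / (8 * a) * (hv T ^ 2
      * (15 + κ / a * hv T ^ 5) * (1 + 3 / (a - 3) * hv T ^ 2))) - Uf s c T / Wf a c T))
    (l := 1 / Wf a c 1 * (1 + 0) - 1 / Wf a c 1) ?_
    (fun _ _ => le_rfl) ?_ ?_ (by simp) hT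
  · simpa using h
  · intro T hT
    refine ((((hasDerivAt_comp_hv hT.1.ne' (hasDerivAt_JJ (L := L) (κ := κ) ha (hv T))).const_add
      1).const_mul (1 / Wf a c 1)).fun_sub (hasDerivAt_ratio hc ha2 hT)).congr_deriv ?_
    ring
  · intro T hT
    have h1 := hv_pos hT
    have h2 := hv_lt_one hT
    have h3 := Uf_nonneg st hL hc (by linarith) hT
    have h3' := (Uf_le st hL hκ hc ha hT).trans (qU_le hL hκ ha h1.le h2.le)
    have h4 := Wf_pos (T := T) hc ha2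
    have h5 := Wf_anti hc ha2 hT
    have h6 : Uf s c T / Wf a c T ≤ 1 / Wf a c 1 * (L / (8 * a) * (hv T ^ 2
      * (15 + κ / a * hv T ^ 5) * (1 + 3 / (a - 3) * hv T ^ 2))) := by
      calc Uf s c T / Wf a c T ≤ Uf s c T / Wf a c 1 := by gcongr
        _ = 1 / Wf a c 1 * Uf s c T := by ring
        _ ≤ _ := by gcongr
    have : 0 ≤ 1 - hv T ^ 2 := by nlinarith
    exact mul_nonneg this (by linarith)
  · have h1 : Tendsto (fun T => JJ a L κ (hv T)) (𝓝[<] 1) (𝓝 (JJ a L κ 0)) :=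
      tendsto_comp_hv (hasDerivAt_JJ ha 0).continuousAt
    have h2 : JJ a L κ 0 = 0 := by
      unfold JJ
      simp
    rw [h2] at h1
    exact ((h1.const_add 1).const_mul _).sub (tendsto_ratio hc ha2)

/-- bound of the logarithmic derivative of W -/
theorem PW_le (hc : 0 < c) (ha : 4 ≤ a) (hT : T ∈ Ioo (0 : ℝ) 1) :
    Pf a c T / Wf a c T ≤ 3 / 4 * hv T / (a - 3 * hv T ^ 2) := by
  have ha2 : 2 ≤ a := by linarith
  have hq : ∀ h : ℝ, a - 3 * h ^ 2 ≠ 0 → HasDerivAt (fun h : ℝ => 3 / 4 * h / (a - 3 * h ^ 2))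
      (3 / 4 * (a + 3 * h ^ 2) / (a - 3 * h ^ 2) ^ 2) h := by
    intro h hd
    have h2 : HasDerivAt (fun h : ℝ => a - 3 * h ^ 2) (-(6 * h)) h := by
      refine (((hasDerivAt_pow 2 h).const_mul 3).const_sub a).congr_deriv ?_
      push_cast
      ring
    refine (((hasDerivAt_id' h).const_mul (3 / 4)).fun_div h2 hd).congr_deriv ?_
    ring
  have h := cmp (X := fun T => 3 / 4 * hv T / (a - 3 * hv T ^ 2) - Pf a c T / Wf a c T)
    (A := fun T => a / hv T - 3 * hv T)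
    (B := fun T => (1 - hv T ^ 2) * (3 / 4 * (a + 3 * hv T ^ 2) / (a - 3 * hv T ^ 2) ^ 2)
      + (1 - hv T ^ 2) * (Pf a c T / Wf a c T) ^ 2)
    (l := 0 - 0) ?_ (fun T hT => A_nonneg (by linarith) hT) ?_ ?_ (by simp) hT
  · simpa using h
  · intro T hT
    have h0 := hv_pos hT
    have hd := (qU_den ha h0.le (hv_lt_one hT).le).ne'
    have hw := (Wf_pos (T := T) hc ha2).ne'
    refine ((hasDerivAt_comp_hv hT.1.ne' (hq _ hd)).fun_sub
      ((hasDerivAt_Pf (c := c) ha2 hT).fun_div (hasDerivAt_Wf (c := c) ha2 hT) hw)).congr_deriv ?_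
    have hT0 := hT.1.ne'
    have e0 : a / hv T - 3 * hv T = (a - 3 * hv T ^ 2) / hv T := by field_simp
    rw [e0]
    generalize Pf a c T = p
    generalize Wf a c T = w at hw ⊢
    obtain ⟨D, hD⟩ : ∃ D, D = a - 3 * hv T ^ 2 := ⟨_, rfl⟩
    rw [← hD] at hd ⊢
    have ha' : a + 3 * hv T ^ 2 = D + 6 * hv T ^ 2 := by linarith
    rw [ha']
    field_simp
    ring
  · intro T hT
    have h0 := hv_pos hT
    have h1 := hv_lt_one hT
    have hd := qU_den ha h0.le h1.le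
    have h2 : 0 ≤ 1 - hv T ^ 2 := by nlinarith
    have h3 : 0 < a + 3 * hv T ^ 2 := by positivity
    positivity
  · have h1 : Tendsto (fun T => 3 / 4 * hv T / (a - 3 * hv T ^ 2)) (𝓝[<] 1)
        (𝓝 (3 / 4 * 0 / (a - 3 * 0 ^ 2))) :=
      tendsto_comp_hv (q := fun h => 3 / 4 * h / (a - 3 * h ^ 2))
        (hq 0 (by nlinarith)).continuousAt
    rw [show (3 : ℝ) / 4 * 0 / (a - 3 * 0 ^ 2) = 0 by simp] at h1
    have h3 := (tendsto_Pf (a := a) hc.le ha2).div (tendsto_Wf (c := c) ha2) (Wf_pos hc ha2).ne'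
    rw [zero_div] at h3
    exact h1.sub h3

end

end Vale.Agent.P224.R2.H355
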