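import Mathlib.Tactic.Positivity
import Mathlib.Tactic.Linarith
import Mathlib.Tactic.Ring
import Mathlib.Data.Real.Basic

namespace Vale.Agent.P224.R2.H355

lemma lo_d2 {h : ℝ} (h0 : 0 ≤ h) (h1 : h ≤ 1) :
    0 ≤ 31 / 2 - 30 * h + 30 * h ^ 3 := by
  obtain ⟨u, hu⟩ : ∃ u, u = 1 - h := ⟨_, rfl⟩
  have hu0 : 0 ≤ u := by linarith
  have e : 31 / 2 - 30 * h + 30 * h ^ 3
      = 31 / 2 * u ^ 4 + 32 * h * u ^ 3 + 3 * h ^ 2 * u ^ 2 + 2 * h ^ 3 * u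
      + 31 / 2 * h ^ 4 := by
    rw [hu]
    ring
  rw [e]
  positivity

lemma lo_d1 {h : ℝ} (h0 : 0 ≤ h) (h1 : h ≤ 1) :
    0 ≤ 527 / 2 - 2133 / 4 * h - 93 / 4 * h ^ 2 + 600 * h ^ 3 - 90 * h ^ 4 - 320 * h ^ 6 +
      320 * h ^ 8 := by
  obtain ⟨u, hu⟩ : ∃ u, u = 1 - h := ⟨_, rfl⟩
  have hu0 : 0 ≤ u := by linarith
  have e : 527 / 2 - 2133 / 4 * h - 93 / 4 * h ^ 2 + 600 * h ^ 3 - 90 * h ^ 4 - 320 * h ^ 6 +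
      320 * h ^ 8
      = 527 / 2 * u ^ 8 + 6299 / 4 * h * u ^ 7 + 3622 * h ^ 2 * u ^ 6
      + 16073 / 4 * h ^ 3 * u ^ 5 + 4685 / 2 * h ^ 4 * u ^ 4
      + 5069 / 4 * h ^ 5 * u ^ 3 + 971 * h ^ 6 * u ^ 2 + 943 / 4 * h ^ 7 * u
      + 217 * h ^ 8 := by
    rw [hu]
    ring
  rw [e]
  positivity

lemma lo_d0 {h : ℝ} (h0 : 0 ≤ h) (h1 : h ≤ 1) :
    0 ≤ 8959 / 8 - 18921 / 8 * h - 1581 / 8 * h ^ 2 + 5865 / 2 * h ^ 3 - 765 * h ^ 4 - 2720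
      * h ^ 6 + 3680 * h ^ 8 - 960 * h ^ 9 := by
  obtain ⟨u, hu⟩ : ∃ u, u = 1 - h := ⟨_, rfl⟩
  have hu0 : 0 ≤ u := by linarith
  have e : 8959 / 8 - 18921 / 8 * h - 1581 / 8 * h ^ 2 + 5865 / 2 * h ^ 3 - 765 * h ^ 4 - 2720
      * h ^ 6 + 3680 * h ^ 8 - 960 * h ^ 9
      = 8959 / 8 * u ^ 21 + 84609 / 4 * h * u ^ 20 + 1501389 / 8 * h ^ 2 * u ^ 19
      + 8313901 / 8 * h ^ 3 * u ^ 18 + 8048871 / 2 * h ^ 4 * u ^ 17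
      + 92587797 / 8 * h ^ 5 * u ^ 16 + 51240329 / 2 * h ^ 6 * u ^ 15
      + 89322573 / 2 * h ^ 7 * u ^ 14 + 248799809 / 4 * h ^ 8 * u ^ 13
      + 69786524 * h ^ 9 * u ^ 12 + 252934011 / 4 * h ^ 10 * u ^ 11
      + 184136675 / 4 * h ^ 11 * u ^ 10 + 52899323 / 2 * h ^ 12 * u ^ 9
      + 45970479 / 4 * h ^ 13 * u ^ 8 + 6828333 / 2 * h ^ 14 * u ^ 7
      + 1040441 / 2 * h ^ 15 * u ^ 6 + 167799 / 8 * h ^ 16 * u ^ 5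
      + 293507 / 4 * h ^ 17 * u ^ 4 + 624741 / 8 * h ^ 18 * u ^ 3
      + 277749 / 8 * h ^ 19 * u ^ 2 + 7760 * h ^ 20 * u + 5797 / 8 * h ^ 21 := by
    rw [hu]
    ring
  rw [e]
  positivity

end Vale.Agent.P224.R2.H355
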