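import Vale.Agent.P224.R2.H355.Cls
import Vale.Agent.P224.R2.H355.Pol1

/-!
Comparison of the function `E` of the exact flow with the even weight.
-/

namespace Vale.Agent.P224.R2.H355

open MeasureTheory Set Filter Real Vale.Agent.P224.R2.H627
open scoped Topology

section

variable {a L c κ φ T : ℝ} {s : HSol a L}

lemma eW' (s : HSol a L) : ∀ h ∈ Icc (0 : ℝ) 1, s.W1 h = s.V1 h + L / (8 * a) * s.F1 h := by
  have hin : ∀ z ∈ Ioo (0 : ℝ) 1, s.W1 z = s.V1 z + L / (8 * a) * s.F1 z := by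
    intro z hz
    have hz' : z ∈ Ioo (-1 / 3 : ℝ) 1 := ⟨by linarith [hz.1], hz.2⟩
    have h1 := (s.cV.d1 z hz').fun_add ((s.cF.d1 z hz').const_mul (L / (8 * a)))
    have h2 : HasDerivAt s.W (s.V1 z + L / (8 * a) * s.F1 z) z := by
      refine h1.congr_of_eventuallyEq ?_
      filter_upwards [Ioo_mem_nhds hz.1 hz.2] with x hx
      exact s.eW x ⟨hx.1.le, hx.2.le⟩
    exact (s.cW.d1 z hz').unique h2
  have hcl : Icc (0 : ℝ) 1 ⊆ closure (Ioo 0 1) := by rw [closure_Ioo zero_ne_one]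
  exact (Set.EqOn.of_subset_closure (s := Ioo 0 1) hin s.cW.c1
    (s.cV.c1.add (continuousOn_const.mul s.cF.c1)) Ioo_subset_Icc_self hcl)

/-- the source of `E` -/
noncomputable def NN (s : HSol a L) (h : ℝ) : ℝ := s.W h - 2 * (1 - h) * s.W1 h

/-- the source of the even weight -/
noncomputable def NM (a c T : ℝ) : ℝ := Wf a c T - 2 * (1 - hv T) * Pf a c T

lemma NN_eq (hc : 0 < c) (ha : 2 ≤ a) (hT : T ∈ Ioo (0 : ℝ) 1) : NN s (hv T)
    = s.V (hv T) / Wf a c T * NM a c T + L / (8 * a) * (s.F (hv T) - 2 * (1 - hv T) * s.F1 (hv T))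
      - 2 * (1 - hv T) * Uf s c T := by
  have hw : Wf a c T ≠ 0 := (Wf_pos hc ha).ne'
  unfold NN NM Uf
  rw [s.eW _ (hv_mem hT), eW' s _ (hv_mem hT)]
  field_simp
  ring

lemma NM_ge (hc : 0 < c) (ha : 4 ≤ a) (hT : T ∈ Ioo (0 : ℝ) 1) :
    1 - 3 / 2 * (hv T * (1 - hv T)) / (a - 3 * hv T ^ 2) ≤ 1 / Wf a c 1 * NM a c T := by
  have ha2 : 2 ≤ a := by linarith
  have h0 := hv_pos hT
  have h1 := hv_lt_one hT
  have hw := Wf_pos (T := T) hc ha2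
  have hw1 := Wf_pos (T := 1) hc ha2
  have h5 := Wf_anti hc ha2 hT
  have h6 := PW_le hc ha hT
  have h7 := PW_nonneg (a := a) hc ha2 hT
  have hd := qU_den ha h0.le h1.le
  have e : NM a c T = Wf a c T * (1 - 2 * (1 - hv T) * (Pf a c T / Wf a c T)) := by
    unfold NM
    field_simp
  have e1 : 1 - 3 / 2 * (hv T * (1 - hv T)) / (a - 3 * hv T ^ 2)
      ≤ 1 - 2 * (1 - hv T) * (Pf a c T / Wf a c T) := by
    have h8 : 0 ≤ 2 * (1 - hv T) := by linarith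
    have h9 := mul_le_mul_of_nonneg_left h6 h8
    have e2 : 2 * (1 - hv T) * (3 / 4 * hv T / (a - 3 * hv T ^ 2))
        = 3 / 2 * (hv T * (1 - hv T)) / (a - 3 * hv T ^ 2) := by ring
    rw [e2] at h9
    linarith
  have e3 : 0 ≤ 1 - 3 / 2 * (hv T * (1 - hv T)) / (a - 3 * hv T ^ 2) := by
    rw [sub_nonneg, div_le_one hd]
    nlinarith
  have e4 : 1 ≤ 1 / Wf a c 1 * Wf a c T := by
    rw [one_div, inv_mul_eq_div, one_le_div hw1]
    exact h5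
  calc 1 - 3 / 2 * (hv T * (1 - hv T)) / (a - 3 * hv T ^ 2)
      = 1 * (1 - 3 / 2 * (hv T * (1 - hv T)) / (a - 3 * hv T ^ 2)) := by ring
    _ ≤ 1 / Wf a c 1 * Wf a c T * (1 - 2 * (1 - hv T) * (Pf a c T / Wf a c T)) :=
        mul_le_mul e4 e1 e3 (by linarith)
    _ = _ := by rw [e]; ring

lemma sq_le_NM (hc : 0 < c) (ha : 5 ≤ a) (hT : T ∈ Ioo (0 : ℝ) 1) :
    hv T ^ 2 ≤ 1 / Wf a c 1 * NM a c T := by
  refine le_trans ?_ (NM_ge hc (by linarith) hT)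
  have h0 := hv_pos hT
  have h1 := hv_lt_one hT
  have hd := qU_den (a := a) (by linarith) h0.le h1.le
  rw [le_sub_comm, div_le_iff₀ hd]
  have h2 : 0 ≤ 1 - hv T := by linarith
  have h3 : 3 / 2 * (hv T * (1 - hv T)) ≤ (1 - hv T) * ((1 + hv T) * (a - 3 * hv T ^ 2)) := by
    rw [mul_comm (hv T), ← mul_assoc, mul_comm (3 / 2 : ℝ), mul_assoc]
    refine mul_le_mul_of_nonneg_left ?_ h2
    nlinarith
  calc 3 / 2 * (hv T * (1 - hv T)) ≤ _ := h3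
    _ = _ := by ring

lemma NM_pos (hc : 0 < c) (ha : 5 ≤ a) (hT : T ∈ Ioo (0 : ℝ) 1) : 0 < NM a c T := by
  have h1 := sq_le_NM hc ha hT
  have h2 : 0 < hv T ^ 2 := by have := hv_pos hT; positivity
  have h3 : 0 < 1 / Wf a c 1 := by have := Wf_pos (a := a) (T := 1) hc (by linarith); positivity
  exact (pos_iff_pos_of_mul_pos (h2.trans_le h1)).1 h3

/-- the upper error -/
noncomputable def ηu (a L φ κ : ℝ) : ℝ := L / (8 * a) * (5 + 9 / (a - 3)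
  + κ / (8 * a) + 3 * κ / (10 * a * (a - 3)) + φ)

theorem NN_le (st : Stg κ φ s) (hL : 0 ≤ L) (hκ : 0 ≤ κ) (hφ : 0 ≤ φ) (hc : 0 < c) (ha : 5 ≤ a)
    (hT : T ∈ Ioo (0 : ℝ) 1) :
    NN s (hv T) ≤ 1 / Wf a c 1 * (1 + ηu a L φ κ) * NM a c T := by
  have h0 := hv_pos hT
  have h1 := hv_lt_one hT
  have ha2 : 2 ≤ a := by linarith
  have ha0 : 0 < a := by linarith
  have ha3 : 0 < a - 3 := by linarith
  have hU := Uf_nonneg st hL hc (by linarith) hT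
  have hV := V_le st hL hκ hc (by linarith) hT
  have hN := NM_pos hc ha hT
  have hN2 := sq_le_NM hc ha hT
  have hF := st.Fu _ (hv_mem hT)
  have hF1 := st.F10 _ (hv_mem hT)
  rw [NN_eq hc ha2 hT]
  have e1 : 0 ≤ 2 * (1 - hv T) * Uf s c T := by
    have : 0 ≤ 1 - hv T := by linarith
    positivity
  have e2 : L / (8 * a) * (s.F (hv T) - 2 * (1 - hv T) * s.F1 (hv T))
      ≤ L / (8 * a) * (φ * hv T ^ 2) := by
    refine mul_le_mul_of_nonneg_left ?_ (by positivity)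
    have : 0 ≤ 2 * (1 - hv T) * s.F1 (hv T) := by
      have : 0 ≤ 1 - hv T := by linarith
      positivity
    linarith
  have e3 : L / (8 * a) * (φ * hv T ^ 2) ≤ L / (8 * a) * (φ * (1 / Wf a c 1 * NM a c T)) := by
    gcongr
  have e4 : s.V (hv T) / Wf a c T * NM a c T
      ≤ 1 / Wf a c 1 * (1 + JJ a L κ (hv T)) * NM a c T := by
    gcongr
  have e5 : JJ a L κ (hv T) ≤ L / (8 * a) * (5 + 9 / (a - 3) + κ / (8 * a)
      + 3 * κ / (10 * a * (a - 3))) := by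
    unfold JJ
    have p3 : hv T ^ 3 ≤ 1 := pow_le_one₀ h0.le h1.le
    have p5 : hv T ^ 5 ≤ 1 := pow_le_one₀ h0.le h1.le
    have p8 : hv T ^ 8 ≤ 1 := pow_le_one₀ h0.le h1.le
    have p10 : hv T ^ 10 ≤ 1 := pow_le_one₀ h0.le h1.le
    refine mul_le_mul_of_nonneg_left ?_ (by positivity)
    have q5 : 9 / (a - 3) * hv T ^ 5 ≤ 9 / (a - 3) * 1 := by gcongr
    have q8 : κ / (8 * a) * hv T ^ 8 ≤ κ / (8 * a) * 1 := by gcongr
    have q10 : 3 * κ / (10 * a * (a - 3)) * hv T ^ 10 ≤ 3 * κ / (10 * a * (a - 3)) * 1 := by gcongr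
    linarith
  have hw1 : 0 < 1 / Wf a c 1 := by
    have := Wf_pos (a := a) (T := 1) hc ha2
    positivity
  have e6 : 1 / Wf a c 1 * (1 + JJ a L κ (hv T)) * NM a c T + L / (8 * a)
      * (φ * (1 / Wf a c 1 * NM a c T)) ≤ 1 / Wf a c 1 * (1 + ηu a L φ κ) * NM a c T := by
    have : 1 / Wf a c 1 * (1 + ηu a L φ κ) * NM a c T
        - (1 / Wf a c 1 * (1 + JJ a L κ (hv T)) * NM a c T + L / (8 * a)
          * (φ * (1 / Wf a c 1 * NM a c T)))
        = (1 / Wf a c 1 * NM a c T) * (L / (8 * a) * (5 + 9 / (a - 3) + κ / (8 * a)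
      + 3 * κ / (10 * a * (a - 3))) - JJ a L κ (hv T)) := by
      unfold ηu
      ring
    have h9 : 0 ≤ (1 / Wf a c 1 * NM a c T) * (L / (8 * a) * (5 + 9 / (a - 3) + κ / (8 * a)
      + 3 * κ / (10 * a * (a - 3))) - JJ a L κ (hv T)) :=
      mul_nonneg (mul_nonneg hw1.le hN.le) (by linarith)
    linarith
  linarith

lemma lo_aux {h : ℝ} (ha : 17 / 2 ≤ a) (h0 : 0 ≤ h) (h1 : h ≤ 1) :
    2 * (1 - h) * h * (15 * a + 160 * h ^ 5) * (a * (1 + h) - 3 * h ^ 2)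
      ≤ 31 / 2 * a * (a - 3 * h ^ 2 - 3 / 2 * (h * (1 - h))) := by
  obtain ⟨t, ht⟩ : ∃ t, t = a - 17 / 2 := ⟨_, rfl⟩
  have ht0 : 0 ≤ t := by linarith
  have ha' : a = t + 17 / 2 := by linarith
  have k2 := lo_d2 h0 h1
  have k1 := lo_d1 h0 h1
  have k0 := lo_d0 h0 h1
  have e : 31 / 2 * a * (a - 3 * h ^ 2 - 3 / 2 * (h * (1 - h)))
      - 2 * (1 - h) * h * (15 * a + 160 * h ^ 5) * (a * (1 + h) - 3 * h ^ 2)
      = t ^ 2 * (31 / 2 - 30 * h + 30 * h ^ 3)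
        + t * (527 / 2 - 2133 / 4 * h - 93 / 4 * h ^ 2 + 600 * h ^ 3 - 90 * h ^ 4 - 320 * h ^ 6 + 320 * h ^ 8)
        + (8959 / 8 - 18921 / 8 * h - 1581 / 8 * h ^ 2 + 5865 / 2 * h ^ 3 - 765 * h ^ 4 - 2720 * h ^ 6 + 3680 * h ^ 8 - 960 * h ^ 9) := by
    rw [ha']
    ring
  have k3 := mul_nonneg (sq_nonneg t) k2
  have k4 := mul_nonneg ht0 k1
  linarith

theorem NN_ge (st : Stg κ φ s) (hL : 0 ≤ L) (hκ : 0 ≤ κ) (hκ' : κ ≤ 160) (hc : 0 < c)
    (ha : 17 / 2 ≤ a) (hT : T ∈ Ioo (0 : ℝ) 1) :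
    1 / Wf a c 1 * (1 - 31 / 2 * L / (8 * a)) * NM a c T ≤ NN s (hv T) := by
  have h0 := hv_pos hT
  have h1 := hv_lt_one hT
  have ha2 : 2 ≤ a := by linarith
  have ha0 : 0 < a := by linarith
  have hd := qU_den (a := a) (by linarith) h0.le h1.le
  have hU := Uf_le st hL hκ hc (by linarith) hT
  have hV := V_ge st hL hc (by linarith) hT
  have hN := NM_pos hc (by linarith : 5 ≤ a) hT
  have hN2 := NM_ge hc (by linarith : 4 ≤ a) hT
  have hF := st.F0 _ (hv_mem hT)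
  have hS := st.Su _ (hv_mem hT)
  set h := hv T with hh
  rw [NN_eq hc ha2 hT, ← hh]
  have hu : 0 ≤ 1 - h := by linarith
  have e1 : s.F1 h ≤ h * (15 + 160 / a * h ^ 5) := by
    have k1 : 2 * h * s.F1 h ≤ 2 * h ^ 2 * (15 + κ / a * h ^ 5) := by linarith
    have k2 : 2 * h ^ 2 * (15 + κ / a * h ^ 5) ≤ 2 * h ^ 2 * (15 + 160 / a * h ^ 5) := by gcongr
    have k3 : 2 * h * s.F1 h ≤ 2 * h * (h * (15 + 160 / a * h ^ 5)) := by
      calc 2 * h * s.F1 h ≤ _ := k1.trans k2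
        _ = _ := by ring
    exact le_of_mul_le_mul_left k3 (by positivity)
  have e2 : qU a L κ h ≤ L / (8 * a) * (h ^ 2 * (15 + 160 / a * h ^ 5) * a / (a - 3 * h ^ 2)) := by
    have k1 : qU a L κ h = L / (8 * a) * (h ^ 2 * (15 + κ / a * h ^ 5) * a / (a - 3 * h ^ 2)) := by
      unfold qU
      have := hd.ne'
      field_simp
    rw [k1]
    gcongr
  have e3 : 2 * (1 - h) * (h * (15 + 160 / a * h ^ 5) + h ^ 2 * (15 + 160 / a * h ^ 5) * a
      / (a - 3 * h ^ 2)) ≤ 31 / 2 * (1 - 3 / 2 * (h * (1 - h)) / (a - 3 * h ^ 2)) := by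
    have k1 := lo_aux ha h0.le h1.le
    have k2 : 2 * (1 - h) * (h * (15 + 160 / a * h ^ 5) + h ^ 2 * (15 + 160 / a * h ^ 5) * a
      / (a - 3 * h ^ 2)) = 2 * (1 - h) * h * (15 * a + 160 * h ^ 5) * (a * (1 + h) - 3 * h ^ 2)
        / (a * (a - 3 * h ^ 2)) := by
      have k4 : a * (1 + h) - 3 * h ^ 2 = (a - 3 * h ^ 2) + a * h := by ring
      rw [k4]
      have := hd.ne'
      generalize a - 3 * h ^ 2 = D at this ⊢
      field_simp
    have k3 : 31 / 2 * (1 - 3 / 2 * (h * (1 - h)) / (a - 3 * h ^ 2))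
        = 31 / 2 * a * (a - 3 * h ^ 2 - 3 / 2 * (h * (1 - h))) / (a * (a - 3 * h ^ 2)) := by
      have := hd.ne'
      field_simp
    rw [k2, k3]
    gcongr
  have e4 : 2 * (1 - h) * (L / (8 * a) * s.F1 h + Uf s c T)
      ≤ 31 / 2 * L / (8 * a) * (1 / Wf a c 1 * NM a c T) := by
    calc 2 * (1 - h) * (L / (8 * a) * s.F1 h + Uf s c T)
        ≤ 2 * (1 - h) * (L / (8 * a) * (h * (15 + 160 / a * h ^ 5))
          + L / (8 * a) * (h ^ 2 * (15 + 160 / a * h ^ 5) * a / (a - 3 * h ^ 2))) := by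
          have := hU.trans e2
          gcongr
      _ = L / (8 * a) * (2 * (1 - h) * (h * (15 + 160 / a * h ^ 5)
          + h ^ 2 * (15 + 160 / a * h ^ 5) * a / (a - 3 * h ^ 2))) := by ring
      _ ≤ L / (8 * a) * (31 / 2 * (1 - 3 / 2 * (h * (1 - h)) / (a - 3 * h ^ 2))) := by gcongr
      _ ≤ L / (8 * a) * (31 / 2 * (1 / Wf a c 1 * NM a c T)) := by gcongr
      _ = _ := by ring
  have e5 : 1 / Wf a c 1 * NM a c T ≤ s.V h / Wf a c T * NM a c T := by gcongr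
  have e6 : 0 ≤ L / (8 * a) * s.F h := by positivity
  nlinarith

lemma hasDerivAt_E (hT : T ∈ Ioo (0 : ℝ) 1) : HasDerivAt (fun T => s.E (hv T))
    (((a / hv T + (1 - 3 * hv T) / 2) * s.E (hv T) - a * NN s (hv T)) / T) T := by
  refine (hasDerivAt_H2 s.cE hT).congr_deriv ?_
  rw [E_eq s hT]
  rfl

lemma B_nonneg (ha : 3 ≤ a) (hT : T ∈ Ioo (0 : ℝ) 1) : 0 ≤ a / hv T + (1 - 3 * hv T) / 2 := by
  have h1 := hv_pos hT
  have h2 := hv_lt_one hT
  have h3 : a ≤ a / hv T := by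
    rw [le_div_iff₀ h1]
    nlinarith
  linarith

theorem E_le (st : Stg κ φ s) (hL : 0 ≤ L) (hκ : 0 ≤ κ) (hφ : 0 ≤ φ) (hc : 0 < c) (ha : 5 ≤ a)
    (hT : T ∈ Ioo (0 : ℝ) 1) :
    s.E (hv T) ≤ 1 / Wf a c 1 * (1 + ηu a L φ κ) * Ef a c T := by
  have ha2 : 2 ≤ a := by linarith
  have h := cmp (X := fun T => 1 / Wf a c 1 * (1 + ηu a L φ κ) * Ef a c T - s.E (hv T))
    (A := fun T => a / hv T + (1 - 3 * hv T) / 2)
    (B := fun T => a * (1 / Wf a c 1 * (1 + ηu a L φ κ) * NM a c T - NN s (hv T)))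
    (l := 1 / Wf a c 1 * (1 + ηu a L φ κ) * 0 - 0) ?_ (fun T hT => B_nonneg (by linarith) hT)
    ?_ ?_ (by simp) hT
  · simpa using h
  · intro T hT
    refine (((hasDerivAt_Ef (c := c) ha2 hT).const_mul _).fun_sub
      (hasDerivAt_E (s := s) hT)).congr_deriv ?_
    unfold NM
    ring
  · intro T hT
    have := NN_le st hL hκ hφ hc ha hT
    exact mul_nonneg (by linarith) (by linarith)
  · have h1 := tendsto_d1 s.cE.d1
    rw [s.E0] at h1
    exact ((tendsto_Ef hc.le ha2).const_mul _).sub h1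

theorem E_ge (st : Stg κ φ s) (hL : 0 ≤ L) (hκ : 0 ≤ κ) (hκ' : κ ≤ 160) (hc : 0 < c)
    (ha : 17 / 2 ≤ a) (hT : T ∈ Ioo (0 : ℝ) 1) :
    1 / Wf a c 1 * (1 - 31 / 2 * L / (8 * a)) * Ef a c T ≤ s.E (hv T) := by
  have ha2 : 2 ≤ a := by linarith
  have h := cmp (X := fun T => s.E (hv T) - 1 / Wf a c 1 * (1 - 31 / 2 * L / (8 * a)) * Ef a c T)
    (A := fun T => a / hv T + (1 - 3 * hv T) / 2)
    (B := fun T => a * (NN s (hv T) - 1 / Wf a c 1 * (1 - 31 / 2 * L / (8 * a)) * NM a c T))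
    (l := 0 - 1 / Wf a c 1 * (1 - 31 / 2 * L / (8 * a)) * 0) ?_
    (fun T hT => B_nonneg (by linarith) hT) ?_ ?_ (by simp) hT
  · simpa using h
  · intro T hT
    refine ((hasDerivAt_E (s := s) hT).fun_sub
      ((hasDerivAt_Ef (c := c) ha2 hT).const_mul _)).congr_deriv ?_
    unfold NM
    ring
  · intro T hT
    have := NN_ge st hL hκ hκ' hc ha hT
    exact mul_nonneg (by linarith) (by linarith)
  · have h1 := tendsto_d1 s.cE.d1
    rw [s.E0] at h1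
    exact h1.sub ((tendsto_Ef hc.le ha2).const_mul _)

/-- the function W: lower bound -/
theorem W_ge (st : Stg κ φ s) (hL : 0 ≤ L) (hc : 0 < c) (ha : 3 ≤ a)
    (hT : T ∈ Ioo (0 : ℝ) 1) : 1 / Wf a c 1 * Wf a c T ≤ s.W (hv T) := by
  have hw := Wf_pos (T := T) hc (by linarith : 2 ≤ a)
  have h1 := V_ge st hL hc ha hT
  rw [le_div_iff₀ hw] at h1
  rw [s.eW _ (hv_mem hT)]
  have h2 := st.F0 _ (hv_mem hT)
  have h3 : 0 ≤ L / (8 * a) * s.F (hv T) := by positivity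
  linarith

/-- the function W: upper bound -/
theorem W_le (st : Stg κ φ s) (hL : 0 ≤ L) (hκ : 0 ≤ κ) (hφ : 0 ≤ φ) (hc : 0 < c) (ha : 5 ≤ a)
    (hT : T ∈ Ioo (0 : ℝ) 1) :
    s.W (hv T) ≤ 1 / Wf a c 1 * (1 + ηu a L φ κ) * Wf a c T := by
  have h0 := hv_pos hT
  have h1 := hv_lt_one hT
  have ha2 : 2 ≤ a := by linarith
  have ha0 : 0 < a := by linarith
  have ha3 : 0 < a - 3 := by linarith
  have hw := Wf_pos (T := T) hc ha2
  have hw1 := Wf_pos (T := 1) hc ha2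
  have hV := V_le st hL hκ hc (by linarith) hT
  have hF := st.Fu _ (hv_mem hT)
  have h5 := Wf_anti hc ha2 hT
  rw [s.eW _ (hv_mem hT)]
  rw [div_le_iff₀ hw] at hV
  have e4 : 1 ≤ 1 / Wf a c 1 * Wf a c T := by
    rw [one_div, inv_mul_eq_div, one_le_div hw1]
    exact h5
  have p2 : hv T ^ 2 ≤ 1 := pow_le_one₀ h0.le h1.le
  have e2 : L / (8 * a) * s.F (hv T) ≤ L / (8 * a) * φ * (1 / Wf a c 1 * Wf a c T) := by
    calc L / (8 * a) * s.F (hv T) ≤ L / (8 * a) * (φ * hv T ^ 2) := by gcongr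
      _ ≤ L / (8 * a) * (φ * 1) := by gcongr
      _ ≤ L / (8 * a) * (φ * (1 / Wf a c 1 * Wf a c T)) := by gcongr
      _ = _ := by ring
  have e5 : JJ a L κ (hv T) ≤ L / (8 * a) * (5 + 9 / (a - 3) + κ / (8 * a)
      + 3 * κ / (10 * a * (a - 3))) := by
    unfold JJ
    have p3 : hv T ^ 3 ≤ 1 := pow_le_one₀ h0.le h1.le
    have p5 : hv T ^ 5 ≤ 1 := pow_le_one₀ h0.le h1.le
    have p8 : hv T ^ 8 ≤ 1 := pow_le_one₀ h0.le h1.le
    have p10 : hv T ^ 10 ≤ 1 := pow_le_one₀ h0.le h1.le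
    refine mul_le_mul_of_nonneg_left ?_ (by positivity)
    have q5 : 9 / (a - 3) * hv T ^ 5 ≤ 9 / (a - 3) * 1 := by gcongr
    have q8 : κ / (8 * a) * hv T ^ 8 ≤ κ / (8 * a) * 1 := by gcongr
    have q10 : 3 * κ / (10 * a * (a - 3)) * hv T ^ 10 ≤ 3 * κ / (10 * a * (a - 3)) * 1 := by gcongr
    linarith
  have e6 : 1 / Wf a c 1 * (1 + JJ a L κ (hv T)) * Wf a c T
      ≤ 1 / Wf a c 1 * (1 + L / (8 * a) * (5 + 9 / (a - 3) + κ / (8 * a)
      + 3 * κ / (10 * a * (a - 3)))) * Wf a c T := by gcongr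
  have e7 : 1 / Wf a c 1 * (1 + ηu a L φ κ) * Wf a c T = 1 / Wf a c 1 * (1 + L / (8 * a) *
      (5 + 9 / (a - 3) + κ / (8 * a) + 3 * κ / (10 * a * (a - 3)))) * Wf a c T
      + L / (8 * a) * φ * (1 / Wf a c 1 * Wf a c T) := by
    unfold ηu
    ring
  linarith

lemma ηu_le (hL : 0 ≤ L) (hκ' : κ ≤ 160) (hφ : φ ≤ 37 / 5) (ha : 17 / 2 ≤ a) :
    ηu a L φ κ ≤ 35 / 2 * L / (8 * a) := by
  have ha0 : 0 < a := by linarith
  have ha3 : 0 < a - 3 := by linarith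
  unfold ηu
  have e1 : 9 / (a - 3) ≤ 18 / 11 := by
    rw [div_le_div_iff₀ ha3 (by norm_num)]
    linarith
  have e2 : κ / (8 * a) ≤ 160 / 68 := by
    rw [div_le_div_iff₀ (by positivity) (by norm_num)]
    nlinarith
  have e3 : 3 * κ / (10 * a * (a - 3)) ≤ 480 / 467 := by
    rw [div_le_div_iff₀ (by positivity) (by norm_num)]
    nlinarith
  calc L / (8 * a) * (5 + 9 / (a - 3) + κ / (8 * a) + 3 * κ / (10 * a * (a - 3)) + φ)
      ≤ L / (8 * a) * (35 / 2) := by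
        refine mul_le_mul_of_nonneg_left ?_ (by positivity)
        linarith
    _ = _ := by ring

end

end Vale.Agent.P224.R2.H355
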