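import Vale.Agent.P224.R2.H424.Abs4
import Vale.Agent.P224.R2.H355.Bar0

/-!
An upper bound for `P 1` by duality: a linear combination of all functions of the flow with explicit
coefficients has a small derivative.
-/

namespace Vale.Agent.P224.R2.H355

open Set Vale.Agent.P224.R2.H424 Vale.Agent.P224.R2.H876

section

variable {a L : ℝ}

lemma F_le_num (s : HSol a L) (hp : Par a L) :
    ∀ h ∈ Icc (0 : ℝ) 1, s.F h ≤ 7.985 * h ^ 2 := by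
  intro h hh
  have h0 := hh.1
  have h1 := (abs_le.1 (HS.F_sub' s hp h hh)).2
  have h2 := HS.E_le s hp h hh
  have h3 := hp.L1
  have h4 : 0 ≤ h ^ 2 := sq_nonneg h
  have h5 : 6 * h * s.E h ≤ 6 * h * (1.3145 * h) := mul_le_mul_of_nonneg_left h2 (by linarith)
  have h6 : 7.025 * L * h ^ 2 ≤ 7.025 * (1 / 72) * h ^ 2 := by gcongr
  nlinarith

/-- the derivative of the dual combination -/
theorem dual_deriv (s : HSol a L) (ha : a ≠ 0) {h : ℝ} (hh : h ∈ Icc (0 : ℝ) 1)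
    {χ χ1 χ2 w w1 t t1 A A1 b0 b1 : ℝ}
    (hb1 : b1 = 1 / a * ((χ1 * (h - h ^ 3) + χ * (1 - 3 * h ^ 2))
      - L / 2 * (χ1 * (h ^ 2 - h ^ 4) + χ * (2 * h - 4 * h ^ 3))))
    (hb0 : b0 = χ1 - 1 / a * ((χ1 * h ^ 2 + χ * (2 * h)) - L / 2 * (χ1 * h ^ 3 + χ * (3 * h ^ 2)))
      - 1 / a * ((χ2 * (h - h ^ 3) + 2 * (χ1 * (1 - 3 * h ^ 2)) - χ * (6 * h))
      - L / 2 * (χ2 * (h ^ 2 - h ^ 4) + 2 * (χ1 * (2 * h - 4 * h ^ 3))
        + χ * (2 - 12 * h ^ 2)))) :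
    (b1 * s.P1 h + 1 / a * (χ * (h - h ^ 3) - L / 2 * (χ * (h ^ 2 - h ^ 4))) * s.P2 h
      + (b0 * s.P h + (χ - 1 / a * (χ * h ^ 2 - L / 2 * (χ * h ^ 3)) - b1) * s.P1 h)
      - (1 / a * (χ1 * (h ^ 2 - h ^ 4) + χ * (2 * h - 4 * h ^ 3)) * s.G h
        + 1 / a * (χ * (h ^ 2 - h ^ 4)) * s.G1 h)
      + (1 / a * (w1 * (h - h ^ 3) + w * (1 - 3 * h ^ 2)) * s.E h
        + 1 / a * (w * (h - h ^ 3)) * s.E1 h)
      + (2 * (w1 * (h - h ^ 2) + w * (1 - 2 * h)) * s.W h + 2 * (w * (h - h ^ 2)) * s.W1 h)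
      + (A1 * s.V h + A * s.V1 h)
      + (1 / a * (t1 * (h - h ^ 3) + t * (1 - 3 * h ^ 2)) * s.V1 h
        + 1 / a * (t * (h - h ^ 3)) * s.V2 h))
    = -(1 / a * ((h - h ^ 3) * χ2 + (2 - 5 * h ^ 2) * χ1 - 15 / 4 * h * χ) - χ1
        - L / 2 * (1 / a) * ((2 - 35 / 4 * h ^ 2) * χ + (4 * h - 7 * h ^ 3) * χ1
          + (h ^ 2 - h ^ 4) * χ2)) * s.P h
      + 1 / (2 * a) * ((h ^ 2 - 3 * h ^ 3) * χ
          - 2 * (χ1 * (h ^ 2 - h ^ 4) + χ * (2 * h - 4 * h ^ 3))) * s.G h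
      - (w + 1 / (2 * a) * ((-2 + h + 3 * h ^ 2) * w - 2 * h * (1 - h ^ 2) * w1) - χ * h) * s.E h
      + L / (8 * a) * ((2 - 3 * h) * w + 2 * h * (1 - h) * w1) * s.F h
      + (A1 + ((2 - 3 * h) * w + 2 * h * (1 - h) * w1) + 3 / 4 * h * t / a) * s.V h
      - ((1 - 1 / a) * t - 1 / a * (h * (1 - h ^ 2)) * t1 - A) * s.V1 h
      + L / (16 * a) * t * (2 * h * s.F1 h + s.F h) := by
  have hr : 0 < 1 + h := by linarith [hh.1]
  obtain ⟨r, hrd⟩ : ∃ r, r = h / (1 + h) := ⟨_, rfl⟩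
  have hr1 : r * (1 + h) = h := by rw [hrd]; field_simp
  have hr2 : h ^ 2 / (1 + h) = h * r := by rw [hrd]; ring
  have eP := s.eP h hh
  have eQ := s.eQ h hh
  have eE := s.eE h hh
  have eG := s.eG h hh
  have eV := s.eV h hh
  have eW := s.eW h hh
  rw [← hrd] at eP
  rw [hr2] at eG
  obtain ⟨X, hX⟩ : ∃ X, X = 1 / a := ⟨_, rfl⟩
  have hXa : X * a = 1 := by rw [hX]; field_simp
  have e1 : h / a = h * X := by rw [hX]; ring
  have e2 : L / (8 * a) = L / 8 * X := by rw [hX]; ring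
  have e3 : 1 / (2 * a) = 1 / 2 * X := by rw [hX]; ring
  have e4 : 3 / 4 * h * t / a = 3 / 4 * h * t * X := by rw [hX]; ring
  have e5 : L / (16 * a) = L / 16 * X := by rw [hX]; ring
  rw [e1] at eP
  rw [e2] at eW
  rw [e2, e3, e4, e5, hb0, hb1, ← hX]
  linear_combination χ * eP - X * χ * h * (1 - L / 2 * h) * eQ - χ * h * X / 2 * eG
    + w * X / 2 * eE + ((2 - 3 * h) * w + 2 * h * (1 - h) * w1) * eW + t * X / 2 * eV
    + (h * w * s.W h - w * s.E h - 2 * w * h * (1 - h) * s.W1 h - t * s.V1 h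
      + h * χ * s.G h) * hXa
    + χ * h * X * L / 2 * s.Q h * hr1

lemma dp13 (h : ℝ) : HasDerivAt (fun h : ℝ => h - h ^ 3) (1 - 3 * h ^ 2) h := by
  simpa using (hasDerivAt_id h).fun_sub (hasDerivAt_pow 3 h)
lemma dp24 (h : ℝ) : HasDerivAt (fun h : ℝ => h ^ 2 - h ^ 4) (2 * h - 4 * h ^ 3) h := by
  simpa using (hasDerivAt_pow 2 h).fun_sub (hasDerivAt_pow 4 h)
lemma dp02 (h : ℝ) : HasDerivAt (fun h : ℝ => 1 - 3 * h ^ 2) (-(6 * h)) h := by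
  refine (((hasDerivAt_pow 2 h).const_mul 3).const_sub 1).congr_deriv ?_
  norm_num
  ring
lemma dp13' (h : ℝ) : HasDerivAt (fun h : ℝ => 2 * h - 4 * h ^ 3) (2 - 12 * h ^ 2) h := by
  refine (((hasDerivAt_id h).const_mul 2).fun_sub ((hasDerivAt_pow 3 h).const_mul 4)).congr_deriv ?_
  norm_num
  ring
lemma dp12 (h : ℝ) : HasDerivAt (fun h : ℝ => h - h ^ 2) (1 - 2 * h) h := by
  simpa using (hasDerivAt_id h).fun_sub (hasDerivAt_pow 2 h)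
lemma dp2 (h : ℝ) : HasDerivAt (fun h : ℝ => h ^ 2) (2 * h) h := by
  simpa using hasDerivAt_pow 2 h
lemma dp3 (h : ℝ) : HasDerivAt (fun h : ℝ => h ^ 3) (3 * h ^ 2) h := by
  simpa using hasDerivAt_pow 3 h

/-- the error polynomial and its derivative -/
noncomputable def er (h : ℝ) : ℝ :=
  0.6869 * h ^ 3 + 0.829975 * h ^ 4 - 1.59786 * h ^ 5 + 0.30615 * h ^ 6 + 0.2909 * h ^ 7
noncomputable def er1 (h : ℝ) : ℝ :=
  2.0607 * h ^ 2 + 3.3199 * h ^ 3 - 7.9893 * h ^ 4 + 1.8369 * h ^ 5 + 2.0363 * h ^ 6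

lemma der (h : ℝ) : HasDerivAt er (er1 h) h := by
  unfold er er1
  refine ((((((hasDerivAt_pow 3 h).const_mul 0.6869).fun_add
    ((hasDerivAt_pow 4 h).const_mul 0.829975)).fun_sub
    ((hasDerivAt_pow 5 h).const_mul 1.59786)).fun_add
    ((hasDerivAt_pow 6 h).const_mul 0.30615)).fun_add
    ((hasDerivAt_pow 7 h).const_mul 0.2909)).congr_deriv ?_
  norm_num
  ring

lemma er1_ge {h : ℝ} (h0 : 0 ≤ h) : 2.51 / 2 * (0.514 * h ^ 3) + (5.1 * h - 3 * h ^ 2)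
    * (0.2927 * h ^ 3) + 6.8 * h * (1 - h) ^ 2 * (1 + 0.3 * h) * (7.985 / 8 * h ^ 2)
    + (0.47 * (1 - h) ^ 2 + 0.001) * (70 / 16 * h ^ 2) ≤ er1 h := by
  have e : er1 h - (2.51 / 2 * (0.514 * h ^ 3) + (5.1 * h - 3 * h ^ 2)
      * (0.2927 * h ^ 3) + 6.8 * h * (1 - h) ^ 2 * (1 + 0.3 * h) * (7.985 / 8 * h ^ 2)
      + (0.47 * (1 - h) ^ 2 + 0.001) * (70 / 16 * h ^ 2))
      = 0.000075 * h ^ 2 + 0.00008 * h ^ 3 + 0.000005 * h ^ 4 + 0.0001 * h ^ 5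
        + 0.000125 * h ^ 6 := by
    unfold er1
    ring
  have : 0 ≤ er1 h - (2.51 / 2 * (0.514 * h ^ 3) + (5.1 * h - 3 * h ^ 2)
      * (0.2927 * h ^ 3) + 6.8 * h * (1 - h) ^ 2 * (1 + 0.3 * h) * (7.985 / 8 * h ^ 2)
      + (0.47 * (1 - h) ^ 2 + 0.001) * (70 / 16 * h ^ 2)) := by
    rw [e]
    positivity
  linarith

theorem dual_rate (s : HSol a L) (hp : Par a L) {χ χ1 χ2 w w1 t t1 A A1 h : ℝ}
    (hh : h ∈ Icc (0 : ℝ) 1)
    (c1 : 0 ≤ 1 / a * ((h - h ^ 3) * χ2 + (2 - 5 * h ^ 2) * χ1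
        - 15 / 4 * h * χ) - χ1 - L / 2 * (1 / a) * ((2 - 35 / 4 * h ^ 2) * χ
          + (4 * h - 7 * h ^ 3) * χ1 + (h ^ 2 - h ^ 4) * χ2 - 2.51))
    (c2 : 0 ≤ w + 1 / (2 * a) * ((-2 + h + 3 * h ^ 2) * w
        - 2 * h * (1 - h ^ 2) * w1) - χ * h)
    (c3 : A1 + ((2 - 3 * h) * w + 2 * h * (1 - h) * w1)
        + 3 / 4 * h * t / a ≤ 0)
    (c4 : 0 ≤ (1 - 1 / a) * t - 1 / a * (h * (1 - h ^ 2)) * t1 - A)
    (cg : |(h ^ 2 - 3 * h ^ 3) * χ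
          - 2 * (χ1 * (h ^ 2 - h ^ 4) + χ * (2 * h - 4 * h ^ 3))| ≤ 5.1 * h - 3 * h ^ 2)
    (ck : (2 - 3 * h) * w + 2 * h * (1 - h) * w1
        ≤ 6.8 * h * (1 - h) ^ 2 * (1 + 0.3 * h))
    (ct : t ≤ 0.47 * (1 - h) ^ 2 + 0.001) :
    -(1 / a * ((h - h ^ 3) * χ2 + (2 - 5 * h ^ 2) * χ1 - 15 / 4 * h * χ) - χ1
        - L / 2 * (1 / a) * ((2 - 35 / 4 * h ^ 2) * χ + (4 * h - 7 * h ^ 3) * χ1
          + (h ^ 2 - h ^ 4) * χ2)) * s.P h
      + 1 / (2 * a) * ((h ^ 2 - 3 * h ^ 3) * χ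
          - 2 * (χ1 * (h ^ 2 - h ^ 4) + χ * (2 * h - 4 * h ^ 3))) * s.G h
      - (w + 1 / (2 * a) * ((-2 + h + 3 * h ^ 2) * w - 2 * h * (1 - h ^ 2) * w1) - χ * h) * s.E h
      + L / (8 * a) * ((2 - 3 * h) * w + 2 * h * (1 - h) * w1) * s.F h
      + (A1 + ((2 - 3 * h) * w + 2 * h * (1 - h) * w1) + 3 / 4 * h * t / a) * s.V h
      - ((1 - 1 / a) * t - 1 / a * (h * (1 - h ^ 2)) * t1 - A) * s.V1 h
      + L / (16 * a) * t * (2 * h * s.F1 h + s.F h) ≤ L / a * er1 h := by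
  have ha0 := hp.a0
  have ha := ha0.ne'
  have hL := hp.L0
  have h0 := hh.1
  have h1 := hh.2
  have La : 0 ≤ L / a := by positivity
  have P0 := HS.P_nonneg s hp h hh
  have P1 := (abs_le.1 (HS.P_abs s hp h hh)).2
  have E0 : 0 ≤ s.E h := le_trans (by positivity) (HS.E_ge s hp h hh)
  have F0 : 0 ≤ s.F h := le_trans (by positivity) (HS.F_ge s hp h hh)
  have F1 := F_le_num s hp h hh
  have V0 : 0 ≤ s.V h := le_trans zero_le_one (HS.V_ge_one s hp h hh)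
  have V1 := HS.V1_nonneg s hp h hh
  have S0 : 0 ≤ 2 * h * s.F1 h + s.F h := HS.S_nonneg s hp h hh
  have S1 : 2 * h * s.F1 h + s.F h ≤ 70 * h ^ 2 := HS.S_le s hp h hh
  have G1 := HS.G_abs' s hp h hh
  have k2 := mul_nonneg c2 E0
  have k3 := mul_nonneg (sub_nonneg.2 c3) V0
  have k4 := mul_nonneg c4 V1
  obtain ⟨adj, hadj⟩ : ∃ x, x = 1 / a * ((h - h ^ 3) * χ2 + (2 - 5 * h ^ 2) * χ1
      - 15 / 4 * h * χ) - χ1 - L / 2 * (1 / a) * ((2 - 35 / 4 * h ^ 2) * χ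
      + (4 * h - 7 * h ^ 3) * χ1 + (h ^ 2 - h ^ 4) * χ2) := ⟨_, rfl⟩
  obtain ⟨g, hg⟩ : ∃ x, x = (h ^ 2 - 3 * h ^ 3) * χ
      - 2 * (χ1 * (h ^ 2 - h ^ 4) + χ * (2 * h - 4 * h ^ 3)) := ⟨_, rfl⟩
  obtain ⟨κ, hκ⟩ : ∃ x, x = (2 - 3 * h) * w + 2 * h * (1 - h) * w1 := ⟨_, rfl⟩
  obtain ⟨S, hS⟩ : ∃ x, x = 2 * h * s.F1 h + s.F h := ⟨_, rfl⟩
  have a1 : -(L / 2 * (1 / a) * 2.51) ≤ adj := by
    rw [hadj]
    linarith
  rw [← hadj, ← hg, ← hκ, ← hS]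
  rw [← hg] at cg
  rw [← hκ] at ck k3
  rw [← hS] at S0 S1
  have t1' : -adj * s.P h ≤ L / a * (2.51 / 2 * (0.514 * h ^ 3)) := by
    have e1 : 0 ≤ (adj + L / 2 * (1 / a) * 2.51) * s.P h := mul_nonneg (by linarith) P0
    have e2 : L / a * (2.51 / 2) * s.P h ≤ L / a * (2.51 / 2) * (0.514 * h ^ 3) :=
      mul_le_mul_of_nonneg_left P1 (by positivity)
    have e3 : L / 2 * (1 / a) * 2.51 * s.P h = L / a * (2.51 / 2) * s.P h := by ring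
    linarith
  have t2' : 1 / (2 * a) * g * s.G h ≤ L / a * ((5.1 * h - 3 * h ^ 2) * (0.2927 * h ^ 3)) := by
    have e0 : |g * s.G h| ≤ (5.1 * h - 3 * h ^ 2) * (0.5854 * L * h ^ 3) := by
      rw [abs_mul]
      exact mul_le_mul cg G1 (abs_nonneg _) (le_trans (abs_nonneg _) cg)
    have e1 := (abs_le.1 e0).2
    calc 1 / (2 * a) * g * s.G h = 1 / (2 * a) * (g * s.G h) := by ring
      _ ≤ 1 / (2 * a) * ((5.1 * h - 3 * h ^ 2) * (0.5854 * L * h ^ 3)) :=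
        mul_le_mul_of_nonneg_left e1 (by positivity)
      _ = _ := by ring
  have t4' : L / (8 * a) * κ * s.F h
      ≤ L / a * (6.8 * h * (1 - h) ^ 2 * (1 + 0.3 * h) * (7.985 / 8 * h ^ 2)) := by
    have e1 : κ * s.F h ≤ 6.8 * h * (1 - h) ^ 2 * (1 + 0.3 * h) * (7.985 * h ^ 2) :=
      (mul_le_mul_of_nonneg_right ck F0).trans
        (mul_le_mul_of_nonneg_left F1 (by positivity))
    calc L / (8 * a) * κ * s.F h = L / (8 * a) * (κ * s.F h) := by ring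
      _ ≤ L / (8 * a) * (6.8 * h * (1 - h) ^ 2 * (1 + 0.3 * h) * (7.985 * h ^ 2)) :=
        mul_le_mul_of_nonneg_left e1 (by positivity)
      _ = _ := by ring
  have t7' : L / (16 * a) * t * S
      ≤ L / a * ((0.47 * (1 - h) ^ 2 + 0.001) * (70 / 16 * h ^ 2)) := by
    have e1 : t * S ≤ (0.47 * (1 - h) ^ 2 + 0.001) * (70 * h ^ 2) :=
      (mul_le_mul_of_nonneg_right ct S0).trans
        (mul_le_mul_of_nonneg_left S1 (by positivity))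
    calc L / (16 * a) * t * S = L / (16 * a) * (t * S) := by ring
      _ ≤ L / (16 * a) * ((0.47 * (1 - h) ^ 2 + 0.001) * (70 * h ^ 2)) :=
        mul_le_mul_of_nonneg_left e1 (by positivity)
      _ = _ := by ring
  have t8 := mul_le_mul_of_nonneg_left (er1_ge h0) La
  rw [mul_add, mul_add, mul_add] at t8
  have k3' : (A1 + κ + 3 / 4 * h * t / a) * s.V h ≤ 0 := by linarith
  linarith

/-- **duality bound** -/
theorem dual_bound (s : HSol a L) (hp : Par a L) {χ χ1 χ2 w w1 t t1 A A1 : ℝ → ℝ}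
    (dχ : ∀ h, HasDerivAt χ (χ1 h) h) (dχ1 : ∀ h, HasDerivAt χ1 (χ2 h) h)
    (dw : ∀ h, HasDerivAt w (w1 h) h) (dt : ∀ h, HasDerivAt t (t1 h) h)
    (dA : ∀ h, HasDerivAt A (A1 h) h) (hχ : χ 1 = 1) (hA : A 1 = 0)
    (c1 : ∀ h ∈ Icc (0 : ℝ) 1, 0 ≤ 1 / a * ((h - h ^ 3) * χ2 h + (2 - 5 * h ^ 2) * χ1 h
        - 15 / 4 * h * χ h) - χ1 h - L / 2 * (1 / a) * ((2 - 35 / 4 * h ^ 2) * χ h
          + (4 * h - 7 * h ^ 3) * χ1 h + (h ^ 2 - h ^ 4) * χ2 h - 2.51))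
    (c2 : ∀ h ∈ Icc (0 : ℝ) 1, 0 ≤ w h + 1 / (2 * a) * ((-2 + h + 3 * h ^ 2) * w h
        - 2 * h * (1 - h ^ 2) * w1 h) - χ h * h)
    (c3 : ∀ h ∈ Icc (0 : ℝ) 1, A1 h + ((2 - 3 * h) * w h + 2 * h * (1 - h) * w1 h)
        + 3 / 4 * h * t h / a ≤ 0)
    (c4 : ∀ h ∈ Icc (0 : ℝ) 1, 0 ≤ (1 - 1 / a) * t h - 1 / a * (h * (1 - h ^ 2)) * t1 h - A h)
    (cg : ∀ h ∈ Icc (0 : ℝ) 1, |(h ^ 2 - 3 * h ^ 3) * χ h
          - 2 * (χ1 h * (h ^ 2 - h ^ 4) + χ h * (2 * h - 4 * h ^ 3))| ≤ 5.1 * h - 3 * h ^ 2)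
    (ck : ∀ h ∈ Icc (0 : ℝ) 1, (2 - 3 * h) * w h + 2 * h * (1 - h) * w1 h
        ≤ 6.8 * h * (1 - h) ^ 2 * (1 + 0.3 * h))
    (ct : ∀ h ∈ Icc (0 : ℝ) 1, t h ≤ 0.47 * (1 - h) ^ 2 + 0.001) :
    (1 + 1 / a * (1 - L / 2)) * s.P 1 ≤ A 0 + 0.5162 * (L / a) := by
  have ha0 := hp.a0
  have ha := ha0.ne'
  have hL := hp.L0
  have X0 : 0 ≤ 1 / a := by positivity
  have key := le_of_deriv (f := fun h => 1 / a * (χ h * (h - h ^ 3) - L / 2 * (χ h *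
        (h ^ 2 - h ^ 4))) * s.P1 h
      + (χ h - 1 / a * (χ h * h ^ 2 - L / 2 * (χ h * h ^ 3)) - 1 / a * ((χ1 h * (h - h ^ 3)
        + χ h * (1 - 3 * h ^ 2)) - L / 2 * (χ1 h * (h ^ 2 - h ^ 4)
        + χ h * (2 * h - 4 * h ^ 3)))) * s.P h
      - 1 / a * (χ h * (h ^ 2 - h ^ 4)) * s.G h
      + 1 / a * (w h * (h - h ^ 3)) * s.E h
      + 2 * (w h * (h - h ^ 2)) * s.W h
      + A h * s.V h
      + 1 / a * (t h * (h - h ^ 3)) * s.V1 h)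
    (F := fun h => A 0 + L / a * er h)
    (f' := fun h => -(1 / a * ((h - h ^ 3) * χ2 h + (2 - 5 * h ^ 2) * χ1 h - 15 / 4 * h * χ h)
        - χ1 h
        - L / 2 * (1 / a) * ((2 - 35 / 4 * h ^ 2) * χ h + (4 * h - 7 * h ^ 3) * χ1 h
          + (h ^ 2 - h ^ 4) * χ2 h)) * s.P h
      + 1 / (2 * a) * ((h ^ 2 - 3 * h ^ 3) * χ h
          - 2 * (χ1 h * (h ^ 2 - h ^ 4) + χ h * (2 * h - 4 * h ^ 3))) * s.G h
      - (w h + 1 / (2 * a) * ((-2 + h + 3 * h ^ 2) * w h - 2 * h * (1 - h ^ 2) * w1 h)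
          - χ h * h) * s.E h
      + L / (8 * a) * ((2 - 3 * h) * w h + 2 * h * (1 - h) * w1 h) * s.F h
      + (A1 h + ((2 - 3 * h) * w h + 2 * h * (1 - h) * w1 h) + 3 / 4 * h * t h / a) * s.V h
      - ((1 - 1 / a) * t h - 1 / a * (h * (1 - h ^ 2)) * t1 h - A h) * s.V1 h
      + L / (16 * a) * t h * (2 * h * s.F1 h + s.F h))
    (F' := fun h => L / a * er1 h) ?_ ?_ ?_ ?_ ?_ ?_ 1 (right_mem_Icc.2 zero_le_one)
  · simp only [hχ, hA] at key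
    have e0 : er 1 ≤ 0.5162 := by
      unfold er
      norm_num
    have e1 : L / a * er 1 ≤ 0.5162 * (L / a) := by
      have : 0 ≤ L / a := by positivity
      nlinarith
    refine le_trans (le_of_eq ?_) (key.trans (by linarith))
    ring
  · have cx : Continuous χ := continuous_iff_continuousAt.2 fun x => (dχ x).continuousAt
    have cx1 : Continuous χ1 := continuous_iff_continuousAt.2 fun x => (dχ1 x).continuousAt
    have cw : Continuous w := continuous_iff_continuousAt.2 fun x => (dw x).continuousAt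
    have ctt : Continuous t := continuous_iff_continuousAt.2 fun x => (dt x).continuousAt
    have cA : Continuous A := continuous_iff_continuousAt.2 fun x => (dA x).continuousAt
    have k1 := s.cP.c1
    have k2 := s.cP.c0
    have k3 := s.cG.c0
    have k4 := s.cE.c0
    have k5 := s.cW.c0
    have k6 := s.cV.c0
    have k7 := s.cV.c1
    fun_prop
  · have : Continuous er := continuous_iff_continuousAt.2 fun x => (der x).continuousAt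
    fun_prop
  · intro h hh
    have hi := Ioo_subset_Icc_self hh
    have m1 := ((((dχ h).fun_mul (dp13 h)).fun_sub (((dχ h).fun_mul (dp24 h)).const_mul
      (L / 2))).const_mul (1 / a)).fun_mul (dP1 s h hh)
    have m2 := (((dχ h).fun_sub ((((dχ h).fun_mul (dp2 h)).fun_sub
      (((dχ h).fun_mul (dp3 h)).const_mul (L / 2))).const_mul (1 / a))).fun_sub
      (((((dχ1 h).fun_mul (dp13 h)).fun_add ((dχ h).fun_mul (dp02 h))).fun_sub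
      ((((dχ1 h).fun_mul (dp24 h)).fun_add ((dχ h).fun_mul (dp13' h))).const_mul
      (L / 2))).const_mul (1 / a))).fun_mul (dP s h hh)
    have m3 := (((dχ h).fun_mul (dp24 h)).const_mul (1 / a)).fun_mul (dG s h hh)
    have m4 := (((dw h).fun_mul (dp13 h)).const_mul (1 / a)).fun_mul (dE s h hh)
    have m5 := (((dw h).fun_mul (dp12 h)).const_mul 2).fun_mul
      (s.cW.d1 h ⟨by linarith [hh.1], hh.2⟩)
    have m6 := (dA h).fun_mul (dV s h hh)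
    have m7 := (((dt h).fun_mul (dp13 h)).const_mul (1 / a)).fun_mul (dV1 s h hh)
    have key := dual_deriv s ha hi (χ := χ h) (χ1 := χ1 h) (χ2 := χ2 h) (w := w h) (w1 := w1 h)
      (t := t h) (t1 := t1 h) (A := A h) (A1 := A1 h) rfl rfl
    refine ((((((m1.fun_add m2).fun_sub m3).fun_add m4).fun_add m5).fun_add m6).fun_add
      m7).congr_deriv ?_
    rw [← key]
    ring
  · intro h hh
    exact ((der h).const_mul (L / a)).const_add (A 0)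
  · simp [er, s.P0, s.P10, s.V0]
  · intro h hh
    exact dual_rate s hp hh (c1 h hh) (c2 h hh) (c3 h hh) (c4 h hh) (cg h hh) (ck h hh) (ct h hh)

end

end Vale.Agent.P224.R2.H355
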