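import Mathlib.Tactic.Positivity
import Mathlib.Tactic.LinearCombination
import Mathlib.Tactic.Linarith
import Mathlib.Tactic.Ring
import Mathlib.Data.Real.Basic

/-!
Polynomial certificates for the duality bound of the odd flow (c1, c2).
-/

namespace Vale.Agent.P224.R2.H355.DC

lemma c1_0 {h : ℝ} (h0 : 0 ≤ h) (h1 : h ≤ 1) :
    0 ≤ 423 / 8000 + 4 * h + 167629 / 1000 * h ^ 2 - 5495623 / 8000 * h ^ 4 + 7169913 / 8000
      * h ^ 6 - 3041577 / 8000 * h ^ 8 := by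
  rcases le_total h (3 / 4) with g0 | g0
  · obtain ⟨u, hu⟩ : ∃ u, u = h := ⟨_, rfl⟩
    obtain ⟨v, hv⟩ : ∃ v, v = 3 / 4 - h := ⟨_, rfl⟩
    have hu0 : 0 ≤ u := by linarith
    have hv0 : 0 ≤ v := by linarith
    have e : 423 / 8000 + 4 * h + 167629 / 1000 * h ^ 2 - 5495623 / 8000 * h ^ 4 + 7169913 /
        8000 * h ^ 6 - 3041577 / 8000 * h ^ 8
        = 48128 / 91125 * v ^ 8 + 9347072 / 273375 * u * v ^ 7 + 318864896 / 273375 * u ^ 2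
          * v ^ 6 + 21296128 / 3375 * u ^ 3 * v ^ 5 + 3565471756 / 273375 * u ^ 4 * v ^ 4 +
          3070259248 / 273375 * u ^ 5 * v ^ 3 + 1216873897 / 364500 * u ^ 6 * v ^ 2 +
          200806459 / 546750 * u ^ 7 * v + 251076461 / 17496000 * u ^ 8 := by
      rw [hu, hv]
      ring
    rw [e]
    positivity
  rcases le_total h (7 / 8) with g1 | g1
  · obtain ⟨u, hu⟩ : ∃ u, u = h - 3 / 4 := ⟨_, rfl⟩
    obtain ⟨v, hv⟩ : ∃ v, v = 7 / 8 - h := ⟨_, rfl⟩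
    have hu0 : 0 ≤ u := by linarith
    have hv0 : 0 ≤ v := by linarith
    have e : 423 / 8000 + 4 * h + 167629 / 1000 * h ^ 2 - 5495623 / 8000 * h ^ 4 + 7169913 /
        8000 * h ^ 6 - 3041577 / 8000 * h ^ 8
        = 3012917532 / 125 * v ^ 8 + 15268950256 / 125 * u * v ^ 7 + 29340774612 / 125 * u ^
          2 * v ^ 6 + 25957931412 / 125 * u ^ 3 * v ^ 5 + 24791334701 / 250 * u ^ 4 * v ^ 4
          + 10812229169 / 125 * u ^ 5 * v ^ 3 + 55103631597 / 500 * u ^ 6 * v ^ 2 +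
          32684782347 / 500 * u ^ 7 * v + 107839456343 / 8000 * u ^ 8 := by
      rw [hu, hv]
      ring
    rw [e]
    positivity
  obtain ⟨u, hu⟩ : ∃ u, u = h - 7 / 8 := ⟨_, rfl⟩
  obtain ⟨v, hv⟩ : ∃ v, v = 1 - h := ⟨_, rfl⟩
  have hu0 : 0 ≤ u := by linarith
  have hv0 : 0 ≤ v := by linarith
  have e : 423 / 8000 + 4 * h + 167629 / 1000 * h ^ 2 - 5495623 / 8000 * h ^ 4 + 7169913 /
      8000 * h ^ 6 - 3041577 / 8000 * h ^ 8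
      = 107839456343 / 8000 * v ^ 8 + 18788668499 / 125 * u * v ^ 7 + 17619643657 / 25 * u ^
        2 * v ^ 6 + 222994430736 / 125 * u ^ 3 * v ^ 5 + 330083571328 / 125 * u ^ 4 * v ^ 4
        + 288498753536 / 125 * u ^ 5 * v ^ 3 + 28158021632 / 25 * u ^ 6 * v ^ 2 +
        31991988224 / 125 * u ^ 7 * v + 1616904192 / 125 * u ^ 8 := by
    rw [hu, hv]
    ring
  rw [e]
  positivity

lemma c1_1 {h : ℝ} (h0 : 0 ≤ h) (h1 : h ≤ 1) :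
    0 ≤ 44567 / 4000 - 52229 / 1000 * h ^ 2 + 390029 / 4000 * h ^ 4 - 365979 / 4000 * h ^ 6
      + 152019 / 4000 * h ^ 8 := by
  rcases le_total h (3 / 4) with g0 | g0
  · obtain ⟨u, hu⟩ : ∃ u, u = h := ⟨_, rfl⟩
    obtain ⟨v, hv⟩ : ∃ v, v = 3 / 4 - h := ⟨_, rfl⟩
    have hu0 : 0 ≤ u := by linarith
    have hv0 : 0 ≤ v := by linarith
    have e : 44567 / 4000 - 52229 / 1000 * h ^ 2 + 390029 / 4000 * h ^ 4 - 365979 / 4000 * h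
        ^ 6 + 152019 / 4000 * h ^ 8
        = 91273216 / 820125 * v ^ 8 + 730185728 / 820125 * u * v ^ 7 + 2314978816 / 820125 *
          u ^ 2 * v ^ 6 + 3667272704 / 820125 * u ^ 3 * v ^ 5 + 3031795432 / 820125 * u ^ 4
          * v ^ 4 + 1308830624 / 820125 * u ^ 5 * v ^ 3 + 657229949 / 1640250 * u ^ 6 * v ^
          2 + 30314813 / 820125 * u ^ 7 * v + 7104487 / 5248800 * u ^ 8 := by
      rw [hu, hv]
      ring
    rw [e]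
    positivity
  rcases le_total h (7 / 8) with g1 | g1
  · obtain ⟨u, hu⟩ : ∃ u, u = h - 3 / 4 := ⟨_, rfl⟩
    obtain ⟨v, hv⟩ : ∃ v, v = 7 / 8 - h := ⟨_, rfl⟩
    have hu0 : 0 ≤ u := by linarith
    have hv0 : 0 ≤ v := by linarith
    have e : 44567 / 4000 - 52229 / 1000 * h ^ 2 + 390029 / 4000 * h ^ 4 - 365979 / 4000 * h
        ^ 6 + 152019 / 4000 * h ^ 8
        = 56835896 / 25 * v ^ 8 + 1358909792 / 125 * u * v ^ 7 + 520837032 / 25 * u ^ 2 * v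
          ^ 6 + 3106841288 / 125 * u ^ 3 * v ^ 5 + 4226348417 / 125 * u ^ 4 * v ^ 4 +
          6304004842 / 125 * u ^ 5 * v ^ 3 + 12287392673 / 250 * u ^ 6 * v ^ 2 + 6265943319
          / 250 * u ^ 7 * v + 4123666807 / 800 * u ^ 8 := by
      rw [hu, hv]
      ring
    rw [e]
    positivity
  obtain ⟨u, hu⟩ : ∃ u, u = h - 7 / 8 := ⟨_, rfl⟩
  obtain ⟨v, hv⟩ : ∃ v, v = 1 - h := ⟨_, rfl⟩
  have hu0 : 0 ≤ u := by linarith
  have hv0 : 0 ≤ v := by linarith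
  have e : 44567 / 4000 - 52229 / 1000 * h ^ 2 + 390029 / 4000 * h ^ 4 - 365979 / 4000 * h ^
      6 + 152019 / 4000 * h ^ 8
      = 4123666807 / 800 * v ^ 8 + 7176195358 / 125 * u * v ^ 7 + 34446262226 / 125 * u ^ 2
        * v ^ 6 + 92907408288 / 125 * u ^ 3 * v ^ 5 + 154217706752 / 125 * u ^ 4 * v ^ 4 +
        161697742848 / 125 * u ^ 5 * v ^ 3 + 104831983616 / 125 * u ^ 6 * v ^ 2 +
        38503579648 / 125 * u ^ 7 * v + 1228931072 / 25 * u ^ 8 := by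
    rw [hu, hv]
    ring
  rw [e]
  positivity

lemma c1_2 {h : ℝ} (h0 : 0 ≤ h) (h1 : h ≤ 1) :
    0 ≤ 1 / 500 + 643 / 250 * h ^ 2 - 2799 / 500 * h ^ 4 + 381 / 125 * h ^ 6 := by
  rcases le_total h (15 / 16) with g0 | g0
  · obtain ⟨u, hu⟩ : ∃ u, u = h := ⟨_, rfl⟩
    obtain ⟨v, hv⟩ : ∃ v, v = 15 / 16 - h := ⟨_, rfl⟩
    have hu0 : 0 ≤ u := by linarith
    have hv0 : 0 ≤ v := by linarith
    have e : 1 / 500 + 643 / 250 * h ^ 2 - 2799 / 500 * h ^ 4 + 381 / 125 * h ^ 6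
        = 4194304 / 1423828125 * v ^ 6 + 8388608 / 474609375 * u * v ^ 5 + 320241664 /
          94921875 * u ^ 2 * v ^ 4 + 3809345536 / 284765625 * u ^ 3 * v ^ 3 + 1295894464 /
          94921875 * u ^ 4 * v ^ 2 + 283495808 / 474609375 * u ^ 5 * v + 15972829 /
          1423828125 * u ^ 6 := by
      rw [hu, hv]
      ring
    rw [e]
    positivity
  obtain ⟨u, hu⟩ : ∃ u, u = h - 15 / 16 := ⟨_, rfl⟩
  obtain ⟨v, hv⟩ : ∃ v, v = 1 - h := ⟨_, rfl⟩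
  have hu0 : 0 ≤ u := by linarith
  have hv0 : 0 ≤ v := by linarith
  have e : 1 / 500 + 643 / 250 * h ^ 2 - 2799 / 500 * h ^ 4 + 381 / 125 * h ^ 6
      = 15972829 / 125 * v ^ 6 + 45526944 / 125 * u * v ^ 5 + 56600384 / 125 * u ^ 2 * v ^ 4
        + 105558016 / 125 * u ^ 3 * v ^ 3 + 193855488 / 125 * u ^ 4 * v ^ 2 + 165675008 /
        125 * u ^ 5 * v + 50331648 / 125 * u ^ 6 := by
    rw [hu, hv]
    ring
  rw [e]
  positivity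

lemma c1 {h X t : ℝ} (h0 : 0 ≤ h) (h1 : h ≤ 1) (X0 : 0 ≤ X) (t0 : 0 ≤ t)
    (hX : X * (17 / 2 + t) = 1) :
    0 ≤ 1 / 500 * X + 643 / 250 * X * h ^ 2 - 2799 / 500 * X * h ^ 4 + 381 / 125 * X * h ^ 6
      + 44431 / 4000 * X ^ 2 - 95953 / 1000 * X ^ 2 * h ^ 2 + 770693 / 4000 * X ^ 2 * h ^ 4
      - 573243 / 4000 * X ^ 2 * h ^ 6 + 152019 / 4000 * X ^ 2 * h ^ 8 - 37803 / 400 * X ^ 3
      + 4 * X ^ 3 * h + 318961 / 400 * X ^ 3 * h ^ 2 - 96011 / 50 * X ^ 3 * h ^ 4 + 151533 /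
      80 * X ^ 3 * h ^ 6 - 56259 / 80 * X ^ 3 * h ^ 8 := by
  have q0 := c1_0 h0 h1
  have q1 := c1_1 h0 h1
  have q2 := c1_2 h0 h1
  have e : 1 / 500 * X + 643 / 250 * X * h ^ 2 - 2799 / 500 * X * h ^ 4 + 381 / 125 * X * h
      ^ 6 + 44431 / 4000 * X ^ 2 - 95953 / 1000 * X ^ 2 * h ^ 2 + 770693 / 4000 * X ^ 2 * h
      ^ 4 - 573243 / 4000 * X ^ 2 * h ^ 6 + 152019 / 4000 * X ^ 2 * h ^ 8 - 37803 / 400 * X
      ^ 3 + 4 * X ^ 3 * h + 318961 / 400 * X ^ 3 * h ^ 2 - 96011 / 50 * X ^ 3 * h ^ 4 +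
      151533 / 80 * X ^ 3 * h ^ 6 - 56259 / 80 * X ^ 3 * h ^ 8
      = X ^ 3 * (((423 / 8000 + 4 * h + 167629 / 1000 * h ^ 2 - 5495623 / 8000 * h ^ 4 +
        7169913 / 8000 * h ^ 6 - 3041577 / 8000 * h ^ 8)) + t * ((44567 / 4000 - 52229 /
        1000 * h ^ 2 + 390029 / 4000 * h ^ 4 - 365979 / 4000 * h ^ 6 + 152019 / 4000 * h ^
        8)) + t ^ 2 * ((1 / 500 + 643 / 250 * h ^ 2 - 2799 / 500 * h ^ 4 + 381 / 125 * h ^
        6))) := by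
    linear_combination -(X * (1 / 500 + 643 / 250 * h ^ 2 - 2799 / 500 * h ^ 4 + 381 / 125 *
        h ^ 6) * (1 + X * (17 / 2 + t)) + X ^ 2 * (44431 / 4000 - 95953 / 1000 * h ^ 2 +
        770693 / 4000 * h ^ 4 - 573243 / 4000 * h ^ 6 + 152019 / 4000 * h ^ 8) * (1)) * hX
  rw [e]
  have e2 : 0 ≤ ((423 / 8000 + 4 * h + 167629 / 1000 * h ^ 2 - 5495623 / 8000 * h ^ 4 +
        7169913 / 8000 * h ^ 6 - 3041577 / 8000 * h ^ 8)) + t * ((44567 / 4000 - 52229 /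
        1000 * h ^ 2 + 390029 / 4000 * h ^ 4 - 365979 / 4000 * h ^ 6 + 152019 / 4000 * h ^
        8)) + t ^ 2 * ((1 / 500 + 643 / 250 * h ^ 2 - 2799 / 500 * h ^ 4 + 381 / 125 * h ^
        6)) := by
    exact add_nonneg (add_nonneg (q0) (mul_nonneg t0 q1)) (mul_nonneg (pow_nonneg t0 2) q2)
  exact mul_nonneg (pow_nonneg X0 _) e2

lemma c2_0 {h : ℝ} (h0 : 0 ≤ h) (h1 : h ≤ 1) :
    0 ≤ 193 / 4000 + 377 / 16 * h - 772379 / 4000 * h ^ 2 + 517279 / 800 * h ^ 3 - 183401 /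
      160 * h ^ 4 + 4654363 / 4000 * h ^ 5 - 68297 / 100 * h ^ 6 + 17679 / 80 * h ^ 7 -
      129591 / 4000 * h ^ 8 := by
  rcases le_total h (1 / 2) with g0 | g0
  · obtain ⟨u, hu⟩ : ∃ u, u = h := ⟨_, rfl⟩
    obtain ⟨v, hv⟩ : ∃ v, v = 1 / 2 - h := ⟨_, rfl⟩
    have hu0 : 0 ≤ u := by linarith
    have hv0 : 0 ≤ v := by linarith
    have e : 193 / 4000 + 377 / 16 * h - 772379 / 4000 * h ^ 2 + 517279 / 800 * h ^ 3 -
        183401 / 160 * h ^ 4 + 4654363 / 4000 * h ^ 5 - 68297 / 100 * h ^ 6 + 17679 / 80 * h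
        ^ 7 - 129591 / 4000 * h ^ 8
        = 1544 / 125 * v ^ 8 + 389352 / 125 * u * v ^ 7 + 1137474 / 125 * u ^ 2 * v ^ 6 +
          1321311 / 125 * u ^ 3 * v ^ 5 + 308469 / 50 * u ^ 4 * v ^ 4 + 975179 / 500 * u ^ 5
          * v ^ 3 + 188097 / 500 * u ^ 6 * v ^ 2 + 2489 / 40 * u ^ 7 * v + 6217 / 800 * u ^
          8 := by
      rw [hu, hv]
      ring
    rw [e]
    positivity
  obtain ⟨u, hu⟩ : ∃ u, u = h - 1 / 2 := ⟨_, rfl⟩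
  obtain ⟨v, hv⟩ : ∃ v, v = 1 - h := ⟨_, rfl⟩
  have hu0 : 0 ≤ u := by linarith
  have hv0 : 0 ≤ v := by linarith
  have e : 193 / 4000 + 377 / 16 * h - 772379 / 4000 * h ^ 2 + 517279 / 800 * h ^ 3 - 183401
      / 160 * h ^ 4 + 4654363 / 4000 * h ^ 5 - 68297 / 100 * h ^ 6 + 17679 / 80 * h ^ 7 -
      129591 / 4000 * h ^ 8
      = 6217 / 800 * v ^ 8 + 12423 / 200 * u * v ^ 7 + 46928 / 125 * u ^ 2 * v ^ 6 + 81859 /
        100 * u ^ 3 * v ^ 5 + 12956 / 25 * u ^ 4 * v ^ 4 + 5169 / 125 * u ^ 5 * v ^ 3 +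
        13848 / 125 * u ^ 6 * v ^ 2 + 17528 / 125 * u ^ 7 * v + 2208 / 125 * u ^ 8 := by
    rw [hu, hv]
    ring
  rw [e]
  positivity

lemma c2_1 {h : ℝ} (h0 : 0 ≤ h) (h1 : h ≤ 1) :
    0 ≤ 4111 / 1000 - 4699 / 250 * h + 8239 / 500 * h ^ 2 + 40889 / 2000 * h ^ 3 + 18081 /
      400 * h ^ 4 - 537371 / 2000 * h ^ 5 + 669619 / 2000 * h ^ 6 - 5319 / 40 * h ^ 7 - 573
      / 1000 * h ^ 8 := by
  rcases le_total h (1 / 2) with g0 | g0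
  · obtain ⟨u, hu⟩ : ∃ u, u = h := ⟨_, rfl⟩
    obtain ⟨v, hv⟩ : ∃ v, v = 1 / 2 - h := ⟨_, rfl⟩
    have hu0 : 0 ≤ u := by linarith
    have hv0 : 0 ≤ v := by linarith
    have e : 4111 / 1000 - 4699 / 250 * h + 8239 / 500 * h ^ 2 + 40889 / 2000 * h ^ 3 +
        18081 / 400 * h ^ 4 - 537371 / 2000 * h ^ 5 + 669619 / 2000 * h ^ 6 - 5319 / 40 * h
        ^ 7 - 573 / 1000 * h ^ 8
        = 131552 / 125 * v ^ 8 + 150336 / 25 * u * v ^ 7 + 1710128 / 125 * u ^ 2 * v ^ 6 +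
          1924178 / 125 * u ^ 3 * v ^ 5 + 231907 / 25 * u ^ 4 * v ^ 4 + 776693 / 250 * u ^ 5
          * v ^ 3 + 267673 / 500 * u ^ 6 * v ^ 2 + 16909 / 500 * u ^ 7 * v + 363 / 200 * u ^
          8 := by
      rw [hu, hv]
      ring
    rw [e]
    positivity
  rcases le_total h (3 / 4) with g1 | g1
  · obtain ⟨u, hu⟩ : ∃ u, u = h - 1 / 2 := ⟨_, rfl⟩
    obtain ⟨v, hv⟩ : ∃ v, v = 3 / 4 - h := ⟨_, rfl⟩
    have hu0 : 0 ≤ u := by linarith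
    have hv0 : 0 ≤ v := by linarith
    have e : 4111 / 1000 - 4699 / 250 * h + 8239 / 500 * h ^ 2 + 40889 / 2000 * h ^ 3 +
        18081 / 400 * h ^ 4 - 537371 / 2000 * h ^ 5 + 669619 / 2000 * h ^ 6 - 5319 / 40 * h
        ^ 7 - 573 / 1000 * h ^ 8
        = 11616 / 25 * v ^ 8 + 155872 / 125 * u * v ^ 7 + 2260384 / 125 * u ^ 2 * v ^ 6 +
          11528536 / 125 * u ^ 3 * v ^ 5 + 1062356 / 5 * u ^ 4 * v ^ 4 + 34223786 / 125 * u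
          ^ 5 * v ^ 3 + 26075402 / 125 * u ^ 6 * v ^ 2 + 4376229 / 50 * u ^ 7 * v + 15167431
          / 1000 * u ^ 8 := by
      rw [hu, hv]
      ring
    rw [e]
    positivity
  obtain ⟨u, hu⟩ : ∃ u, u = h - 3 / 4 := ⟨_, rfl⟩
  obtain ⟨v, hv⟩ : ∃ v, v = 1 - h := ⟨_, rfl⟩
  have hu0 : 0 ≤ u := by linarith
  have hv0 : 0 ≤ v := by linarith
  have e : 4111 / 1000 - 4699 / 250 * h + 8239 / 500 * h ^ 2 + 40889 / 2000 * h ^ 3 + 18081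
      / 400 * h ^ 4 - 537371 / 2000 * h ^ 5 + 669619 / 2000 * h ^ 6 - 5319 / 40 * h ^ 7 -
      573 / 1000 * h ^ 8
      = 15167431 / 1000 * v ^ 8 + 38788579 / 250 * u * v ^ 7 + 85251421 / 125 * u ^ 2 * v ^
        6 + 209049084 / 125 * u ^ 3 * v ^ 5 + 12357008 / 5 * u ^ 4 * v ^ 4 + 274839488 / 125
        * u ^ 5 * v ^ 3 + 136136192 / 125 * u ^ 6 * v ^ 2 + 29057024 / 125 * u ^ 7 * v +
        131072 / 125 * u ^ 8 := by
    rw [hu, hv]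
    ring
  rw [e]
  positivity

lemma c2_2 {h : ℝ} (h0 : 0 ≤ h) (h1 : h ≤ 1) :
    0 ≤ 189 / 1000 - 1833 / 500 * h + 23259 / 1000 * h ^ 2 - 27049 / 500 * h ^ 3 + 5261 /
      100 * h ^ 4 - 1773 / 100 * h ^ 5 - 933 / 1000 * h ^ 6 + 381 / 1000 * h ^ 8 := by
  rcases le_total h (1 / 8) with g0 | g0
  · obtain ⟨u, hu⟩ : ∃ u, u = h := ⟨_, rfl⟩
    obtain ⟨v, hv⟩ : ∃ v, v = 1 / 8 - h := ⟨_, rfl⟩
    have hu0 : 0 ≤ u := by linarith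
    have hv0 : 0 ≤ v := by linarith
    have e : 189 / 1000 - 1833 / 500 * h + 23259 / 1000 * h ^ 2 - 27049 / 500 * h ^ 3 + 5261
        / 100 * h ^ 4 - 1773 / 100 * h ^ 5 - 933 / 1000 * h ^ 6 + 381 / 1000 * h ^ 8
        = 396361728 / 125 * v ^ 8 + 441974784 / 25 * u * v ^ 7 + 5133139968 / 125 * u ^ 2 *
          v ^ 6 + 6366158848 / 125 * u ^ 3 * v ^ 5 + 892179456 / 25 * u ^ 4 * v ^ 4 +
          1694334848 / 125 * u ^ 5 * v ^ 3 + 291326296 / 125 * u ^ 6 * v ^ 2 + 2611824 / 25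
          * u ^ 7 * v + 13612093 / 1000 * u ^ 8 := by
      rw [hu, hv]
      ring
    rw [e]
    positivity
  rcases le_total h (3 / 4) with g1 | g1
  · obtain ⟨u, hu⟩ : ∃ u, u = h - 1 / 8 := ⟨_, rfl⟩
    obtain ⟨v, hv⟩ : ∃ v, v = 3 / 4 - h := ⟨_, rfl⟩
    have hu0 : 0 ≤ u := by linarith
    have hv0 : 0 ≤ v := by linarith
    have e : 189 / 1000 - 1833 / 500 * h + 23259 / 1000 * h ^ 2 - 27049 / 500 * h ^ 3 + 5261
        / 100 * h ^ 4 - 1773 / 100 * h ^ 5 - 933 / 1000 * h ^ 6 + 381 / 1000 * h ^ 8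
        = 13612093 / 390625000 * v ^ 8 + 16376958 / 48828125 * u * v ^ 7 + 6255865918 /
          48828125 * u ^ 2 * v ^ 6 + 21619821416 / 48828125 * u ^ 3 * v ^ 5 + 5587302924 /
          9765625 * u ^ 4 * v ^ 4 + 16509638176 / 48828125 * u ^ 5 * v ^ 3 + 4470536928 /
          48828125 * u ^ 6 * v ^ 2 + 523045248 / 48828125 * u ^ 7 * v + 22866336 / 48828125
          * u ^ 8 := by
      rw [hu, hv]
      ring
    rw [e]
    positivity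
  rcases le_total h (7 / 8) with g2 | g2
  · obtain ⟨u, hu⟩ : ∃ u, u = h - 3 / 4 := ⟨_, rfl⟩
    obtain ⟨v, hv⟩ : ∃ v, v = 7 / 8 - h := ⟨_, rfl⟩
    have hu0 : 0 ≤ u := by linarith
    have hv0 : 0 ≤ v := by linarith
    have e : 189 / 1000 - 1833 / 500 * h + 23259 / 1000 * h ^ 2 - 27049 / 500 * h ^ 3 + 5261
        / 100 * h ^ 4 - 1773 / 100 * h ^ 5 - 933 / 1000 * h ^ 6 + 381 / 1000 * h ^ 8
        = 22866336 / 125 * v ^ 8 + 114907776 / 125 * u * v ^ 7 + 222076128 / 125 * u ^ 2 * v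
          ^ 6 + 204789472 / 125 * u ^ 3 * v ^ 5 + 21423756 / 25 * u ^ 4 * v ^ 4 + 80018264 /
          125 * u ^ 5 * v ^ 3 + 86941342 / 125 * u ^ 6 * v ^ 2 + 49390962 / 125 * u ^ 7 * v
          + 16166297 / 200 * u ^ 8 := by
      rw [hu, hv]
      ring
    rw [e]
    positivity
  obtain ⟨u, hu⟩ : ∃ u, u = h - 7 / 8 := ⟨_, rfl⟩
  obtain ⟨v, hv⟩ : ∃ v, v = 1 - h := ⟨_, rfl⟩
  have hu0 : 0 ≤ u := by linarith
  have hv0 : 0 ≤ v := by linarith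
  have e : 189 / 1000 - 1833 / 500 * h + 23259 / 1000 * h ^ 2 - 27049 / 500 * h ^ 3 + 5261 /
      100 * h ^ 4 - 1773 / 100 * h ^ 5 - 933 / 1000 * h ^ 6 + 381 / 1000 * h ^ 8
      = 16166297 / 200 * v ^ 8 + 112272008 / 125 * u * v ^ 7 + 527108664 / 125 * u ^ 2 * v ^
        6 + 1341000192 / 125 * u ^ 3 * v ^ 5 + 80414208 / 5 * u ^ 4 * v ^ 4 + 1809358848 /
        125 * u ^ 5 * v ^ 3 + 944177152 / 125 * u ^ 6 * v ^ 2 + 50855936 / 25 * u ^ 7 * v +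
        25165824 / 125 * u ^ 8 := by
    rw [hu, hv]
    ring
  rw [e]
  positivity

lemma c2 {h X t : ℝ} (h0 : 0 ≤ h) (h1 : h ≤ 1) (X0 : 0 ≤ X) (t0 : 0 ≤ t)
    (hX : X * (17 / 2 + t) = 1) :
    0 ≤ 189 / 1000 * X - 1833 / 500 * X * h + 23259 / 1000 * X * h ^ 2 - 27049 / 500 * X * h
      ^ 3 + 5261 / 100 * X * h ^ 4 - 1773 / 100 * X * h ^ 5 - 933 / 1000 * X * h ^ 6 + 381 /
      1000 * X * h ^ 8 + 449 / 500 * X ^ 2 + 21763 / 500 * X ^ 2 * h - 15157 / 40 * X ^ 2 *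
      h ^ 2 + 1880221 / 2000 * X ^ 2 * h ^ 3 - 339667 / 400 * X ^ 2 * h ^ 4 + 65449 / 2000 *
      X ^ 2 * h ^ 5 + 701341 / 2000 * X ^ 2 * h ^ 6 - 5319 / 40 * X ^ 2 * h ^ 7 - 141 / 20 *
      X ^ 2 * h ^ 8 - 531 / 25 * X ^ 3 - 4077 / 50 * X ^ 3 * h + 269461 / 200 * X ^ 3 * h ^
      2 - 85894 / 25 * X ^ 3 * h ^ 3 + 454119 / 200 * X ^ 3 * h ^ 4 + 86657 / 40 * X ^ 3 * h
      ^ 5 - 179813 / 50 * X ^ 3 * h ^ 6 + 54051 / 40 * X ^ 3 * h ^ 7 := by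
  have q0 := c2_0 h0 h1
  have q1 := c2_1 h0 h1
  have q2 := c2_2 h0 h1
  have e : 189 / 1000 * X - 1833 / 500 * X * h + 23259 / 1000 * X * h ^ 2 - 27049 / 500 * X
      * h ^ 3 + 5261 / 100 * X * h ^ 4 - 1773 / 100 * X * h ^ 5 - 933 / 1000 * X * h ^ 6 +
      381 / 1000 * X * h ^ 8 + 449 / 500 * X ^ 2 + 21763 / 500 * X ^ 2 * h - 15157 / 40 * X
      ^ 2 * h ^ 2 + 1880221 / 2000 * X ^ 2 * h ^ 3 - 339667 / 400 * X ^ 2 * h ^ 4 + 65449 /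
      2000 * X ^ 2 * h ^ 5 + 701341 / 2000 * X ^ 2 * h ^ 6 - 5319 / 40 * X ^ 2 * h ^ 7 - 141
      / 20 * X ^ 2 * h ^ 8 - 531 / 25 * X ^ 3 - 4077 / 50 * X ^ 3 * h + 269461 / 200 * X ^ 3
      * h ^ 2 - 85894 / 25 * X ^ 3 * h ^ 3 + 454119 / 200 * X ^ 3 * h ^ 4 + 86657 / 40 * X ^
      3 * h ^ 5 - 179813 / 50 * X ^ 3 * h ^ 6 + 54051 / 40 * X ^ 3 * h ^ 7
      = X ^ 3 * (((193 / 4000 + 377 / 16 * h - 772379 / 4000 * h ^ 2 + 517279 / 800 * h ^ 3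
        - 183401 / 160 * h ^ 4 + 4654363 / 4000 * h ^ 5 - 68297 / 100 * h ^ 6 + 17679 / 80 *
        h ^ 7 - 129591 / 4000 * h ^ 8)) + t * ((4111 / 1000 - 4699 / 250 * h + 8239 / 500 *
        h ^ 2 + 40889 / 2000 * h ^ 3 + 18081 / 400 * h ^ 4 - 537371 / 2000 * h ^ 5 + 669619
        / 2000 * h ^ 6 - 5319 / 40 * h ^ 7 - 573 / 1000 * h ^ 8)) + t ^ 2 * ((189 / 1000 -
        1833 / 500 * h + 23259 / 1000 * h ^ 2 - 27049 / 500 * h ^ 3 + 5261 / 100 * h ^ 4 -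
        1773 / 100 * h ^ 5 - 933 / 1000 * h ^ 6 + 381 / 1000 * h ^ 8))) := by
    linear_combination -(X * (189 / 1000 - 1833 / 500 * h + 23259 / 1000 * h ^ 2 - 27049 /
        500 * h ^ 3 + 5261 / 100 * h ^ 4 - 1773 / 100 * h ^ 5 - 933 / 1000 * h ^ 6 + 381 /
        1000 * h ^ 8) * (1 + X * (17 / 2 + t)) + X ^ 2 * (449 / 500 + 21763 / 500 * h -
        15157 / 40 * h ^ 2 + 1880221 / 2000 * h ^ 3 - 339667 / 400 * h ^ 4 + 65449 / 2000 *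
        h ^ 5 + 701341 / 2000 * h ^ 6 - 5319 / 40 * h ^ 7 - 141 / 20 * h ^ 8) * (1)) * hX
  rw [e]
  have e2 : 0 ≤ ((193 / 4000 + 377 / 16 * h - 772379 / 4000 * h ^ 2 + 517279 / 800 * h ^ 3 -
        183401 / 160 * h ^ 4 + 4654363 / 4000 * h ^ 5 - 68297 / 100 * h ^ 6 + 17679 / 80 * h
        ^ 7 - 129591 / 4000 * h ^ 8)) + t * ((4111 / 1000 - 4699 / 250 * h + 8239 / 500 * h
        ^ 2 + 40889 / 2000 * h ^ 3 + 18081 / 400 * h ^ 4 - 537371 / 2000 * h ^ 5 + 669619 /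
        2000 * h ^ 6 - 5319 / 40 * h ^ 7 - 573 / 1000 * h ^ 8)) + t ^ 2 * ((189 / 1000 -
        1833 / 500 * h + 23259 / 1000 * h ^ 2 - 27049 / 500 * h ^ 3 + 5261 / 100 * h ^ 4 -
        1773 / 100 * h ^ 5 - 933 / 1000 * h ^ 6 + 381 / 1000 * h ^ 8)) := by
    exact add_nonneg (add_nonneg (q0) (mul_nonneg t0 q1)) (mul_nonneg (pow_nonneg t0 2) q2)
  exact mul_nonneg (pow_nonneg X0 _) e2


end Vale.Agent.P224.R2.H355.DC
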