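import Mathlib.Tactic.Positivity
import Mathlib.Tactic.LinearCombination
import Mathlib.Tactic.Linarith
import Mathlib.Tactic.Ring
import Mathlib.Data.Real.Basic

/-!
Polynomial certificates for the duality bound of the odd flow (c4, kp, tp).
-/

namespace Vale.Agent.P224.R2.H355.DC

lemma c4_0 {h : ℝ} (h0 : 0 ≤ h) (h1 : h ≤ 1) :
    0 ≤ 589117 / 6720000 + 82719 / 2000 * h - 2002567 / 4000 * h ^ 2 + 29827679 / 12000 * h
      ^ 3 - 105233079 / 16000 * h ^ 4 + 201185023 / 20000 * h ^ 5 - 428759827 / 48000 * h ^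
      6 + 239737571 / 56000 * h ^ 7 - 10970841 / 12800 * h ^ 8 := by
  rcases le_total h (1 / 4) with g0 | g0
  · obtain ⟨u, hu⟩ : ∃ u, u = h := ⟨_, rfl⟩
    obtain ⟨v, hv⟩ : ∃ v, v = 1 / 4 - h := ⟨_, rfl⟩
    have hu0 : 0 ≤ u := by linarith
    have hv0 : 0 ≤ v := by linarith
    have e : 589117 / 6720000 + 82719 / 2000 * h - 2002567 / 4000 * h ^ 2 + 29827679 / 12000
        * h ^ 3 - 105233079 / 16000 * h ^ 4 + 201185023 / 20000 * h ^ 5 - 428759827 / 48000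
        * h ^ 6 + 239737571 / 56000 * h ^ 7 - 10970841 / 12800 * h ^ 8
        = 75406976 / 13125 * v ^ 8 + 9497202688 / 13125 * u * v ^ 7 + 5350646144 / 1875 * u
          ^ 2 * v ^ 6 + 2995984416 / 625 * u ^ 3 * v ^ 5 + 550335026 / 125 * u ^ 4 * v ^ 4 +
          1492614822 / 625 * u ^ 5 * v ^ 3 + 3853937723 / 5000 * u ^ 6 * v ^ 2 + 9789416067
          / 70000 * u ^ 7 * v + 25661194953 / 2240000 * u ^ 8 := by
      rw [hu, hv]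
      ring
    rw [e]
    positivity
  rcases le_total h (1 / 2) with g1 | g1
  · obtain ⟨u, hu⟩ : ∃ u, u = h - 1 / 4 := ⟨_, rfl⟩
    obtain ⟨v, hv⟩ : ∃ v, v = 1 / 2 - h := ⟨_, rfl⟩
    have hu0 : 0 ≤ u := by linarith
    have hv0 : 0 ≤ v := by linarith
    have e : 589117 / 6720000 + 82719 / 2000 * h - 2002567 / 4000 * h ^ 2 + 29827679 / 12000
        * h ^ 3 - 105233079 / 16000 * h ^ 4 + 201185023 / 20000 * h ^ 5 - 428759827 / 48000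
        * h ^ 6 + 239737571 / 56000 * h ^ 7 - 10970841 / 12800 * h ^ 8
        = 25661194953 / 2240000 * v ^ 8 + 6082362819 / 140000 * u * v ^ 7 + 1919281577 /
          20000 * u ^ 2 * v ^ 6 + 1231032651 / 5000 * u ^ 3 * v ^ 5 + 882057881 / 2000 * u ^
          4 * v ^ 4 + 550190691 / 1250 * u ^ 5 * v ^ 3 + 905354059 / 3750 * u ^ 6 * v ^ 2 +
          906435394 / 13125 * u ^ 7 * v + 213478651 / 26250 * u ^ 8 := by
      rw [hu, hv]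
      ring
    rw [e]
    positivity
  obtain ⟨u, hu⟩ : ∃ u, u = h - 1 / 2 := ⟨_, rfl⟩
  obtain ⟨v, hv⟩ : ∃ v, v = 1 - h := ⟨_, rfl⟩
  have hu0 : 0 ≤ u := by linarith
  have hv0 : 0 ≤ v := by linarith
  have e : 589117 / 6720000 + 82719 / 2000 * h - 2002567 / 4000 * h ^ 2 + 29827679 / 12000 *
      h ^ 3 - 105233079 / 16000 * h ^ 4 + 201185023 / 20000 * h ^ 5 - 428759827 / 48000 * h
      ^ 6 + 239737571 / 56000 * h ^ 7 - 10970841 / 12800 * h ^ 8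
      = 213478651 / 6720000 * v ^ 8 + 11701141 / 52500 * u * v ^ 7 + 13419467 / 30000 * u ^
        2 * v ^ 6 + 1027509 / 5000 * u ^ 3 * v ^ 5 + 1514321 / 2000 * u ^ 4 * v ^ 4 + 224751
        / 125 * u ^ 5 * v ^ 3 + 193 * u ^ 6 * v ^ 2 + 9534 / 125 * u ^ 7 * v + 408 / 25 * u
        ^ 8 := by
    rw [hu, hv]
    ring
  rw [e]
  positivity

lemma c4_1 {h : ℝ} (h0 : 0 ≤ h) (h1 : h ≤ 1) :
    0 ≤ 2461 / 134400 + 396 / 25 * h - 21054 / 125 * h ^ 2 + 3705467 / 6000 * h ^ 3 -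
      6726369 / 8000 * h ^ 4 - 1983 / 400 * h ^ 5 + 25527569 / 24000 * h ^ 6 - 26214911 /
      28000 * h ^ 7 + 1621527 / 6400 * h ^ 8 := by
  rcases le_total h (1 / 4) with g0 | g0
  · obtain ⟨u, hu⟩ : ∃ u, u = h := ⟨_, rfl⟩
    obtain ⟨v, hv⟩ : ∃ v, v = 1 / 4 - h := ⟨_, rfl⟩
    have hu0 : 0 ≤ u := by linarith
    have hv0 : 0 ≤ v := by linarith
    have e : 2461 / 134400 + 396 / 25 * h - 21054 / 125 * h ^ 2 + 3705467 / 6000 * h ^ 3 -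
        6726369 / 8000 * h ^ 4 - 1983 / 400 * h ^ 5 + 25527569 / 24000 * h ^ 6 - 26214911 /
        28000 * h ^ 7 + 1621527 / 6400 * h ^ 8
        = 630016 / 525 * v ^ 8 + 141289472 / 525 * u * v ^ 7 + 435135488 / 375 * u ^ 2 * v ^
          6 + 251273792 / 125 * u ^ 3 * v ^ 5 + 220698044 / 125 * u ^ 4 * v ^ 4 + 101905796
          / 125 * u ^ 5 * v ^ 3 + 91856619 / 500 * u ^ 6 * v ^ 2 + 24131153 / 1400 * u ^ 7 *
          v + 266669189 / 224000 * u ^ 8 := by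
      rw [hu, hv]
      ring
    rw [e]
    positivity
  rcases le_total h (1 / 2) with g1 | g1
  · obtain ⟨u, hu⟩ : ∃ u, u = h - 1 / 4 := ⟨_, rfl⟩
    obtain ⟨v, hv⟩ : ∃ v, v = 1 / 2 - h := ⟨_, rfl⟩
    have hu0 : 0 ≤ u := by linarith
    have hv0 : 0 ≤ v := by linarith
    have e : 2461 / 134400 + 396 / 25 * h - 21054 / 125 * h ^ 2 + 3705467 / 6000 * h ^ 3 -
        6726369 / 8000 * h ^ 4 - 1983 / 400 * h ^ 5 + 25527569 / 24000 * h ^ 6 - 26214911 /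
        28000 * h ^ 7 + 1621527 / 6400 * h ^ 8
        = 266669189 / 224000 * v ^ 8 + 25357659 / 14000 * u * v ^ 7 + 30294521 / 400 * u ^ 2
          * v ^ 6 + 237390843 / 500 * u ^ 3 * v ^ 5 + 1143030297 / 1000 * u ^ 4 * v ^ 4 +
          172455019 / 125 * u ^ 5 * v ^ 3 + 335666807 / 375 * u ^ 6 * v ^ 2 + 785032708 /
          2625 * u ^ 7 * v + 106254671 / 2625 * u ^ 8 := by
      rw [hu, hv]
      ring
    rw [e]
    positivity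
  rcases le_total h (7 / 8) with g2 | g2
  · obtain ⟨u, hu⟩ : ∃ u, u = h - 1 / 2 := ⟨_, rfl⟩
    obtain ⟨v, hv⟩ : ∃ v, v = 7 / 8 - h := ⟨_, rfl⟩
    have hu0 : 0 ≤ u := by linarith
    have hv0 : 0 ≤ v := by linarith
    have e : 2461 / 134400 + 396 / 25 * h - 21054 / 125 * h ^ 2 + 3705467 / 6000 * h ^ 3 -
        6726369 / 8000 * h ^ 4 - 1983 / 400 * h ^ 5 + 25527569 / 24000 * h ^ 6 - 26214911 /
        28000 * h ^ 7 + 1621527 / 6400 * h ^ 8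
        = 27201195776 / 17222625 * v ^ 8 + 242571355648 / 17222625 * u * v ^ 7 +
          119742575552 / 2460375 * u ^ 2 * v ^ 6 + 201071777632 / 2460375 * u ^ 3 * v ^ 5 +
          168463546742 / 2460375 * u ^ 4 * v ^ 4 + 64804676326 / 2460375 * u ^ 5 * v ^ 3 +
          7542967123 / 1968300 * u ^ 6 * v ^ 2 + 23319797051 / 137781000 * u ^ 7 * v +
          87060477167 / 4408992000 * u ^ 8 := by
      rw [hu, hv]
      ring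
    rw [e]
    positivity
  obtain ⟨u, hu⟩ : ∃ u, u = h - 7 / 8 := ⟨_, rfl⟩
  obtain ⟨v, hv⟩ : ∃ v, v = 1 - h := ⟨_, rfl⟩
  have hu0 : 0 ≤ u := by linarith
  have hv0 : 0 ≤ v := by linarith
  have e : 2461 / 134400 + 396 / 25 * h - 21054 / 125 * h ^ 2 + 3705467 / 6000 * h ^ 3 -
      6726369 / 8000 * h ^ 4 - 1983 / 400 * h ^ 5 + 25527569 / 24000 * h ^ 6 - 26214911 /
      28000 * h ^ 7 + 1621527 / 6400 * h ^ 8
      = 87060477167 / 672000 * v ^ 8 + 5311723343 / 5250 * u * v ^ 7 + 434087326 / 75 * u ^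
        2 * v ^ 6 + 2415882832 / 125 * u ^ 3 * v ^ 5 + 4415938464 / 125 * u ^ 4 * v ^ 4 +
        4456943616 / 125 * u ^ 5 * v ^ 3 + 2390351872 / 125 * u ^ 6 * v ^ 2 + 580190208 /
        125 * u ^ 7 * v + 33554432 / 125 * u ^ 8 := by
    rw [hu, hv]
    ring
  rw [e]
  positivity

lemma c4_2 {h : ℝ} (h0 : 0 ≤ h) (h1 : h ≤ 1) :
    0 ≤ 1243 / 420000 + 729 / 500 * h - 7649 / 1000 * h ^ 2 + 1529 / 300 * h ^ 3 + 100377 /
      2000 * h ^ 4 - 394391 / 2500 * h ^ 5 + 15554 / 75 * h ^ 6 - 923791 / 7000 * h ^ 7 +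
      5319 / 160 * h ^ 8 := by
  rcases le_total h (1 / 2) with g0 | g0
  · obtain ⟨u, hu⟩ : ∃ u, u = h := ⟨_, rfl⟩
    obtain ⟨v, hv⟩ : ∃ v, v = 1 / 2 - h := ⟨_, rfl⟩
    have hu0 : 0 ≤ u := by linarith
    have hv0 : 0 ≤ v := by linarith
    have e : 1243 / 420000 + 729 / 500 * h - 7649 / 1000 * h ^ 2 + 1529 / 300 * h ^ 3 +
        100377 / 2000 * h ^ 4 - 394391 / 2500 * h ^ 5 + 15554 / 75 * h ^ 6 - 923791 / 7000 *
        h ^ 7 + 5319 / 160 * h ^ 8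
        = 9944 / 13125 * v ^ 8 + 2528992 / 13125 * u * v ^ 7 + 1571336 / 1875 * u ^ 2 * v ^
          6 + 2226392 / 1875 * u ^ 3 * v ^ 5 + 322619 / 375 * u ^ 4 * v ^ 4 + 683426 / 1875
          * u ^ 5 * v ^ 3 + 168188 / 1875 * u ^ 6 * v ^ 2 + 616519 / 52500 * u ^ 7 * v +
          316639 / 420000 * u ^ 8 := by
      rw [hu, hv]
      ring
    rw [e]
    positivity
  obtain ⟨u, hu⟩ : ∃ u, u = h - 1 / 2 := ⟨_, rfl⟩
  obtain ⟨v, hv⟩ : ∃ v, v = 1 - h := ⟨_, rfl⟩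
  have hu0 : 0 ≤ u := by linarith
  have hv0 : 0 ≤ v := by linarith
  have e : 1243 / 420000 + 729 / 500 * h - 7649 / 1000 * h ^ 2 + 1529 / 300 * h ^ 3 + 100377
      / 2000 * h ^ 4 - 394391 / 2500 * h ^ 5 + 15554 / 75 * h ^ 6 - 923791 / 7000 * h ^ 7 +
      5319 / 160 * h ^ 8
      = 316639 / 420000 * v ^ 8 + 16759 / 52500 * u * v ^ 7 + 18248 / 1875 * u ^ 2 * v ^ 6 +
        39517 / 625 * u ^ 3 * v ^ 5 + 19208 / 125 * u ^ 4 * v ^ 4 + 30276 / 125 * u ^ 5 * v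
        ^ 3 + 23664 / 125 * u ^ 6 * v ^ 2 + 368 / 25 * u ^ 7 * v + 32 / 125 * u ^ 8 := by
    rw [hu, hv]
    ring
  rw [e]
  positivity

lemma c4 {h X t : ℝ} (h0 : 0 ≤ h) (h1 : h ≤ 1) (X0 : 0 ≤ X) (t0 : 0 ≤ t)
    (hX : X * (17 / 2 + t) = 1) :
    0 ≤ 1243 / 420000 * X + 729 / 500 * X * h - 7649 / 1000 * X * h ^ 2 + 1529 / 300 * X * h
      ^ 3 + 100377 / 2000 * X * h ^ 4 - 394391 / 2500 * X * h ^ 5 + 15554 / 75 * X * h ^ 6 -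
      923791 / 7000 * X * h ^ 7 + 5319 / 160 * X * h ^ 8 - 35841 / 1120000 * X ^ 2 - 4473 /
      500 * X ^ 2 * h - 38399 / 1000 * X ^ 2 * h ^ 2 + 1061869 / 2000 * X ^ 2 * h ^ 3 -
      2710401 / 1600 * X ^ 2 * h ^ 4 + 26769013 / 10000 * X ^ 2 * h ^ 5 - 19695397 / 8000 *
      X ^ 2 * h ^ 6 + 36602877 / 28000 * X ^ 2 * h ^ 7 - 1995393 / 6400 * X ^ 2 * h ^ 8 +
      3267 / 22400 * X ^ 3 + 603 / 50 * X ^ 3 * h + 37839 / 100 * X ^ 3 * h ^ 2 - 191643 /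
      80 * X ^ 3 * h ^ 3 + 671331 / 160 * X ^ 3 * h ^ 4 - 129651 / 100 * X ^ 3 * h ^ 5 -
      2391859 / 800 * X ^ 3 * h ^ 6 + 7571993 / 2800 * X ^ 3 * h ^ 7 - 389649 / 640 * X ^ 3
      * h ^ 8 := by
  have q0 := c4_0 h0 h1
  have q1 := c4_1 h0 h1
  have q2 := c4_2 h0 h1
  have e : 1243 / 420000 * X + 729 / 500 * X * h - 7649 / 1000 * X * h ^ 2 + 1529 / 300 * X
      * h ^ 3 + 100377 / 2000 * X * h ^ 4 - 394391 / 2500 * X * h ^ 5 + 15554 / 75 * X * h ^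
      6 - 923791 / 7000 * X * h ^ 7 + 5319 / 160 * X * h ^ 8 - 35841 / 1120000 * X ^ 2 -
      4473 / 500 * X ^ 2 * h - 38399 / 1000 * X ^ 2 * h ^ 2 + 1061869 / 2000 * X ^ 2 * h ^ 3
      - 2710401 / 1600 * X ^ 2 * h ^ 4 + 26769013 / 10000 * X ^ 2 * h ^ 5 - 19695397 / 8000
      * X ^ 2 * h ^ 6 + 36602877 / 28000 * X ^ 2 * h ^ 7 - 1995393 / 6400 * X ^ 2 * h ^ 8 +
      3267 / 22400 * X ^ 3 + 603 / 50 * X ^ 3 * h + 37839 / 100 * X ^ 3 * h ^ 2 - 191643 /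
      80 * X ^ 3 * h ^ 3 + 671331 / 160 * X ^ 3 * h ^ 4 - 129651 / 100 * X ^ 3 * h ^ 5 -
      2391859 / 800 * X ^ 3 * h ^ 6 + 7571993 / 2800 * X ^ 3 * h ^ 7 - 389649 / 640 * X ^ 3
      * h ^ 8
      = X ^ 3 * (((589117 / 6720000 + 82719 / 2000 * h - 2002567 / 4000 * h ^ 2 + 29827679 /
        12000 * h ^ 3 - 105233079 / 16000 * h ^ 4 + 201185023 / 20000 * h ^ 5 - 428759827 /
        48000 * h ^ 6 + 239737571 / 56000 * h ^ 7 - 10970841 / 12800 * h ^ 8)) + t * ((2461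
        / 134400 + 396 / 25 * h - 21054 / 125 * h ^ 2 + 3705467 / 6000 * h ^ 3 - 6726369 /
        8000 * h ^ 4 - 1983 / 400 * h ^ 5 + 25527569 / 24000 * h ^ 6 - 26214911 / 28000 * h
        ^ 7 + 1621527 / 6400 * h ^ 8)) + t ^ 2 * ((1243 / 420000 + 729 / 500 * h - 7649 /
        1000 * h ^ 2 + 1529 / 300 * h ^ 3 + 100377 / 2000 * h ^ 4 - 394391 / 2500 * h ^ 5 +
        15554 / 75 * h ^ 6 - 923791 / 7000 * h ^ 7 + 5319 / 160 * h ^ 8))) := by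
    linear_combination -(X * (1243 / 420000 + 729 / 500 * h - 7649 / 1000 * h ^ 2 + 1529 /
        300 * h ^ 3 + 100377 / 2000 * h ^ 4 - 394391 / 2500 * h ^ 5 + 15554 / 75 * h ^ 6 -
        923791 / 7000 * h ^ 7 + 5319 / 160 * h ^ 8) * (1 + X * (17 / 2 + t)) + X ^ 2 *
        (-35841 / 1120000 - 4473 / 500 * h - 38399 / 1000 * h ^ 2 + 1061869 / 2000 * h ^ 3 -
        2710401 / 1600 * h ^ 4 + 26769013 / 10000 * h ^ 5 - 19695397 / 8000 * h ^ 6 +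
        36602877 / 28000 * h ^ 7 - 1995393 / 6400 * h ^ 8) * (1)) * hX
  rw [e]
  have e2 : 0 ≤ ((589117 / 6720000 + 82719 / 2000 * h - 2002567 / 4000 * h ^ 2 + 29827679 /
        12000 * h ^ 3 - 105233079 / 16000 * h ^ 4 + 201185023 / 20000 * h ^ 5 - 428759827 /
        48000 * h ^ 6 + 239737571 / 56000 * h ^ 7 - 10970841 / 12800 * h ^ 8)) + t * ((2461
        / 134400 + 396 / 25 * h - 21054 / 125 * h ^ 2 + 3705467 / 6000 * h ^ 3 - 6726369 /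
        8000 * h ^ 4 - 1983 / 400 * h ^ 5 + 25527569 / 24000 * h ^ 6 - 26214911 / 28000 * h
        ^ 7 + 1621527 / 6400 * h ^ 8)) + t ^ 2 * ((1243 / 420000 + 729 / 500 * h - 7649 /
        1000 * h ^ 2 + 1529 / 300 * h ^ 3 + 100377 / 2000 * h ^ 4 - 394391 / 2500 * h ^ 5 +
        15554 / 75 * h ^ 6 - 923791 / 7000 * h ^ 7 + 5319 / 160 * h ^ 8)) := by
    exact add_nonneg (add_nonneg (q0) (mul_nonneg t0 q1)) (mul_nonneg (pow_nonneg t0 2) q2)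
  exact mul_nonneg (pow_nonneg X0 _) e2

lemma kp_0 {h : ℝ} (h0 : 0 ≤ h) (h1 : h ≤ 1) :
    0 ≤ 4629 / 250 - 25683 / 125 * h + 1479809 / 1000 * h ^ 2 - 6992921 / 2000 * h ^ 3 +
      3869123 / 1000 * h ^ 4 - 4085693 / 2000 * h ^ 5 + 17679 / 40 * h ^ 6 := by
  rcases le_total h (1 / 2) with g0 | g0
  · obtain ⟨u, hu⟩ : ∃ u, u = h := ⟨_, rfl⟩
    obtain ⟨v, hv⟩ : ∃ v, v = 1 / 2 - h := ⟨_, rfl⟩
    have hu0 : 0 ≤ u := by linarith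
    have hv0 : 0 ≤ v := by linarith
    have e : 4629 / 250 - 25683 / 125 * h + 1479809 / 1000 * h ^ 2 - 6992921 / 2000 * h ^ 3
        + 3869123 / 1000 * h ^ 4 - 4085693 / 2000 * h ^ 5 + 17679 / 40 * h ^ 6
        = 148128 / 125 * v ^ 6 + 66912 / 125 * u * v ^ 5 + 1072258 / 125 * u ^ 2 * v ^ 4 +
          6172023 / 250 * u ^ 3 * v ^ 3 + 3206248 / 125 * u ^ 4 * v ^ 2 + 11895919 / 1000 *
          u ^ 5 * v + 214821 / 100 * u ^ 6 := by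
      rw [hu, hv]
      ring
    rw [e]
    positivity
  obtain ⟨u, hu⟩ : ∃ u, u = h - 1 / 2 := ⟨_, rfl⟩
  obtain ⟨v, hv⟩ : ∃ v, v = 1 - h := ⟨_, rfl⟩
  have hu0 : 0 ≤ u := by linarith
  have hv0 : 0 ≤ v := by linarith
  have e : 4629 / 250 - 25683 / 125 * h + 1479809 / 1000 * h ^ 2 - 6992921 / 2000 * h ^ 3 +
      3869123 / 1000 * h ^ 4 - 4085693 / 2000 * h ^ 5 + 17679 / 40 * h ^ 6
      = 214821 / 100 * v ^ 6 + 13882601 / 1000 * u * v ^ 5 + 17791697 / 500 * u ^ 2 * v ^ 4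
        + 2419431 / 50 * u ^ 3 * v ^ 3 + 4993251 / 125 * u ^ 4 * v ^ 2 + 2387768 / 125 * u ^
        5 * v + 517216 / 125 * u ^ 6 := by
    rw [hu, hv]
    ring
  rw [e]
  positivity

lemma kp_1 {h : ℝ} (h0 : 0 ≤ h) (h1 : h ≤ 1) :
    0 ≤ 3872 / 125 - 8218 / 125 * h - 66993 / 500 * h ^ 2 + 745607 / 1000 * h ^ 3 - 609341 /
      500 * h ^ 4 + 923791 / 1000 * h ^ 5 - 5319 / 20 * h ^ 6 := by
  obtain ⟨u, hu⟩ : ∃ u, u = h := ⟨_, rfl⟩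
  obtain ⟨v, hv⟩ : ∃ v, v = 1 - h := ⟨_, rfl⟩
  have hu0 : 0 ≤ u := by linarith
  have hv0 : 0 ≤ v := by linarith
  have e : 3872 / 125 - 8218 / 125 * h - 66993 / 500 * h ^ 2 + 745607 / 1000 * h ^ 3 -
      609341 / 500 * h ^ 4 + 923791 / 1000 * h ^ 5 - 5319 / 20 * h ^ 6
      = 3872 / 125 * v ^ 6 + 15014 / 125 * u * v ^ 5 + 967 / 500 * u ^ 2 * v ^ 4 + 171743 /
        1000 * u ^ 3 * v ^ 3 + 21423 / 1000 * u ^ 4 * v ^ 2 + 1111 / 25 * u ^ 5 * v + 4003 /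
        250 * u ^ 6 := by
    rw [hu, hv]
    ring
  rw [e]
  positivity

lemma kp_2 {h : ℝ} (h0 : 0 ≤ h) (h1 : h ≤ 1) :
    0 ≤ 14 / 5 - 164 / 25 * h + 68 / 25 * h ^ 2 + 51 / 25 * h ^ 3 := by
  rcases le_total h (1 / 2) with g0 | g0
  · obtain ⟨u, hu⟩ : ∃ u, u = h := ⟨_, rfl⟩
    obtain ⟨v, hv⟩ : ∃ v, v = 1 / 2 - h := ⟨_, rfl⟩
    have hu0 : 0 ≤ u := by linarith
    have hv0 : 0 ≤ v := by linarith
    have e : 14 / 5 - 164 / 25 * h + 68 / 25 * h ^ 2 + 51 / 25 * h ^ 3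
        = 112 / 5 * v ^ 3 + 1024 / 25 * u * v ^ 2 + 504 / 25 * u ^ 2 * v + 91 / 25 * u ^ 3
          := by
      rw [hu, hv]
      ring
    rw [e]
    positivity
  obtain ⟨u, hu⟩ : ∃ u, u = h - 1 / 2 := ⟨_, rfl⟩
  obtain ⟨v, hv⟩ : ∃ v, v = 1 - h := ⟨_, rfl⟩
  have hu0 : 0 ≤ u := by linarith
  have hv0 : 0 ≤ v := by linarith
  have e : 14 / 5 - 164 / 25 * h + 68 / 25 * h ^ 2 + 51 / 25 * h ^ 3
      = 91 / 25 * v ^ 3 + 42 / 25 * u * v ^ 2 + 4 * u ^ 2 * v + 8 * u ^ 3 := by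
    rw [hu, hv]
    ring
  rw [e]
  positivity

lemma kp {h X t : ℝ} (h0 : 0 ≤ h) (h1 : h ≤ 1) (X0 : 0 ≤ X) (t0 : 0 ≤ t)
    (hX : X * (17 / 2 + t) = 1) :
    0 ≤ 14 / 5 - 164 / 25 * h + 68 / 25 * h ^ 2 + 51 / 25 * h ^ 3 - 2078 / 125 * X + 5722 /
      125 * X * h - 90113 / 500 * X * h ^ 2 + 710927 / 1000 * X * h ^ 3 - 609341 / 500 * X *
      h ^ 4 + 923791 / 1000 * X * h ^ 5 - 5319 / 20 * X * h ^ 6 - 1062 / 25 * X ^ 2 - 603 /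
      5 * X ^ 2 * h + 281521 / 100 * X ^ 2 * h ^ 2 - 968673 / 100 * X ^ 2 * h ^ 3 + 355698 /
      25 * X ^ 2 * h ^ 4 - 989507 / 100 * X ^ 2 * h ^ 5 + 54051 / 20 * X ^ 2 * h ^ 6 := by
  have q0 := kp_0 h0 h1
  have q1 := kp_1 h0 h1
  have q2 := kp_2 h0 h1
  have e : 14 / 5 - 164 / 25 * h + 68 / 25 * h ^ 2 + 51 / 25 * h ^ 3 - 2078 / 125 * X + 5722
      / 125 * X * h - 90113 / 500 * X * h ^ 2 + 710927 / 1000 * X * h ^ 3 - 609341 / 500 * X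
      * h ^ 4 + 923791 / 1000 * X * h ^ 5 - 5319 / 20 * X * h ^ 6 - 1062 / 25 * X ^ 2 - 603
      / 5 * X ^ 2 * h + 281521 / 100 * X ^ 2 * h ^ 2 - 968673 / 100 * X ^ 2 * h ^ 3 + 355698
      / 25 * X ^ 2 * h ^ 4 - 989507 / 100 * X ^ 2 * h ^ 5 + 54051 / 20 * X ^ 2 * h ^ 6
      = X ^ 2 * (((4629 / 250 - 25683 / 125 * h + 1479809 / 1000 * h ^ 2 - 6992921 / 2000 *
        h ^ 3 + 3869123 / 1000 * h ^ 4 - 4085693 / 2000 * h ^ 5 + 17679 / 40 * h ^ 6)) + t *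
        ((3872 / 125 - 8218 / 125 * h - 66993 / 500 * h ^ 2 + 745607 / 1000 * h ^ 3 - 609341
        / 500 * h ^ 4 + 923791 / 1000 * h ^ 5 - 5319 / 20 * h ^ 6)) + t ^ 2 * ((14 / 5 - 164
        / 25 * h + 68 / 25 * h ^ 2 + 51 / 25 * h ^ 3))) := by
    linear_combination -((14 / 5 - 164 / 25 * h + 68 / 25 * h ^ 2 + 51 / 25 * h ^ 3) * (1 +
        X * (17 / 2 + t)) + X * (-2078 / 125 + 5722 / 125 * h - 90113 / 500 * h ^ 2 + 710927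
        / 1000 * h ^ 3 - 609341 / 500 * h ^ 4 + 923791 / 1000 * h ^ 5 - 5319 / 20 * h ^ 6) *
        (1)) * hX
  rw [e]
  have e2 : 0 ≤ ((4629 / 250 - 25683 / 125 * h + 1479809 / 1000 * h ^ 2 - 6992921 / 2000 * h
        ^ 3 + 3869123 / 1000 * h ^ 4 - 4085693 / 2000 * h ^ 5 + 17679 / 40 * h ^ 6)) + t *
        ((3872 / 125 - 8218 / 125 * h - 66993 / 500 * h ^ 2 + 745607 / 1000 * h ^ 3 - 609341
        / 500 * h ^ 4 + 923791 / 1000 * h ^ 5 - 5319 / 20 * h ^ 6)) + t ^ 2 * ((14 / 5 - 164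
        / 25 * h + 68 / 25 * h ^ 2 + 51 / 25 * h ^ 3)) := by
    exact add_nonneg (add_nonneg (q0) (mul_nonneg t0 q1)) (mul_nonneg (pow_nonneg t0 2) q2)
  exact mul_nonneg (pow_nonneg X0 _) e2

lemma tp_0 {h : ℝ} (h0 : 0 ≤ h) (h1 : h ≤ 1) :
    0 ≤ 54221 / 12000 - 37139 / 500 * h + 984657 / 2000 * h ^ 2 - 2841311 / 3000 * h ^ 3 +
      1627081 / 2000 * h ^ 4 - 705063 / 2000 * h ^ 5 + 127179 / 2000 * h ^ 6 := by
  rcases le_total h (1 / 4) with g0 | g0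
  · obtain ⟨u, hu⟩ : ∃ u, u = h := ⟨_, rfl⟩
    obtain ⟨v, hv⟩ : ∃ v, v = 1 / 4 - h := ⟨_, rfl⟩
    have hu0 : 0 ≤ u := by linarith
    have hv0 : 0 ≤ v := by linarith
    have e : 54221 / 12000 - 37139 / 500 * h + 984657 / 2000 * h ^ 2 - 2841311 / 3000 * h ^
        3 + 1627081 / 2000 * h ^ 4 - 705063 / 2000 * h ^ 5 + 127179 / 2000 * h ^ 6
        = 6940288 / 375 * v ^ 6 + 4372992 / 125 * u * v ^ 5 + 2918032 / 125 * u ^ 2 * v ^ 4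
          + 19901896 / 375 * u ^ 3 * v ^ 3 + 2609853 / 25 * u ^ 4 * v ^ 2 + 38832449 / 500 *
          u ^ 5 * v + 39076671 / 2000 * u ^ 6 := by
      rw [hu, hv]
      ring
    rw [e]
    positivity
  obtain ⟨u, hu⟩ : ∃ u, u = h - 1 / 4 := ⟨_, rfl⟩
  obtain ⟨v, hv⟩ : ∃ v, v = 1 - h := ⟨_, rfl⟩
  have hu0 : 0 ≤ u := by linarith
  have hv0 : 0 ≤ v := by linarith
  have e : 54221 / 12000 - 37139 / 500 * h + 984657 / 2000 * h ^ 2 - 2841311 / 3000 * h ^ 3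
      + 1627081 / 2000 * h ^ 4 - 705063 / 2000 * h ^ 5 + 127179 / 2000 * h ^ 6
      = 13025557 / 486000 * v ^ 6 + 39320893 / 121500 * u * v ^ 5 + 8073781 / 6075 * u ^ 2 *
        v ^ 4 + 18468544 / 10125 * u ^ 3 * v ^ 3 + 33448768 / 30375 * u ^ 4 * v ^ 2 +
        7475264 / 30375 * u ^ 5 * v + 2176 / 6075 * u ^ 6 := by
    rw [hu, hv]
    ring
  rw [e]
  positivity

lemma tp_1 {h : ℝ} (h0 : 0 ≤ h) (h1 : h ≤ 1) :
    0 ≤ 5077 / 3000 - 8719 / 500 * h + 16019 / 250 * h ^ 2 - 83033 / 1500 * h ^ 3 - 9507 /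
      1000 * h ^ 4 + 20821 / 1000 * h ^ 5 - 4273 / 1000 * h ^ 6 := by
  rcases le_total h (1 / 4) with g0 | g0
  · obtain ⟨u, hu⟩ : ∃ u, u = h := ⟨_, rfl⟩
    obtain ⟨v, hv⟩ : ∃ v, v = 1 / 4 - h := ⟨_, rfl⟩
    have hu0 : 0 ≤ u := by linarith
    have hv0 : 0 ≤ v := by linarith
    have e : 5077 / 3000 - 8719 / 500 * h + 16019 / 250 * h ^ 2 - 83033 / 1500 * h ^ 3 -
        9507 / 1000 * h ^ 4 + 20821 / 1000 * h ^ 5 - 4273 / 1000 * h ^ 6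
        = 2599424 / 375 * v ^ 6 + 2966784 / 125 * u * v ^ 5 + 3887232 / 125 * u ^ 2 * v ^ 4
          + 8303216 / 375 * u ^ 3 * v ^ 3 + 326306 / 25 * u ^ 4 * v ^ 2 + 1768221 / 250 * u
          ^ 5 * v + 1862899 / 1000 * u ^ 6 := by
      rw [hu, hv]
      ring
    rw [e]
    positivity
  obtain ⟨u, hu⟩ : ∃ u, u = h - 1 / 4 := ⟨_, rfl⟩
  obtain ⟨v, hv⟩ : ∃ v, v = 1 - h := ⟨_, rfl⟩
  have hu0 : 0 ≤ u := by linarith
  have hv0 : 0 ≤ v := by linarith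
  have e : 5077 / 3000 - 8719 / 500 * h + 16019 / 250 * h ^ 2 - 83033 / 1500 * h ^ 3 - 9507
      / 1000 * h ^ 4 + 20821 / 1000 * h ^ 5 - 4273 / 1000 * h ^ 6
      = 1862899 / 729000 * v ^ 6 + 1957577 / 60750 * u * v ^ 5 + 1168274 / 6075 * u ^ 2 * v
        ^ 4 + 33902176 / 91125 * u ^ 3 * v ^ 3 + 8153248 / 30375 * u ^ 4 * v ^ 2 + 1925248 /
        30375 * u ^ 5 * v + 8192 / 91125 * u ^ 6 := by
    rw [hu, hv]
    ring
  rw [e]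
  positivity

lemma tp_2 {h : ℝ} (h0 : 0 ≤ h) (h1 : h ≤ 1) :
    0 ≤ 413 / 3000 - 47 / 50 * h + 247 / 100 * h ^ 2 - 5 / 3 * h ^ 3 := by
  rcases le_total h (1 / 4) with g0 | g0
  · obtain ⟨u, hu⟩ : ∃ u, u = h := ⟨_, rfl⟩
    obtain ⟨v, hv⟩ : ∃ v, v = 1 / 4 - h := ⟨_, rfl⟩
    have hu0 : 0 ≤ u := by linarith
    have hv0 : 0 ≤ v := by linarith
    have e : 413 / 3000 - 47 / 50 * h + 247 / 100 * h ^ 2 - 5 / 3 * h ^ 3
        = 3304 / 375 * v ^ 3 + 1424 / 125 * u * v ^ 2 + 779 / 125 * u ^ 2 * v + 248 / 125 *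
          u ^ 3 := by
      rw [hu, hv]
      ring
    rw [e]
    positivity
  obtain ⟨u, hu⟩ : ∃ u, u = h - 1 / 4 := ⟨_, rfl⟩
  obtain ⟨v, hv⟩ : ∃ v, v = 1 - h := ⟨_, rfl⟩
  have hu0 : 0 ≤ u := by linarith
  have hv0 : 0 ≤ v := by linarith
  have e : 413 / 3000 - 47 / 50 * h + 247 / 100 * h ^ 2 - 5 / 3 * h ^ 3
      = 248 / 3375 * v ^ 3 + 71 / 375 * u * v ^ 2 + 2008 / 1125 * u ^ 2 * v + 8 / 3375 * u ^
        3 := by
    rw [hu, hv]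
    ring
  rw [e]
  positivity

lemma tp {h X t : ℝ} (h0 : 0 ≤ h) (h1 : h ≤ 1) (X0 : 0 ≤ X) (t0 : 0 ≤ t)
    (hX : X * (17 / 2 + t) = 1) :
    0 ≤ 413 / 3000 - 47 / 50 * h + 247 / 100 * h ^ 2 - 5 / 3 * h ^ 3 - 81 / 125 * X - 729 /
      500 * X * h + 11043 / 500 * X * h ^ 2 - 13511 / 500 * X * h ^ 3 - 9507 / 1000 * X * h
      ^ 4 + 20821 / 1000 * X * h ^ 5 - 4273 / 1000 * X * h ^ 6 + 2 / 25 * X ^ 2 + 603 / 100
      * X ^ 2 * h + 6307 / 50 * X ^ 2 * h ^ 2 - 597 * X ^ 2 * h ^ 3 + 17887 / 20 * X ^ 2 * h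
      ^ 4 - 52951 / 100 * X ^ 2 * h ^ 5 + 9991 / 100 * X ^ 2 * h ^ 6 := by
  have q0 := tp_0 h0 h1
  have q1 := tp_1 h0 h1
  have q2 := tp_2 h0 h1
  have e : 413 / 3000 - 47 / 50 * h + 247 / 100 * h ^ 2 - 5 / 3 * h ^ 3 - 81 / 125 * X - 729
      / 500 * X * h + 11043 / 500 * X * h ^ 2 - 13511 / 500 * X * h ^ 3 - 9507 / 1000 * X *
      h ^ 4 + 20821 / 1000 * X * h ^ 5 - 4273 / 1000 * X * h ^ 6 + 2 / 25 * X ^ 2 + 603 /
      100 * X ^ 2 * h + 6307 / 50 * X ^ 2 * h ^ 2 - 597 * X ^ 2 * h ^ 3 + 17887 / 20 * X ^ 2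
      * h ^ 4 - 52951 / 100 * X ^ 2 * h ^ 5 + 9991 / 100 * X ^ 2 * h ^ 6
      = X ^ 2 * (((54221 / 12000 - 37139 / 500 * h + 984657 / 2000 * h ^ 2 - 2841311 / 3000
        * h ^ 3 + 1627081 / 2000 * h ^ 4 - 705063 / 2000 * h ^ 5 + 127179 / 2000 * h ^ 6)) +
        t * ((5077 / 3000 - 8719 / 500 * h + 16019 / 250 * h ^ 2 - 83033 / 1500 * h ^ 3 -
        9507 / 1000 * h ^ 4 + 20821 / 1000 * h ^ 5 - 4273 / 1000 * h ^ 6)) + t ^ 2 * ((413 /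
        3000 - 47 / 50 * h + 247 / 100 * h ^ 2 - 5 / 3 * h ^ 3))) := by
    linear_combination -((413 / 3000 - 47 / 50 * h + 247 / 100 * h ^ 2 - 5 / 3 * h ^ 3) * (1
        + X * (17 / 2 + t)) + X * (-81 / 125 - 729 / 500 * h + 11043 / 500 * h ^ 2 - 13511 /
        500 * h ^ 3 - 9507 / 1000 * h ^ 4 + 20821 / 1000 * h ^ 5 - 4273 / 1000 * h ^ 6) *
        (1)) * hX
  rw [e]
  have e2 : 0 ≤ ((54221 / 12000 - 37139 / 500 * h + 984657 / 2000 * h ^ 2 - 2841311 / 3000 *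
        h ^ 3 + 1627081 / 2000 * h ^ 4 - 705063 / 2000 * h ^ 5 + 127179 / 2000 * h ^ 6)) + t
        * ((5077 / 3000 - 8719 / 500 * h + 16019 / 250 * h ^ 2 - 83033 / 1500 * h ^ 3 - 9507
        / 1000 * h ^ 4 + 20821 / 1000 * h ^ 5 - 4273 / 1000 * h ^ 6)) + t ^ 2 * ((413 / 3000
        - 47 / 50 * h + 247 / 100 * h ^ 2 - 5 / 3 * h ^ 3)) := by
    exact add_nonneg (add_nonneg (q0) (mul_nonneg t0 q1)) (mul_nonneg (pow_nonneg t0 2) q2)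
  exact mul_nonneg (pow_nonneg X0 _) e2


end Vale.Agent.P224.R2.H355.DC
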