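import Mathlib.Tactic.Positivity
import Mathlib.Tactic.LinearCombination
import Mathlib.Tactic.Linarith
import Mathlib.Tactic.Ring
import Mathlib.Data.Real.Basic

/-!
Polynomial certificates for the duality bound of the odd flow (qh, gu, gl).
-/

namespace Vale.Agent.P224.R2.H355.DC

lemma qh_0 {h : ℝ} (h0 : 0 ≤ h) (h1 : h ≤ 1) :
    0 ≤ 1177 / 2000 + 4660901 / 8000 * h ^ 2 - 1443531 / 1000 * h ^ 4 + 15041991 / 8000 * h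
      ^ 6 - 11671677 / 8000 * h ^ 8 + 3681909 / 8000 * h ^ 10 := by
  obtain ⟨u, hu⟩ : ∃ u, u = h := ⟨_, rfl⟩
  obtain ⟨v, hv⟩ : ∃ v, v = 1 - h := ⟨_, rfl⟩
  have hu0 : 0 ≤ u := by linarith
  have hv0 : 0 ≤ v := by linarith
  have e : 1177 / 2000 + 4660901 / 8000 * h ^ 2 - 1443531 / 1000 * h ^ 4 + 15041991 / 8000 *
      h ^ 6 - 11671677 / 8000 * h ^ 8 + 3681909 / 8000 * h ^ 10
      = 1177 / 2000 * v ^ 10 + 1177 / 200 * u * v ^ 9 + 4872761 / 8000 * u ^ 2 * v ^ 8 +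
        4731521 / 1000 * u ^ 3 * v ^ 7 + 5997283 / 400 * u ^ 4 * v ^ 6 + 24113423 / 1000 * u
        ^ 5 * v ^ 5 + 169070021 / 8000 * u ^ 6 * v ^ 4 + 4538921 / 400 * u ^ 7 * v ^ 3 +
        36073637 / 8000 * u ^ 8 * v ^ 2 + 486941 / 800 * u ^ 9 * v + 10599 / 500 * u ^ 10 :=
        by
    rw [hu, hv]
    ring
  rw [e]
  positivity

lemma qh_1 {h : ℝ} (h0 : 0 ≤ h) (h1 : h ≤ 1) :
    0 ≤ 592 / 125 + 209893 / 4000 * h ^ 2 - 27141 / 1000 * h ^ 4 - 334377 / 4000 * h ^ 6 +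
      438519 / 4000 * h ^ 8 - 184023 / 4000 * h ^ 10 := by
  obtain ⟨u, hu⟩ : ∃ u, u = h := ⟨_, rfl⟩
  obtain ⟨v, hv⟩ : ∃ v, v = 1 - h := ⟨_, rfl⟩
  have hu0 : 0 ≤ u := by linarith
  have hv0 : 0 ≤ v := by linarith
  have e : 592 / 125 + 209893 / 4000 * h ^ 2 - 27141 / 1000 * h ^ 4 - 334377 / 4000 * h ^ 6
      + 438519 / 4000 * h ^ 8 - 184023 / 4000 * h ^ 10
      = 592 / 125 * v ^ 10 + 1184 / 25 * u * v ^ 9 + 1062373 / 4000 * u ^ 2 * v ^ 8 + 494053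
        / 500 * u ^ 3 * v ^ 7 + 243667 / 100 * u ^ 4 * v ^ 6 + 496141 / 125 * u ^ 5 * v ^ 5
        + 16707913 / 4000 * u ^ 6 * v ^ 4 + 21037 / 8 * u ^ 7 * v ^ 3 + 3533281 / 4000 * u ^
        8 * v ^ 2 + 75673 / 400 * u ^ 9 * v + 5049 / 500 * u ^ 10 := by
    rw [hu, hv]
    ring
  rw [e]
  positivity

lemma qh_2 {h : ℝ} (h0 : 0 ≤ h) (h1 : h ≤ 1) :
    0 ≤ 51 / 100 + 3 / 4 * h ^ 2 := by
  obtain ⟨u, hu⟩ : ∃ u, u = h := ⟨_, rfl⟩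
  obtain ⟨v, hv⟩ : ∃ v, v = 1 - h := ⟨_, rfl⟩
  have hu0 : 0 ≤ u := by linarith
  have hv0 : 0 ≤ v := by linarith
  have e : 51 / 100 + 3 / 4 * h ^ 2
      = 51 / 100 * v ^ 2 + 51 / 50 * u * v + 63 / 50 * u ^ 2 := by
    rw [hu, hv]
    ring
  rw [e]
  positivity

lemma qh {h X t : ℝ} (h0 : 0 ≤ h) (h1 : h ≤ 1) (X0 : 0 ≤ X) (t0 : 0 ≤ t)
    (hX : X * (17 / 2 + t) = 1) :
    0 ≤ 51 / 100 + 3 / 4 * h ^ 2 - 1967 / 500 * X + 158893 / 4000 * X * h ^ 2 - 27141 / 1000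
      * X * h ^ 4 - 334377 / 4000 * X * h ^ 6 + 438519 / 4000 * X * h ^ 8 - 184023 / 4000 *
      X * h ^ 10 - 141 / 50 * X ^ 2 + 76311 / 400 * X ^ 2 * h ^ 2 - 485133 / 400 * X ^ 2 * h
      ^ 4 + 12954 / 5 * X ^ 2 * h ^ 6 - 38253 / 16 * X ^ 2 * h ^ 8 + 68103 / 80 * X ^ 2 * h
      ^ 10 := by
  have q0 := qh_0 h0 h1
  have q1 := qh_1 h0 h1
  have q2 := qh_2 h0 h1
  have e : 51 / 100 + 3 / 4 * h ^ 2 - 1967 / 500 * X + 158893 / 4000 * X * h ^ 2 - 27141 /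
      1000 * X * h ^ 4 - 334377 / 4000 * X * h ^ 6 + 438519 / 4000 * X * h ^ 8 - 184023 /
      4000 * X * h ^ 10 - 141 / 50 * X ^ 2 + 76311 / 400 * X ^ 2 * h ^ 2 - 485133 / 400 * X
      ^ 2 * h ^ 4 + 12954 / 5 * X ^ 2 * h ^ 6 - 38253 / 16 * X ^ 2 * h ^ 8 + 68103 / 80 * X
      ^ 2 * h ^ 10
      = X ^ 2 * (((1177 / 2000 + 4660901 / 8000 * h ^ 2 - 1443531 / 1000 * h ^ 4 + 15041991
        / 8000 * h ^ 6 - 11671677 / 8000 * h ^ 8 + 3681909 / 8000 * h ^ 10)) + t * ((592 /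
        125 + 209893 / 4000 * h ^ 2 - 27141 / 1000 * h ^ 4 - 334377 / 4000 * h ^ 6 + 438519
        / 4000 * h ^ 8 - 184023 / 4000 * h ^ 10)) + t ^ 2 * ((51 / 100 + 3 / 4 * h ^ 2))) :=
        by
    linear_combination -((51 / 100 + 3 / 4 * h ^ 2) * (1 + X * (17 / 2 + t)) + X * (-1967 /
        500 + 158893 / 4000 * h ^ 2 - 27141 / 1000 * h ^ 4 - 334377 / 4000 * h ^ 6 + 438519
        / 4000 * h ^ 8 - 184023 / 4000 * h ^ 10) * (1)) * hX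
  rw [e]
  have e2 : 0 ≤ ((1177 / 2000 + 4660901 / 8000 * h ^ 2 - 1443531 / 1000 * h ^ 4 + 15041991 /
        8000 * h ^ 6 - 11671677 / 8000 * h ^ 8 + 3681909 / 8000 * h ^ 10)) + t * ((592 / 125
        + 209893 / 4000 * h ^ 2 - 27141 / 1000 * h ^ 4 - 334377 / 4000 * h ^ 6 + 438519 /
        4000 * h ^ 8 - 184023 / 4000 * h ^ 10)) + t ^ 2 * ((51 / 100 + 3 / 4 * h ^ 2)) := by
    exact add_nonneg (add_nonneg (q0) (mul_nonneg t0 q1)) (mul_nonneg (pow_nonneg t0 2) q2)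
  exact mul_nonneg (pow_nonneg X0 _) e2

lemma gu_0 {h : ℝ} (h0 : 0 ≤ h) (h1 : h ≤ 1) :
    0 ≤ 729993 / 1000 - 614259 / 2000 * h - 1396851 / 2000 * h ^ 2 + 3852 / 125 * h ^ 3 +
      274839 / 500 * h ^ 4 - 45389 / 2000 * h ^ 5 - 1032281 / 2000 * h ^ 6 + 27639 / 2000 *
      h ^ 7 + 622323 / 2000 * h ^ 8 - 7623 / 2000 * h ^ 9 - 160083 / 2000 * h ^ 10 := by
  obtain ⟨u, hu⟩ : ∃ u, u = h := ⟨_, rfl⟩
  obtain ⟨v, hv⟩ : ∃ v, v = 1 - h := ⟨_, rfl⟩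
  have hu0 : 0 ≤ u := by linarith
  have hv0 : 0 ≤ v := by linarith
  have e : 729993 / 1000 - 614259 / 2000 * h - 1396851 / 2000 * h ^ 2 + 3852 / 125 * h ^ 3 +
      274839 / 500 * h ^ 4 - 45389 / 2000 * h ^ 5 - 1032281 / 2000 * h ^ 6 + 27639 / 2000 *
      h ^ 7 + 622323 / 2000 * h ^ 8 - 7623 / 2000 * h ^ 9 - 160083 / 2000 * h ^ 10
      = 729993 / 1000 * v ^ 10 + 13985601 / 2000 * u * v ^ 9 + 14693547 / 500 * u ^ 2 * v ^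
        8 + 7098591 / 100 * u ^ 3 * v ^ 7 + 13588641 / 125 * u ^ 4 * v ^ 6 + 220141201 /
        2000 * u ^ 5 * v ^ 5 + 14880909 / 200 * u ^ 6 * v ^ 4 + 64965773 / 2000 * u ^ 7 * v
        ^ 3 + 8158247 / 1000 * u ^ 8 * v ^ 2 + 236019 / 250 * u ^ 9 * v + 289 / 40 * u ^ 10
        := by
    rw [hu, hv]
    ring
  rw [e]
  positivity

lemma gu_1 {h : ℝ} (h0 : 0 ≤ h) (h1 : h ≤ 1) :
    0 ≤ 20321 / 125 - 69967 / 1000 * h - 109843 / 1000 * h ^ 2 + 469 / 250 * h ^ 3 + 1146 /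
      125 * h ^ 4 + 643 / 1000 * h ^ 5 + 23287 / 1000 * h ^ 6 - 933 / 1000 * h ^ 7 - 23481 /
      1000 * h ^ 8 + 381 / 1000 * h ^ 9 + 8001 / 1000 * h ^ 10 := by
  obtain ⟨u, hu⟩ : ∃ u, u = h := ⟨_, rfl⟩
  obtain ⟨v, hv⟩ : ∃ v, v = 1 - h := ⟨_, rfl⟩
  have hu0 : 0 ≤ u := by linarith
  have hv0 : 0 ≤ v := by linarith
  have e : 20321 / 125 - 69967 / 1000 * h - 109843 / 1000 * h ^ 2 + 469 / 250 * h ^ 3 + 1146
      / 125 * h ^ 4 + 643 / 1000 * h ^ 5 + 23287 / 1000 * h ^ 6 - 933 / 1000 * h ^ 7 - 23481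
      / 1000 * h ^ 8 + 381 / 1000 * h ^ 9 + 8001 / 1000 * h ^ 10
      = 20321 / 125 * v ^ 10 + 1555713 / 1000 * u * v ^ 9 + 3288007 / 500 * u ^ 2 * v ^ 8 +
        402812 / 25 * u ^ 3 * v ^ 7 + 6302187 / 250 * u ^ 4 * v ^ 6 + 26095133 / 1000 * u ^
        5 * v ^ 5 + 1786411 / 100 * u ^ 6 * v ^ 4 + 7827389 / 1000 * u ^ 7 * v ^ 3 + 504483
        / 250 * u ^ 8 * v ^ 2 + 58089 / 250 * u ^ 9 * v + 17 / 10 * u ^ 10 := by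
    rw [hu, hv]
    ring
  rw [e]
  positivity

lemma gu_2 {h : ℝ} (h0 : 0 ≤ h) (h1 : h ≤ 1) :
    0 ≤ 91 / 10 - 4 * h - 5 * h ^ 2 := by
  obtain ⟨u, hu⟩ : ∃ u, u = h := ⟨_, rfl⟩
  obtain ⟨v, hv⟩ : ∃ v, v = 1 - h := ⟨_, rfl⟩
  have hu0 : 0 ≤ u := by linarith
  have hv0 : 0 ≤ v := by linarith
  have e : 91 / 10 - 4 * h - 5 * h ^ 2
      = 91 / 10 * v ^ 2 + 71 / 5 * u * v + 1 / 10 * u ^ 2 := by
    rw [hu, hv]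
    ring
  rw [e]
  positivity

lemma gu {h X t : ℝ} (h0 : 0 ≤ h) (h1 : h ≤ 1) (X0 : 0 ≤ X) (t0 : 0 ≤ t)
    (hX : X * (17 / 2 + t) = 1) :
    0 ≤ 91 / 10 * h - 4 * h ^ 2 - 5 * h ^ 3 + 1967 / 250 * X * h - 1967 / 1000 * X * h ^ 2 -
      24843 / 1000 * X * h ^ 3 + 469 / 250 * X * h ^ 4 + 1146 / 125 * X * h ^ 5 + 643 / 1000
      * X * h ^ 6 + 23287 / 1000 * X * h ^ 7 - 933 / 1000 * X * h ^ 8 - 23481 / 1000 * X * h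
      ^ 9 + 381 / 1000 * X * h ^ 10 + 8001 / 1000 * X * h ^ 11 + 141 / 25 * X ^ 2 * h - 141
      / 100 * X ^ 2 * h ^ 2 - 12601 / 100 * X ^ 2 * h ^ 3 + 1487 / 100 * X ^ 2 * h ^ 4 +
      1887 / 4 * X ^ 2 * h ^ 5 - 704 / 25 * X ^ 2 * h ^ 6 - 17852 / 25 * X ^ 2 * h ^ 7 + 87
      / 4 * X ^ 2 * h ^ 8 + 2043 / 4 * X ^ 2 * h ^ 9 - 141 / 20 * X ^ 2 * h ^ 10 - 2961 / 20
      * X ^ 2 * h ^ 11 := by
  have q0 := gu_0 h0 h1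
  have q1 := gu_1 h0 h1
  have q2 := gu_2 h0 h1
  have e : 91 / 10 * h - 4 * h ^ 2 - 5 * h ^ 3 + 1967 / 250 * X * h - 1967 / 1000 * X * h ^
      2 - 24843 / 1000 * X * h ^ 3 + 469 / 250 * X * h ^ 4 + 1146 / 125 * X * h ^ 5 + 643 /
      1000 * X * h ^ 6 + 23287 / 1000 * X * h ^ 7 - 933 / 1000 * X * h ^ 8 - 23481 / 1000 *
      X * h ^ 9 + 381 / 1000 * X * h ^ 10 + 8001 / 1000 * X * h ^ 11 + 141 / 25 * X ^ 2 * h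
      - 141 / 100 * X ^ 2 * h ^ 2 - 12601 / 100 * X ^ 2 * h ^ 3 + 1487 / 100 * X ^ 2 * h ^ 4
      + 1887 / 4 * X ^ 2 * h ^ 5 - 704 / 25 * X ^ 2 * h ^ 6 - 17852 / 25 * X ^ 2 * h ^ 7 +
      87 / 4 * X ^ 2 * h ^ 8 + 2043 / 4 * X ^ 2 * h ^ 9 - 141 / 20 * X ^ 2 * h ^ 10 - 2961 /
      20 * X ^ 2 * h ^ 11
      = X ^ 2 * ((h * (729993 / 1000 - 614259 / 2000 * h - 1396851 / 2000 * h ^ 2 + 3852 /
        125 * h ^ 3 + 274839 / 500 * h ^ 4 - 45389 / 2000 * h ^ 5 - 1032281 / 2000 * h ^ 6 +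
        27639 / 2000 * h ^ 7 + 622323 / 2000 * h ^ 8 - 7623 / 2000 * h ^ 9 - 160083 / 2000 *
        h ^ 10)) + t * (h * (20321 / 125 - 69967 / 1000 * h - 109843 / 1000 * h ^ 2 + 469 /
        250 * h ^ 3 + 1146 / 125 * h ^ 4 + 643 / 1000 * h ^ 5 + 23287 / 1000 * h ^ 6 - 933 /
        1000 * h ^ 7 - 23481 / 1000 * h ^ 8 + 381 / 1000 * h ^ 9 + 8001 / 1000 * h ^ 10)) +
        t ^ 2 * (h * (91 / 10 - 4 * h - 5 * h ^ 2))) := by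
    linear_combination -((91 / 10 * h - 4 * h ^ 2 - 5 * h ^ 3) * (1 + X * (17 / 2 + t)) + X
        * (1967 / 250 * h - 1967 / 1000 * h ^ 2 - 24843 / 1000 * h ^ 3 + 469 / 250 * h ^ 4 +
        1146 / 125 * h ^ 5 + 643 / 1000 * h ^ 6 + 23287 / 1000 * h ^ 7 - 933 / 1000 * h ^ 8
        - 23481 / 1000 * h ^ 9 + 381 / 1000 * h ^ 10 + 8001 / 1000 * h ^ 11) * (1)) * hX
  rw [e]
  have e2 : 0 ≤ (h * (729993 / 1000 - 614259 / 2000 * h - 1396851 / 2000 * h ^ 2 + 3852 /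
        125 * h ^ 3 + 274839 / 500 * h ^ 4 - 45389 / 2000 * h ^ 5 - 1032281 / 2000 * h ^ 6 +
        27639 / 2000 * h ^ 7 + 622323 / 2000 * h ^ 8 - 7623 / 2000 * h ^ 9 - 160083 / 2000 *
        h ^ 10)) + t * (h * (20321 / 125 - 69967 / 1000 * h - 109843 / 1000 * h ^ 2 + 469 /
        250 * h ^ 3 + 1146 / 125 * h ^ 4 + 643 / 1000 * h ^ 5 + 23287 / 1000 * h ^ 6 - 933 /
        1000 * h ^ 7 - 23481 / 1000 * h ^ 8 + 381 / 1000 * h ^ 9 + 8001 / 1000 * h ^ 10)) +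
        t ^ 2 * (h * (91 / 10 - 4 * h - 5 * h ^ 2)) := by
    exact add_nonneg (add_nonneg (mul_nonneg h0 q0) (mul_nonneg t0 (mul_nonneg h0 q1)))
      (mul_nonneg (pow_nonneg t0 2) (mul_nonneg h0 q2))
  exact mul_nonneg (pow_nonneg X0 _) e2

lemma gl_0 {h : ℝ} (h0 : 0 ≤ h) (h1 : h ≤ 1) :
    0 ≤ 6957 / 1000 - 252741 / 2000 * h + 1396851 / 2000 * h ^ 2 - 3852 / 125 * h ^ 3 -
      274839 / 500 * h ^ 4 + 45389 / 2000 * h ^ 5 + 1032281 / 2000 * h ^ 6 - 27639 / 2000 *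
      h ^ 7 - 622323 / 2000 * h ^ 8 + 7623 / 2000 * h ^ 9 + 160083 / 2000 * h ^ 10 := by
  rcases le_total h (1 / 4) with g0 | g0
  · obtain ⟨u, hu⟩ : ∃ u, u = h := ⟨_, rfl⟩
    obtain ⟨v, hv⟩ : ∃ v, v = 1 / 4 - h := ⟨_, rfl⟩
    have hu0 : 0 ≤ u := by linarith
    have hv0 : 0 ≤ v := by linarith
    have e : 6957 / 1000 - 252741 / 2000 * h + 1396851 / 2000 * h ^ 2 - 3852 / 125 * h ^ 3 -
        274839 / 500 * h ^ 4 + 45389 / 2000 * h ^ 5 + 1032281 / 2000 * h ^ 6 - 27639 / 2000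
        * h ^ 7 - 622323 / 2000 * h ^ 8 + 7623 / 2000 * h ^ 9 + 160083 / 2000 * h ^ 10
        = 911867904 / 125 * v ^ 10 + 4977770496 / 125 * u * v ^ 9 + 1897476096 / 25 * u ^ 2
          * v ^ 8 + 6060343296 / 125 * u ^ 3 * v ^ 7 + 626955264 / 25 * u ^ 4 * v ^ 6 +
          25429289792 / 125 * u ^ 5 * v ^ 5 + 63843525072 / 125 * u ^ 6 * v ^ 4 +
          74249336548 / 125 * u ^ 7 * v ^ 3 + 46743727961 / 125 * u ^ 8 * v ^ 2 +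
          62284571103 / 500 * u ^ 9 * v + 6933168563 / 400 * u ^ 10 := by
      rw [hu, hv]
      ring
    rw [e]
    positivity
  obtain ⟨u, hu⟩ : ∃ u, u = h - 1 / 4 := ⟨_, rfl⟩
  obtain ⟨v, hv⟩ : ∃ v, v = 1 - h := ⟨_, rfl⟩
  have hu0 : 0 ≤ u := by linarith
  have hv0 : 0 ≤ v := by linarith
  have e : 6957 / 1000 - 252741 / 2000 * h + 1396851 / 2000 * h ^ 2 - 3852 / 125 * h ^ 3 -
      274839 / 500 * h ^ 4 + 45389 / 2000 * h ^ 5 + 1032281 / 2000 * h ^ 6 - 27639 / 2000 *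
      h ^ 7 - 622323 / 2000 * h ^ 8 + 7623 / 2000 * h ^ 9 + 160083 / 2000 * h ^ 10
      = 6933168563 / 23619600 * v ^ 10 + 159804714841 / 29524500 * u * v ^ 9 + 33219228727 /
        820125 * u ^ 2 * v ^ 8 + 396710466892 / 2460375 * u ^ 3 * v ^ 7 + 38071725472 /
        98415 * u ^ 4 * v ^ 6 + 490063562624 / 820125 * u ^ 5 * v ^ 5 + 1509311771392 /
        2460375 * u ^ 6 * v ^ 4 + 206482783232 / 492075 * u ^ 7 * v ^ 3 + 6046154752 / 32805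
        * u ^ 8 * v ^ 2 + 345178832896 / 7381125 * u ^ 9 * v + 1553072128 / 295245 * u ^ 10
        := by
    rw [hu, hv]
    ring
  rw [e]
  positivity

lemma gl_1 {h : ℝ} (h0 : 0 ≤ h) (h1 : h ≤ 1) :
    0 ≤ 1354 / 125 - 32033 / 1000 * h + 109843 / 1000 * h ^ 2 - 469 / 250 * h ^ 3 - 1146 /
      125 * h ^ 4 - 643 / 1000 * h ^ 5 - 23287 / 1000 * h ^ 6 + 933 / 1000 * h ^ 7 + 23481 /
      1000 * h ^ 8 - 381 / 1000 * h ^ 9 - 8001 / 1000 * h ^ 10 := by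
  obtain ⟨u, hu⟩ : ∃ u, u = h := ⟨_, rfl⟩
  obtain ⟨v, hv⟩ : ∃ v, v = 1 - h := ⟨_, rfl⟩
  have hu0 : 0 ≤ u := by linarith
  have hv0 : 0 ≤ v := by linarith
  have e : 1354 / 125 - 32033 / 1000 * h + 109843 / 1000 * h ^ 2 - 469 / 250 * h ^ 3 - 1146
      / 125 * h ^ 4 - 643 / 1000 * h ^ 5 - 23287 / 1000 * h ^ 6 + 933 / 1000 * h ^ 7 + 23481
      / 1000 * h ^ 8 - 381 / 1000 * h ^ 9 - 8001 / 1000 * h ^ 10
      = 1354 / 125 * v ^ 10 + 76287 / 1000 * u * v ^ 9 + 154493 / 500 * u ^ 2 * v ^ 8 +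
        25588 / 25 * u ^ 3 * v ^ 7 + 659313 / 250 * u ^ 4 * v ^ 6 + 4749667 / 1000 * u ^ 5 *
        v ^ 5 + 569789 / 100 * u ^ 6 * v ^ 4 + 4412611 / 1000 * u ^ 7 * v ^ 3 + 528267 / 250
        * u ^ 8 * v ^ 2 + 145911 / 250 * u ^ 9 * v + 697 / 10 * u ^ 10 := by
    rw [hu, hv]
    ring
  rw [e]
  positivity

lemma gl_2 {h : ℝ} (h0 : 0 ≤ h) (h1 : h ≤ 1) :
    0 ≤ 11 / 10 - 2 * h + 5 * h ^ 2 := by
  obtain ⟨u, hu⟩ : ∃ u, u = h := ⟨_, rfl⟩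
  obtain ⟨v, hv⟩ : ∃ v, v = 1 - h := ⟨_, rfl⟩
  have hu0 : 0 ≤ u := by linarith
  have hv0 : 0 ≤ v := by linarith
  have e : 11 / 10 - 2 * h + 5 * h ^ 2
      = 11 / 10 * v ^ 2 + 1 / 5 * u * v + 41 / 10 * u ^ 2 := by
    rw [hu, hv]
    ring
  rw [e]
  positivity

lemma gl {h X t : ℝ} (h0 : 0 ≤ h) (h1 : h ≤ 1) (X0 : 0 ≤ X) (t0 : 0 ≤ t)
    (hX : X * (17 / 2 + t) = 1) :
    0 ≤ 11 / 10 * h - 2 * h ^ 2 + 5 * h ^ 3 - 1967 / 250 * X * h + 1967 / 1000 * X * h ^ 2 +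
      24843 / 1000 * X * h ^ 3 - 469 / 250 * X * h ^ 4 - 1146 / 125 * X * h ^ 5 - 643 / 1000
      * X * h ^ 6 - 23287 / 1000 * X * h ^ 7 + 933 / 1000 * X * h ^ 8 + 23481 / 1000 * X * h
      ^ 9 - 381 / 1000 * X * h ^ 10 - 8001 / 1000 * X * h ^ 11 - 141 / 25 * X ^ 2 * h + 141
      / 100 * X ^ 2 * h ^ 2 + 12601 / 100 * X ^ 2 * h ^ 3 - 1487 / 100 * X ^ 2 * h ^ 4 -
      1887 / 4 * X ^ 2 * h ^ 5 + 704 / 25 * X ^ 2 * h ^ 6 + 17852 / 25 * X ^ 2 * h ^ 7 - 87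
      / 4 * X ^ 2 * h ^ 8 - 2043 / 4 * X ^ 2 * h ^ 9 + 141 / 20 * X ^ 2 * h ^ 10 + 2961 / 20
      * X ^ 2 * h ^ 11 := by
  have q0 := gl_0 h0 h1
  have q1 := gl_1 h0 h1
  have q2 := gl_2 h0 h1
  have e : 11 / 10 * h - 2 * h ^ 2 + 5 * h ^ 3 - 1967 / 250 * X * h + 1967 / 1000 * X * h ^
      2 + 24843 / 1000 * X * h ^ 3 - 469 / 250 * X * h ^ 4 - 1146 / 125 * X * h ^ 5 - 643 /
      1000 * X * h ^ 6 - 23287 / 1000 * X * h ^ 7 + 933 / 1000 * X * h ^ 8 + 23481 / 1000 *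
      X * h ^ 9 - 381 / 1000 * X * h ^ 10 - 8001 / 1000 * X * h ^ 11 - 141 / 25 * X ^ 2 * h
      + 141 / 100 * X ^ 2 * h ^ 2 + 12601 / 100 * X ^ 2 * h ^ 3 - 1487 / 100 * X ^ 2 * h ^ 4
      - 1887 / 4 * X ^ 2 * h ^ 5 + 704 / 25 * X ^ 2 * h ^ 6 + 17852 / 25 * X ^ 2 * h ^ 7 -
      87 / 4 * X ^ 2 * h ^ 8 - 2043 / 4 * X ^ 2 * h ^ 9 + 141 / 20 * X ^ 2 * h ^ 10 + 2961 /
      20 * X ^ 2 * h ^ 11
      = X ^ 2 * ((h * (6957 / 1000 - 252741 / 2000 * h + 1396851 / 2000 * h ^ 2 - 3852 / 125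
        * h ^ 3 - 274839 / 500 * h ^ 4 + 45389 / 2000 * h ^ 5 + 1032281 / 2000 * h ^ 6 -
        27639 / 2000 * h ^ 7 - 622323 / 2000 * h ^ 8 + 7623 / 2000 * h ^ 9 + 160083 / 2000 *
        h ^ 10)) + t * (h * (1354 / 125 - 32033 / 1000 * h + 109843 / 1000 * h ^ 2 - 469 /
        250 * h ^ 3 - 1146 / 125 * h ^ 4 - 643 / 1000 * h ^ 5 - 23287 / 1000 * h ^ 6 + 933 /
        1000 * h ^ 7 + 23481 / 1000 * h ^ 8 - 381 / 1000 * h ^ 9 - 8001 / 1000 * h ^ 10)) +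
        t ^ 2 * (h * (11 / 10 - 2 * h + 5 * h ^ 2))) := by
    linear_combination -((11 / 10 * h - 2 * h ^ 2 + 5 * h ^ 3) * (1 + X * (17 / 2 + t)) + X
        * (-1967 / 250 * h + 1967 / 1000 * h ^ 2 + 24843 / 1000 * h ^ 3 - 469 / 250 * h ^ 4
        - 1146 / 125 * h ^ 5 - 643 / 1000 * h ^ 6 - 23287 / 1000 * h ^ 7 + 933 / 1000 * h ^
        8 + 23481 / 1000 * h ^ 9 - 381 / 1000 * h ^ 10 - 8001 / 1000 * h ^ 11) * (1)) * hX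
  rw [e]
  have e2 : 0 ≤ (h * (6957 / 1000 - 252741 / 2000 * h + 1396851 / 2000 * h ^ 2 - 3852 / 125
        * h ^ 3 - 274839 / 500 * h ^ 4 + 45389 / 2000 * h ^ 5 + 1032281 / 2000 * h ^ 6 -
        27639 / 2000 * h ^ 7 - 622323 / 2000 * h ^ 8 + 7623 / 2000 * h ^ 9 + 160083 / 2000 *
        h ^ 10)) + t * (h * (1354 / 125 - 32033 / 1000 * h + 109843 / 1000 * h ^ 2 - 469 /
        250 * h ^ 3 - 1146 / 125 * h ^ 4 - 643 / 1000 * h ^ 5 - 23287 / 1000 * h ^ 6 + 933 /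
        1000 * h ^ 7 + 23481 / 1000 * h ^ 8 - 381 / 1000 * h ^ 9 - 8001 / 1000 * h ^ 10)) +
        t ^ 2 * (h * (11 / 10 - 2 * h + 5 * h ^ 2)) := by
    exact add_nonneg (add_nonneg (mul_nonneg h0 q0) (mul_nonneg t0 (mul_nonneg h0 q1)))
      (mul_nonneg (pow_nonneg t0 2) (mul_nonneg h0 q2))
  exact mul_nonneg (pow_nonneg X0 _) e2


end Vale.Agent.P224.R2.H355.DC
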