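import Vale.Agent.P224.R2.H355.Dual
import Vale.Agent.P224.R2.H355.DualCA
import Vale.Agent.P224.R2.H355.DualCB
import Vale.Agent.P224.R2.H355.DualCC

/-!
The explicit dual polynomials and the sharp upper bound of `P 1`.
-/

namespace Vale.Agent.P224.R2.H355

open Set Vale.Agent.P224.R2.H424

/-- evaluation of a polynomial given by its list of coefficients, and its derivatives -/
def pe : List ℝ → ℝ → ℝ
  | [], _ => 0
  | c :: cs, h => c + h * pe cs h
def pd : List ℝ → ℝ → ℝ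
  | [], _ => 0
  | _ :: cs, h => pe cs h + h * pd cs h
def pdd : List ℝ → ℝ → ℝ
  | [], _ => 0
  | _ :: cs, h => 2 * pd cs h + h * pdd cs h

lemma hpe (cs : List ℝ) (h : ℝ) : HasDerivAt (pe cs) (pd cs h) h := by
  induction cs with
  | nil => exact hasDerivAt_const h (0 : ℝ)
  | cons c cs ih =>
    have e : pe (c :: cs) = fun h => c + h * pe cs h := by
      funext x
      simp only [pe]
    rw [e]
    refine (((hasDerivAt_id h).fun_mul ih).const_add c).congr_deriv ?_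
    simp only [pd, id]
    ring

lemma hpd (cs : List ℝ) (h : ℝ) : HasDerivAt (pd cs) (pdd cs h) h := by
  induction cs with
  | nil => exact hasDerivAt_const h (0 : ℝ)
  | cons c cs ih =>
    have e : pd (c :: cs) = fun h => pe cs h + h * pd cs h := by
      funext x
      simp only [pd]
    rw [e]
    refine ((hpe cs h).fun_add ((hasDerivAt_id h).fun_mul ih)).congr_deriv ?_
    simp only [pdd, id]
    ring

noncomputable def lχ (X : ℝ) : List ℝ := [1 + 1967 / 1000 * X + 141 / 100 * X ^ 2, 0, -469 /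
    250 * X - 1487 / 100 * X ^ 2, 0, -643 / 1000 * X + 704 / 25 * X ^ 2, 0, 933 / 1000 * X -
    87 / 4 * X ^ 2, 0, -381 / 1000 * X + 141 / 20 * X ^ 2]
noncomputable def lw (X : ℝ) : List ℝ := [0, 1 + 1039 / 250 * X + 531 / 50 * X ^ 2, -2083 /
    500 * X + 579 / 20 * X ^ 2, 18883 / 1000 * X - 32657 / 100 * X ^ 2, -27049 / 500 * X +
    16869 / 25 * X ^ 2, 51967 / 1000 * X - 56713 / 100 * X ^ 2, -1773 / 100 * X + 18017 /
    100 * X ^ 2]
noncomputable def lt (X : ℝ) : List ℝ := [1 / 3 + 81 / 125 * X - 2 / 25 * X ^ 2, 729 / 500 *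
    X - 603 / 100 * X ^ 2, -2 - 11043 / 500 * X - 6307 / 50 * X ^ 2, 5 / 3 + 13511 / 500 * X
    + 597 * X ^ 2, 9507 / 1000 * X - 17887 / 20 * X ^ 2, -20821 / 1000 * X + 52951 / 100 * X
    ^ 2, 4273 / 1000 * X - 9991 / 100 * X ^ 2]
noncomputable def lA (X : ℝ) : List ℝ := [1 / 3 + 43639 / 140000 * X - 779519 / 1120000 * X
    ^ 2 - 59 / 896 * X ^ 3, 0, -2 - 8437 / 1000 * X - 21483 / 1000 * X ^ 2 + 3 / 100 * X ^
    3, 5 / 3 + 5722 / 375 * X - 81129 / 2000 * X ^ 2 + 603 / 400 * X ^ 3, -89363 / 2000 * X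
    + 5663549 / 8000 * X ^ 2 + 18921 / 800 * X ^ 3, 709677 / 5000 * X - 19413993 / 10000 * X
    ^ 2 - 1791 / 20 * X ^ 3, -609341 / 3000 * X + 18961053 / 8000 * X ^ 2 + 17887 / 160 * X
    ^ 3, 923791 / 7000 * X - 39517817 / 28000 * X ^ 2 - 158853 / 2800 * X ^ 3, -5319 / 160 *
    X + 10797381 / 32000 * X ^ 2 + 29973 / 3200 * X ^ 3]

section

variable {a L : ℝ}

theorem P_one_bound (s : HSol a L) (hp : Par a L) (hLe : 4 ≤ L * (4 * a ^ 2 - 1)) :
    (1 + 1 / a * (1 - L / 2)) * s.P 1 ≤ 1 / 3 + 43639 / 140000 * (1 / a) - 779519 / 1120000 * (1 / a) ^ 2 - 59 / 896 * (1 / a) ^ 3 + 0.5162 * (L / a) := by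
  have ha := hp.ha
  have ha0 := hp.a0
  have hL := hp.L0
  obtain ⟨X, hXd⟩ : ∃ X, X = 1 / a := ⟨_, rfl⟩
  obtain ⟨t, htd⟩ : ∃ t, t = a - 17 / 2 := ⟨_, rfl⟩
  have t0 : 0 ≤ t := by linarith
  have X0 : 0 ≤ X := by rw [hXd]; positivity
  have hXa : X * a = 1 := by rw [hXd]; field_simp
  have hX : X * (17 / 2 + t) = 1 := by rw [htd]; linear_combination hXa
  have hLX : X ^ 2 ≤ L := by
    have e1 : X ^ 2 * a ^ 2 = 1 := by rw [← mul_pow, hXa, one_pow]
    have e2 : 1 ≤ L * a ^ 2 := by nlinarith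
    have e3 : (L - X ^ 2) * a ^ 2 ≥ 0 := by nlinarith
    have e4 : 0 < a ^ 2 := by positivity
    nlinarith [le_of_mul_le_mul_right (by linarith : (0 : ℝ) * a ^ 2 ≤ (L - X ^ 2) * a ^ 2) e4]
  have h2a : 1 / (2 * a) = X / 2 := by rw [hXd]; ring
  have key := dual_bound s hp (hpe (lχ X)) (hpd (lχ X)) (hpe (lw X)) (hpe (lt X)) (hpe (lA X))
    (by simp only [pe, lχ]; ring) (by simp only [pe, lA]; ring) ?_ ?_ ?_ ?_ ?_ ?_ ?_
  · have e : pe (lA X) 0 = 1 / 3 + 43639 / 140000 * X - 779519 / 1120000 * X ^ 2 - 59 / 896 * X ^ 3 := by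
      simp only [pe, lA]
      ring
    rw [e, hXd] at key
    exact key
  · rintro h ⟨h0, h1⟩
    have k1 := mul_nonneg h0 (DC.c1 h0 h1 X0 t0 hX)
    have k2 := mul_nonneg (mul_nonneg hL X0) (DC.qh h0 h1 X0 t0 hX)
    have k3 := mul_nonneg (mul_nonneg X0 (pow_nonneg h0 2)) (sub_nonneg.2 hLX)
    rw [← hXd]
    simp only [pe, pd, pdd, lχ]
    linarith
  · rintro h ⟨h0, h1⟩
    have k1 := mul_nonneg h0 (DC.c2 h0 h1 X0 t0 hX)
    rw [h2a]
    simp only [pe, pd, lχ, lw]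
    linarith
  · rintro h ⟨h0, h1⟩
    have e : 3 / 4 * h * pe (lt X) h / a = 3 / 4 * h * pe (lt X) h * X := by rw [hXd]; ring
    rw [e]
    refine le_of_eq ?_
    simp only [pe, pd, lA, lt, lw]
    ring
  · rintro h ⟨h0, h1⟩
    have k1 := DC.c4 h0 h1 X0 t0 hX
    rw [← hXd]
    simp only [pe, pd, lA, lt]
    linarith
  · rintro h ⟨h0, h1⟩
    have k1 := DC.gu h0 h1 X0 t0 hX
    have k2 := DC.gl h0 h1 X0 t0 hX
    simp only [pe, pd, lχ]
    rw [abs_le]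
    constructor <;> linarith
  · rintro h ⟨h0, h1⟩
    have k1 := mul_nonneg h0 (DC.kp h0 h1 X0 t0 hX)
    simp only [pe, pd, lw]
    linarith
  · rintro h ⟨h0, h1⟩
    have k1 := DC.tp h0 h1 X0 t0 hX
    simp only [pe, lt]
    linarith

/-- **the sharp upper bound of `P 1`** (within 0.35 percent of the truth at `a = 17 / 2`) -/
theorem P_one_le (s : HSol a L) (hp : Par a L) (hLe : 4 ≤ L * (4 * a ^ 2 - 1)) :
    s.P 1 ≤ 1 / 3 - 1 / (48 * a) - 68 / (125 * a ^ 2) := by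
  have ha := hp.ha
  have ha0 := hp.a0
  have hL := hp.L0
  have key := P_one_bound s hp hLe
  obtain ⟨X, hXd⟩ : ∃ X, X = 1 / a := ⟨_, rfl⟩
  have X0 : 0 ≤ X := by rw [hXd]; positivity
  have hXa : X * a = 1 := by rw [hXd]; field_simp
  have hX1 : X ≤ 2 / 17 := by
    rw [hXd, div_le_div_iff₀ ha0 (by norm_num)]
    linarith
  have e1 : 1 / (48 * a) = X / 48 := by rw [hXd]; ring
  have e2 : 68 / (125 * a ^ 2) = 68 / 125 * X ^ 2 := by rw [hXd]; ring
  have e3 : L / a = L * X := by rw [hXd]; ring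
  rw [e1, e2]
  rw [e3, ← hXd] at key
  have hL1 : L ≤ 1.0035 * X ^ 2 := by
    have f1 : L * (4 * a ^ 2 - 1) ≤ 4 := hp.hL
    have f2 : X ^ 2 * a ^ 2 = 1 := by rw [← mul_pow, hXa, one_pow]
    have f3 : L * (4 - X ^ 2) ≤ 4 * X ^ 2 := by
      have : X ^ 2 * (L * (4 * a ^ 2 - 1)) ≤ X ^ 2 * 4 :=
        mul_le_mul_of_nonneg_left f1 (sq_nonneg X)
      have g : X ^ 2 * (L * (4 * a ^ 2 - 1)) = L * (4 - X ^ 2) := by
        linear_combination 4 * L * f2
      linarith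
    have f4 : X ^ 2 ≤ 0.01385 := by nlinarith
    nlinarith
  have hc : 0 < 1 + X * (1 - L / 2) := by
    have : X * (1 - L / 2) ≥ 0 := mul_nonneg X0 (by nlinarith [hp.L1])
    linarith
  by_contra hcon
  push Not at hcon
  have k1 := mul_lt_mul_of_pos_left hcon hc
  have LX : L * X ≤ 1.0035 * X ^ 3 := by
    have := mul_le_mul_of_nonneg_right hL1 X0
    linarith
  have k2 : 0 ≤ L * X := mul_nonneg hL X0
  have k3 : L * X * (1 / 3 - X / 48 - 68 / 125 * X ^ 2) ≤ L * X * (1 / 3) := by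
    refine mul_le_mul_of_nonneg_left ?_ k2
    nlinarith
  have k4 : (1 + X * (1 - L / 2)) * (1 / 3 - X / 48 - 68 / 125 * X ^ 2)
      = (1 + X) * (1 / 3 - X / 48 - 68 / 125 * X ^ 2)
        - L * X * (1 / 3 - X / 48 - 68 / 125 * X ^ 2) / 2 := by ring
  rw [k4] at k1
  have X2 : 0 ≤ X ^ 2 := sq_nonneg X
  have k5 : X ^ 2 * X ≤ X ^ 2 * (2 / 17) := mul_le_mul_of_nonneg_left hX1 X2
  have k6 : X * X ≤ 2 / 17 * X := mul_le_mul_of_nonneg_right hX1 X0
  nlinarith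

end

end Vale.Agent.P224.R2.H355
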