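import Mathlib.Analysis.Calculus.Deriv.Basic
import Mathlib.Topology.Order.Compact

/-!
The exact flow of the Clifford hypersurfaces in the variable `h = (1 - T ^ 2) / (1 + T ^ 2)`,
normalised so that every function is of size one (`z = 1 - T ^ 2 = 2 h / (1 + h)`).
-/

namespace Vale.Agent.P224.R2.H355

open Set

/-- a function which is twice differentiable on `[0, 1]` (and a little to the left of `0`) with its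
derivatives -/
structure H2 (f f1 f2 : ℝ → ℝ) : Prop where
  c0 : ContinuousOn f (Icc 0 1)
  c1 : ContinuousOn f1 (Icc 0 1)
  c2 : ContinuousOn f2 (Icc 0 1)
  d1 : ∀ h ∈ Ioo (-1 / 3 : ℝ) 1, HasDerivAt f (f1 h) h
  d2 : ∀ h ∈ Ioo (-1 / 3 : ℝ) 1, HasDerivAt f1 (f2 h) h

/-- The h-form of the exact flow of `C_{k,l}`, with `a = m / 2`, `L = delta ^ 2`. In the variable
`z = 2 h / (1 + h)` of `ZSol`, with `s = 1 + h`: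
`V = yt / s^(1/2)`, `W = y / s^(1/2)`, `E = 4 a E / s^(3/2)`, `G = 4 a G / s^(3/2)`,
`F = - 4 a Phi / s^(1/2)`, `P = - (4 a / n) s^(1/2) P`, `Q = - (4 a / n) Pi / s^(3/2)`. -/
structure HSol (a L : ℝ) where
  (V V1 V2 W W1 W2 E E1 E2 G G1 G2 F F1 F2 P P1 P2 P3 Q Q1 Q2 : ℝ → ℝ)
  cV : H2 V V1 V2
  cW : H2 W W1 W2
  cE : H2 E E1 E2
  cG : H2 G G1 G2
  cF : H2 F F1 F2
  cP : H2 P P1 P2
  cP' : H2 P1 P2 P3
  cQ : H2 Q Q1 Q2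
  V0 : V 0 = 1
  W0 : W 0 = 1
  V10 : V1 0 = 0
  E0 : E 0 = 0
  G0 : G 0 = 0
  F0 : F 0 = 0
  F10 : F1 0 = 0
  P0 : P 0 = 0
  P10 : P1 0 = 0
  Q0 : Q 0 = 0
  eW : ∀ h ∈ Icc (0 : ℝ) 1, W h = V h + L / (8 * a) * F h
  eF : ∀ h ∈ Icc (0 : ℝ) 1, F h = 6 * h * E h - 8 * h * G h + 4 * L / a * (h ^ 2 / (1 + h)) * Q h
  eQ : ∀ h ∈ Icc (0 : ℝ) 1, Q h = (1 - h ^ 2) * P2 h - h * P1 h + P h / 4
  eV : ∀ h ∈ Icc (0 : ℝ) 1, 2 * h * (1 - h ^ 2) * V2 h + (2 * a - 6 * h ^ 2) * V1 h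
    = 3 / 2 * h * V h + L / 8 * (2 * h * F1 h + F h)
  eE : ∀ h ∈ Icc (0 : ℝ) 1, 2 * h * (1 - h ^ 2) * E1 h + (2 * a + h - 3 * h ^ 2) * E h
    = 2 * a * h * (W h - 2 * (1 - h) * W1 h)
  eG : ∀ h ∈ Icc (0 : ℝ) 1, 2 * h * (1 - h ^ 2) * G1 h + (2 * a + h - 3 * h ^ 2) * G h
    = -(L * (h ^ 2 / (1 + h)) * Q h)
  eP : ∀ h ∈ Icc (0 : ℝ) 1, P1 h = h * (E h - G h)
    - h / a * (1 - L / 2 * (h / (1 + h))) * Q h

end Vale.Agent.P224.R2.H355
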