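import Vale.Agent.P224.R2.H424.Flow
import Vale.Agent.P224.R2.H355.HSys

/-!
From the z-form to the h-form of the exact flow.
-/

namespace Vale.Agent.P224.R2.H355

open Set Real Vale.Agent.P224.R2.H424

/-- the weight `κ (1 + h)^(1/2 - k)` -/
noncomputable def wt (κ : ℝ) (k : ℕ) (h : ℝ) : ℝ := κ * √(1 + h) / (1 + h) ^ k

/-- the change of variable -/
noncomputable def zt (h : ℝ) : ℝ := 2 * h / (1 + h)

lemma hasDerivAt_wt {κ : ℝ} {k : ℕ} {h : ℝ} (hh : 0 < 1 + h) :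
    HasDerivAt (wt κ k) (wt (κ * (1 / 2 - k)) (k + 1) h) h := by
  have h1 : HasDerivAt (fun h : ℝ => 1 + h) 1 h := by simpa using (hasDerivAt_id h).const_add 1
  have h2 := (h1.sqrt hh.ne').const_mul κ
  have h3 := h1.fun_pow k
  refine (h2.fun_div h3 (pow_ne_zero k hh.ne')).congr_deriv ?_
  have hs : √(1 + h) ≠ 0 := (sqrt_pos.2 hh).ne'
  have hsq : √(1 + h) ^ 2 = 1 + h := sq_sqrt hh.le
  unfold wt
  rcases k with _ | k
  · simp only [pow_zero, Nat.cast_zero]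
    field_simp
    rw [hsq]
    ring
  · have e : k + 1 - 1 = k := rfl
    rw [e]
    push_cast
    field_simp
    rw [hsq]
    ring

lemma hasDerivAt_zt {h : ℝ} (hh : 0 < 1 + h) : HasDerivAt zt (2 / (1 + h) ^ 2) h := by
  have h1 : HasDerivAt (fun h : ℝ => 1 + h) 1 h := by simpa using (hasDerivAt_id h).const_add 1
  have h2 : HasDerivAt (fun h : ℝ => 2 * h) 2 h := by simpa using (hasDerivAt_id h).const_mul 2
  refine (h2.fun_div h1 hh.ne').congr_deriv ?_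
  field_simp
  ring

lemma zt_mem {h : ℝ} (hh : h ∈ Icc (0 : ℝ) 1) : zt h ∈ Icc (0 : ℝ) 1 := by
  obtain ⟨h0, h1⟩ := hh
  have : 0 < 1 + h := by linarith
  refine ⟨by unfold zt; positivity, ?_⟩
  unfold zt
  rw [div_le_one this]
  linarith

lemma zt_mem' {h : ℝ} (hh : h ∈ Ioo (-1 / 3 : ℝ) 1) : zt h ∈ Ioo (-1 : ℝ) 1 := by
  obtain ⟨h0, h1⟩ := hh
  have : 0 < 1 + h := by linarith
  unfold zt
  refine ⟨?_, ?_⟩
  · rw [lt_div_iff₀ this]; linarith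
  · rw [div_lt_one this]; linarith

lemma continuousOn_zt : ContinuousOn zt (Icc 0 1) := fun h hh =>
  (hasDerivAt_zt (by linarith [hh.1])).continuousAt.continuousWithinAt

lemma continuousOn_wt {κ : ℝ} {k : ℕ} : ContinuousOn (wt κ k) (Icc 0 1) := fun h hh =>
  (hasDerivAt_wt (by linarith [hh.1])).continuousAt.continuousWithinAt

lemma wt_mul (κ : ℝ) (k : ℕ) {h : ℝ} (hh : 0 < 1 + h) :
    wt κ k h * (2 / (1 + h) ^ 2) = wt (2 * κ) (k + 2) h := by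
  unfold wt
  field_simp
  ring

/-- first derivative of a converted function -/
lemma hasDerivAt_conv {κ : ℝ} {k : ℕ} {f f1 : ℝ → ℝ} {h : ℝ}
    (hf : ∀ z ∈ Ioo (-1 : ℝ) 1, HasDerivAt f (f1 z) z) (hh : h ∈ Ioo (-1 / 3 : ℝ) 1) :
    HasDerivAt (fun h => wt κ k h * f (zt h))
      (wt (κ * (1 / 2 - k)) (k + 1) h * f (zt h) + wt (2 * κ) (k + 2) h * f1 (zt h)) h := by
  have hp : 0 < 1 + h := by linarith [hh.1]
  have h1 := (hf _ (zt_mem' hh)).comp h (hasDerivAt_zt hp)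
  refine ((hasDerivAt_wt (κ := κ) (k := k) hp).fun_mul h1).congr_deriv ?_
  rw [← wt_mul κ k hp]
  simp only [Function.comp]
  ring

lemma continuousOn_conv {κ : ℝ} {k : ℕ} {f : ℝ → ℝ} (hf : ContinuousOn f (Icc 0 1)) :
    ContinuousOn (fun h => wt κ k h * f (zt h)) (Icc 0 1) :=
  continuousOn_wt.mul (hf.comp continuousOn_zt fun _ hh => zt_mem hh)

/-- a converted function -/
noncomputable def cv (κ : ℝ) (k : ℕ) (f : ℝ → ℝ) : ℝ → ℝ := fun h => wt κ k h * f (zt h)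

/-- its first derivative -/
noncomputable def cv1 (κ : ℝ) (k : ℕ) (f f1 : ℝ → ℝ) : ℝ → ℝ := fun h =>
  cv (κ * (1 / 2 - k)) (k + 1) f h + cv (2 * κ) (k + 2) f1 h

/-- its second derivative -/
noncomputable def cv2 (κ : ℝ) (k : ℕ) (f f1 f2 : ℝ → ℝ) : ℝ → ℝ := fun h =>
  cv1 (κ * (1 / 2 - k)) (k + 1) f f1 h + cv1 (2 * κ) (k + 2) f1 f2 h

/-- its third derivative -/
noncomputable def cv3 (κ : ℝ) (k : ℕ) (f f1 f2 f3 : ℝ → ℝ) : ℝ → ℝ := fun h =>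
  cv2 (κ * (1 / 2 - k)) (k + 1) f f1 f2 h + cv2 (2 * κ) (k + 2) f1 f2 f3 h

section

variable {κ : ℝ} {k : ℕ} {f f1 f2 f3 : ℝ → ℝ}

lemma cv_cont (hf : ContinuousOn f (Icc 0 1)) : ContinuousOn (cv κ k f) (Icc 0 1) :=
  continuousOn_conv hf

lemma cv1_cont (hf : ContinuousOn f (Icc 0 1)) (hf1 : ContinuousOn f1 (Icc 0 1)) :
    ContinuousOn (cv1 κ k f f1) (Icc 0 1) := (cv_cont hf).add (cv_cont hf1)

lemma cv2_cont (hf : ContinuousOn f (Icc 0 1)) (hf1 : ContinuousOn f1 (Icc 0 1))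
    (hf2 : ContinuousOn f2 (Icc 0 1)) :
    ContinuousOn (cv2 κ k f f1 f2) (Icc 0 1) := (cv1_cont hf hf1).add (cv1_cont hf1 hf2)

lemma cv_deriv (hf : ∀ z ∈ Ioo (-1 : ℝ) 1, HasDerivAt f (f1 z) z) {h : ℝ}
    (hh : h ∈ Ioo (-1 / 3 : ℝ) 1) : HasDerivAt (cv κ k f) (cv1 κ k f f1 h) h :=
  hasDerivAt_conv hf hh

lemma cv1_deriv (hf : ∀ z ∈ Ioo (-1 : ℝ) 1, HasDerivAt f (f1 z) z)
    (hf1 : ∀ z ∈ Ioo (-1 : ℝ) 1, HasDerivAt f1 (f2 z) z) {h : ℝ}
    (hh : h ∈ Ioo (-1 / 3 : ℝ) 1) : HasDerivAt (cv1 κ k f f1) (cv2 κ k f f1 f2 h) h :=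
  (cv_deriv hf hh).add (cv_deriv hf1 hh)

lemma cv2_deriv (hf : ∀ z ∈ Ioo (-1 : ℝ) 1, HasDerivAt f (f1 z) z)
    (hf1 : ∀ z ∈ Ioo (-1 : ℝ) 1, HasDerivAt f1 (f2 z) z)
    (hf2 : ∀ z ∈ Ioo (-1 : ℝ) 1, HasDerivAt f2 (f3 z) z) {h : ℝ}
    (hh : h ∈ Ioo (-1 / 3 : ℝ) 1) : HasDerivAt (cv2 κ k f f1 f2) (cv3 κ k f f1 f2 f3 h) h :=
  (cv1_deriv hf hf1 hh).add (cv1_deriv hf1 hf2 hh)

lemma cv_H2 (c : C2 f f1 f2) : H2 (cv κ k f) (cv1 κ k f f1) (cv2 κ k f f1 f2) where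
  c0 := cv_cont c.c0
  c1 := cv1_cont c.c0 c.c1
  c2 := cv2_cont c.c0 c.c1 c.c2
  d1 := fun _ hh => cv_deriv c.d1 hh
  d2 := fun _ hh => cv1_deriv c.d1 c.d2 hh

lemma cv_H2' (c : C2 f f1 f2) (c' : C2 f1 f2 f3) :
    H2 (cv1 κ k f f1) (cv2 κ k f f1 f2) (cv3 κ k f f1 f2 f3) where
  c0 := cv1_cont c.c0 c.c1
  c1 := cv2_cont c.c0 c.c1 c.c2
  c2 := (cv2_cont c.c0 c.c1 c.c2).add (cv2_cont c.c1 c'.c1 c'.c2)
  d1 := fun _ hh => cv1_deriv c.d1 c.d2 hh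
  d2 := fun _ hh => cv2_deriv c.d1 c.d2 c'.d2 hh

end

section

variable {a L : ℝ} (s : ZSol a L)
include s

lemma e0' : ∀ z ∈ Icc (0 : ℝ) 1, s.y1 z = s.yt1 z - L / 2 * s.F1 z := by
  have hin : ∀ z ∈ Ioo (0 : ℝ) 1, s.y1 z = s.yt1 z - L / 2 * s.F1 z := by
    intro z hz
    have hz' : z ∈ Ioo (-1 : ℝ) 1 := ⟨by linarith [hz.1], hz.2⟩
    have h1 := (s.cyt.d1 z hz').fun_sub ((s.cF.d1 z hz').const_mul (L / 2))
    have h2 : HasDerivAt s.y (s.yt1 z - L / 2 * s.F1 z) z := by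
      refine h1.congr_of_eventuallyEq ?_
      filter_upwards [Ioo_mem_nhds hz.1 hz.2] with x hx
      exact s.e0 x ⟨hx.1.le, hx.2.le⟩
    exact (s.cy.d1 z hz').unique h2
  have hcl : Icc (0 : ℝ) 1 ⊆ closure (Ioo 0 1) := by rw [closure_Ioo zero_ne_one]
  have hc1 : ContinuousOn (fun z => s.yt1 z - L / 2 * s.F1 z) (Icc 0 1) :=
    s.cyt.c1.sub (continuousOn_const.mul s.cF.c1)
  exact (Set.EqOn.of_subset_closure (s := Ioo 0 1) hin s.cy.c1 hc1 Ioo_subset_Icc_self hcl)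

lemma F_zero : s.F 0 = 0 := by
  have := s.eF 0 ⟨le_rfl, zero_le_one⟩
  simpa using this

lemma F1_zero : s.F1 0 = 0 := by
  have hz : (0 : ℝ) ∈ Ioo (-1 : ℝ) 1 := by constructor <;> norm_num
  have hE := (s.cE.d1 0 hz).hasDerivWithinAt (s := Icc 0 1)
  have hG := (s.cG.d1 0 hz).hasDerivWithinAt (s := Icc 0 1)
  have hQ := (s.cQ.d1 0 hz).hasDerivWithinAt (s := Icc 0 1)
  have hF := (s.cF.d1 0 hz).hasDerivWithinAt (s := Icc 0 1)
  have hid := (hasDerivAt_id (0 : ℝ)).hasDerivWithinAt (s := Icc 0 1)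
  have h1 := (hid.fun_mul ((hE.const_mul (-3)).fun_add (hG.const_mul 4))).fun_add
    (((hid.fun_pow 2).const_mul (L / (a * (2 * a + 1)))).fun_mul hQ)
  have h2 : HasDerivWithinAt s.F _ (Icc 0 1) 0 := h1.congr (fun x hx => by
    simp only [id]; exact s.eF x hx) (by simp only [id]; exact s.eF 0 ⟨le_rfl, zero_le_one⟩)
  have hu : UniqueDiffWithinAt ℝ (Icc (0 : ℝ) 1) 0 :=
    (uniqueDiffOn_Icc zero_lt_one) 0 ⟨le_rfl, zero_le_one⟩
  have h3 := hu.eq_deriv _ hF h2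
  rw [h3]
  simp [s.E0, s.G0]

lemma P2_zero (ha : 0 < a) : s.P2 0 = 0 := by
  have hz : (0 : ℝ) ∈ Ioo (-1 : ℝ) 1 := by constructor <;> norm_num
  have hE := (s.cE.d1 0 hz).hasDerivWithinAt (s := Icc 0 1)
  have hG := (s.cG.d1 0 hz).hasDerivWithinAt (s := Icc 0 1)
  have hQ := (s.cQ.d1 0 hz).hasDerivWithinAt (s := Icc 0 1)
  have hP := (s.cP.d1 0 hz).hasDerivWithinAt (s := Icc 0 1)
  have hP1 := (s.cP.d2 0 hz).hasDerivWithinAt (s := Icc 0 1)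
  have hid := (hasDerivAt_id (0 : ℝ)).hasDerivWithinAt (s := Icc 0 1)
  have h1 := ((((hid.const_sub 2).const_mul (-2 * a)).fun_mul hP1).fun_sub
    (hP.const_mul a)).fun_sub ((hid.const_mul (a * (2 * a + 1))).fun_mul (hE.fun_sub hG))
  have h2 := (hid.fun_mul ((hid.const_mul (L / 4)).const_sub 1)).fun_mul hQ
  have h2' := h2.congr (f₁ := fun x => -2 * a * (2 - id x) * s.P1 x - a * s.P x
      - a * (2 * a + 1) * id x * (s.E x - s.G x)) (fun x hx => by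
    have := s.eD x hx
    simp only [id]
    linarith) (by
    have := s.eD 0 ⟨le_rfl, zero_le_one⟩
    simp only [id]
    linarith)
  have hu : UniqueDiffWithinAt ℝ (Icc (0 : ℝ) 1) 0 :=
    (uniqueDiffOn_Icc zero_lt_one) 0 ⟨le_rfl, zero_le_one⟩
  have h3 := hu.eq_deriv _ h1 h2'
  have h4 := s.eQ 0 ⟨le_rfl, zero_le_one⟩
  simp only [id, s.E0, s.G0, s.P10] at h3 h4
  have h5 : (4 + 4 * a) * s.P2 0 = 0 := by
    have e : s.Q 0 = 4 * s.P2 0 := by rw [h4]; ring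
    rw [e] at h3
    linarith
  rcases mul_eq_zero.1 h5 with h | h
  · linarith
  · exact h

lemma yt1_zero (ha : 0 < a) : s.yt1 0 = 1 / 4 := by
  have h := s.eA 0 ⟨le_rfl, zero_le_one⟩
  rw [s.y0] at h
  have : a * (4 * s.yt1 0 - 1) = 0 := by linarith
  rcases mul_eq_zero.1 this with h | h
  · exact absurd h ha.ne'
  · linarith

end

section

variable {a L : ℝ}

/-- **The h-form.** -/
noncomputable def hsol (ha : 0 < a) (s : ZSol a L) : HSol a L where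
  V := cv 1 1 s.yt
  V1 := cv1 1 1 s.yt s.yt1
  V2 := cv2 1 1 s.yt s.yt1 s.yt2
  W := cv 1 1 s.y
  W1 := cv1 1 1 s.y s.y1
  W2 := cv2 1 1 s.y s.y1 s.y2
  E := cv (4 * a) 2 s.E
  E1 := cv1 (4 * a) 2 s.E s.E1
  E2 := cv2 (4 * a) 2 s.E s.E1 s.E2
  G := cv (4 * a) 2 s.G
  G1 := cv1 (4 * a) 2 s.G s.G1
  G2 := cv2 (4 * a) 2 s.G s.G1 s.G2
  F := cv (-4 * a) 1 s.F
  F1 := cv1 (-4 * a) 1 s.F s.F1
  F2 := cv2 (-4 * a) 1 s.F s.F1 s.F2
  P := cv (-4 * a / (2 * a + 1)) 0 s.P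
  P1 := cv1 (-4 * a / (2 * a + 1)) 0 s.P s.P1
  P2 := cv2 (-4 * a / (2 * a + 1)) 0 s.P s.P1 s.P2
  P3 := cv3 (-4 * a / (2 * a + 1)) 0 s.P s.P1 s.P2 s.P3
  Q := cv (-4 * a / (2 * a + 1)) 2 s.Q
  Q1 := cv1 (-4 * a / (2 * a + 1)) 2 s.Q s.Q1
  Q2 := cv2 (-4 * a / (2 * a + 1)) 2 s.Q s.Q1 s.Q2
  cV := cv_H2 s.cyt
  cW := cv_H2 s.cy
  cE := cv_H2 s.cE
  cG := cv_H2 s.cG
  cF := cv_H2 s.cF
  cP := cv_H2 s.cP
  cP' := cv_H2' s.cP s.cP'
  cQ := cv_H2 s.cQ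
  V0 := by simp [cv, wt, zt, s.yt0]
  W0 := by simp [cv, wt, zt, s.y0]
  V10 := by simp [cv1, cv, wt, zt, s.yt0, yt1_zero s ha]; norm_num
  E0 := by simp [cv, wt, zt, s.E0]
  G0 := by simp [cv, wt, zt, s.G0]
  F0 := by simp [cv, wt, zt, F_zero s]
  F10 := by simp [cv1, cv, wt, zt, F_zero s, F1_zero s]
  P0 := by simp [cv, wt, zt, s.P0]
  P10 := by simp [cv1, cv, wt, zt, s.P0, s.P10]
  Q0 := by
    have h4 := s.eQ 0 ⟨le_rfl, zero_le_one⟩
    rw [P2_zero s ha, s.P10] at h4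
    simp [cv, wt, zt, h4]
  eW := by
    intro h hh
    have hp : 0 < 1 + h := by linarith [hh.1]
    have e := s.e0 _ (zt_mem hh)
    simp only [cv, wt]
    rw [e]
    field_simp
    ring
  eF := by
    intro h hh
    have hp : 0 < 1 + h := by linarith [hh.1]
    have hn : 2 * a + 1 ≠ 0 := by positivity
    have e := s.eF _ (zt_mem hh)
    simp only [cv, wt]
    rw [e]
    unfold zt
    field_simp
    ring
  eQ := by
    intro h hh
    have hp : 0 < 1 + h := by linarith [hh.1]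
    have hn : 2 * a + 1 ≠ 0 := by positivity
    have e := s.eQ _ (zt_mem hh)
    simp only [cv, cv1, cv2, wt]
    rw [e]
    unfold zt
    push_cast
    field_simp
    ring
  eV := by
    intro h hh
    have hp : 0 < 1 + h := by linarith [hh.1]
    have hz : zt h = 2 * h / (1 + h) := rfl
    have e := s.eA _ (zt_mem hh)
    have e1 := s.e0 _ (zt_mem hh)
    have e2 := e0' s _ (zt_mem hh)
    rw [e1, e2] at e
    simp only [cv, cv1, cv2, wt]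
    generalize s.yt (zt h) = Y at e ⊢
    generalize s.yt1 (zt h) = Y1 at e ⊢
    generalize s.yt2 (zt h) = Y2 at e ⊢
    generalize s.F (zt h) = F at e ⊢
    generalize s.F1 (zt h) = F1 at e ⊢
    rw [hz] at e
    push_cast
    linear_combination (norm := (field_simp; ring)) (√(1 + h) / (1 + h) ^ 2) * e
  eE := by
    intro h hh
    have hp : 0 < 1 + h := by linarith [hh.1]
    have hz : zt h = 2 * h / (1 + h) := rfl
    have e := s.eB _ (zt_mem hh)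
    simp only [cv, cv1, wt]
    generalize s.y (zt h) = Y at e ⊢
    generalize s.y1 (zt h) = Y1 at e ⊢
    generalize s.E (zt h) = F at e ⊢
    generalize s.E1 (zt h) = F1 at e ⊢
    rw [hz] at e
    push_cast
    linear_combination (norm := (field_simp; ring)) (-(4 * a * √(1 + h) / (1 + h))) * e
  eG := by
    intro h hh
    have hp : 0 < 1 + h := by linarith [hh.1]
    have hz : zt h = 2 * h / (1 + h) := rfl
    have e := s.eC _ (zt_mem hh)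
    simp only [cv, cv1, wt]
    generalize s.Q (zt h) = Y at e ⊢
    generalize s.G (zt h) = F at e ⊢
    generalize s.G1 (zt h) = F1 at e ⊢
    rw [hz] at e
    push_cast
    linear_combination (norm := (field_simp; ring)) (-(4 * a * √(1 + h) / (1 + h))) * e
  eP := by
    intro h hh
    have hp : 0 < 1 + h := by linarith [hh.1]
    have hz : zt h = 2 * h / (1 + h) := rfl
    have e := s.eD _ (zt_mem hh)
    simp only [cv, cv1, wt]
    generalize s.Q (zt h) = Y at e ⊢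
    generalize s.P (zt h) = P at e ⊢
    generalize s.P1 (zt h) = P1 at e ⊢
    generalize s.E (zt h) = F at e ⊢
    generalize s.G (zt h) = F1 at e ⊢
    rw [hz] at e
    push_cast
    linear_combination (norm := (field_simp; ring)) (-(2 * √(1 + h) / ((2 * a + 1) * (1 + h)))) * e

end

end Vale.Agent.P224.R2.H355
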