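import Vale.Agent.P224.R2.H484.AbsW
import Vale.Agent.P224.R2.H869.TlEnd2
import Vale.Agent.P224.R2.H355.OThr

/-!
The absolute tail for the thresholds of odd dimensions, blocks of dimensions.
-/

namespace Vale.Agent.P224.R2.H355

open MeasureTheory Set Function Real Module Matrix Vale.Agent.P224 Vale.Agent.P224.FV
  Vale.Agent.P224.R2.H582 Vale.Agent.P224.R2.H484 Vale.Agent.P224.R2.H728
  Vale.Agent.P224.R2.H820 Vale.Agent.P224.R2.H869
open Vale.Agent.P224.SM2 hiding ker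
open scoped Topology RealInnerProductSpace ContDiff Manifold

set_option linter.unusedSectionVars false

/-- thresholds of the cells -/
def lcA (m c : ℕ) : ℚ :=
  if tR c < 1 / 2 then oc1 m c else lcG kR (94 / 5 - 256 / (5 * m)) (63 / 5 - 146 / (5 * m)) c

lemma lcA_le {m1 m : ℕ} (h17 : 17 ≤ m1) (hm : m1 ≤ m) {lT : ℝ → ℝ}
    (h1 : ∀ T ∈ Ioo (0 : ℝ) 1, T ≤ 1 / 2 →
      17 * (1 - T ^ 10) * ((1 - 9 / (5 * m)) / (1 + 7 / (5 * m))) ≤ lT T)
    (h2 : ∀ T ∈ Ioo (0 : ℝ) 1, 1 / 2 < T → 94 / 5 - 256 / (5 * (m : ℝ)) ≤ lT T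
      ∧ (63 / 5 - 146 / (5 * (m : ℝ))) / (1 - T ^ 2) ≤ lT T) :
    ∀ c < 200, ∀ T ∈ Ioo (0 : ℝ) 1, ((tR c : ℚ) : ℝ) < T → T ≤ tR (c + 1) →
      ((lcA m1 c : ℚ) : ℝ) ≤ lT T := by
  intro c hc T hT hT1 hT2
  unfold lcA
  split_ifs with a1
  · exact (oc_le h17 hm h1 h2 c hc T hT hT1 hT2).1
  · have a1' : (1 : ℝ) / 2 ≤ ((tR c : ℚ) : ℝ) := half_le (not_lt.1 a1)
    obtain ⟨b1, b2⟩ := h2 T hT (lt_of_le_of_lt a1' hT1)
    have hk : (0 : ℝ) < 1 - T ^ 2 := by nlinarith [hT.1, hT.2]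
    have h17' : (17 : ℚ) ≤ m1 := by exact_mod_cast h17
    have hB0 : (0 : ℚ) ≤ 63 / 5 - 146 / (5 * m1) := by
      have : (146 : ℚ) / (5 * m1) ≤ 146 / (5 * 17) :=
        div_le_div_of_nonneg_left (by norm_num) (by norm_num) (by linarith)
      norm_num at this ⊢
      linarith
    refine grdR.lcG_le hc hB0 hT hT1 hT2 ?_ ?_
    · push_cast
      exact (hiA_le h17 hm).trans b1
    · push_cast
      exact (div_le_div_of_nonneg_right (hiB_le h17 hm) hk.le).trans b2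

section

variable {X : Type*} [MeasurableSpace X] {E : Type*} [NormedAddCommGroup E]
  [InnerProductSpace ℝ E] [MeasurableSpace E] [BorelSpace E] [SecondCountableTopology E]
  {μ : Measure X} [IsFiniteMeasure μ] {m : ℕ} {p n : X → E}

/-- the absolute tail of a block of dimensions, thresholds of the odd case -/
theorem abs_odd [Nontrivial E] (h2 : Two μ m p n) (h1 : MinRow μ m p n) {m1 : ℕ} {x ε : ℚ}
    (hok : absOKg 200 wR m1 x (lcA m1) ε = true) (h17 : 17 ≤ m1) (hm1 : m1 ≤ m)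
    (hx : (x : ℝ) ≤ 1 / m) {l : ℝ → ℝ}
    (l1 : ∀ T ∈ Ioo (0 : ℝ) 1, T ≤ 1 / 2 →
      17 * (1 - T ^ 10) * ((1 - 9 / (5 * m)) / (1 + 7 / (5 * m))) ≤ l T)
    (l2 : ∀ T ∈ Ioo (0 : ℝ) 1, 1 / 2 < T → 94 / 5 - 256 / (5 * (m : ℝ)) ≤ l T
      ∧ (63 / 5 - 146 / (5 * (m : ℝ))) / (1 - T ^ 2) ≤ l T) : Tail μ m p n l ε :=
  grdR.abs h2 h1 hok h17 hm1 hx fun c hc T hT t1 t2 => lcA_le h17 hm1 l1 l2 c hc T hT t1 t2

end

lemma okO_37 : absOKg 200 wR 37 (1 / (59 : ℕ)) (lcA 37) (101 / 1000000) = true := by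
  decide +kernel

lemma okO_61 : absOKg 200 wR 61 (1 / (99 : ℕ)) (lcA 61) (118 / 1000000) = true := by
  decide +kernel

lemma okO_101 : absOKg 200 wR 101 (1 / (199 : ℕ)) (lcA 101) (140 / 1000000) = true := by
  decide +kernel

lemma okO_201 : absOKg 200 wR 201 (1 / (399 : ℕ)) (lcA 201) (145 / 1000000) = true := by
  decide +kernel

lemma okO_400 : absOKg 200 wR 400 0 (lcA 400) (160 / 1000000) = true := by
  decide +kernel

section

variable {V W M : Type*} [NormedAddCommGroup V] [InnerProductSpace ℝ V] [FiniteDimensional ℝ V]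
  [NormedAddCommGroup W] [InnerProductSpace ℝ W] [FiniteDimensional ℝ W]
  [TopologicalSpace M] [ChartedSpace V M]
  [MeasurableSpace V] [BorelSpace V] [MeasurableSpace M] [BorelSpace M]
  [MeasurableSpace W] [BorelSpace W] [IsManifold 𝓘(ℝ, V) ∞ M]
  [CompactSpace M] [T2Space M]

/-- **the absolute tail**, thresholds of the odd case -/
theorem absO_min {m1 : ℕ} {x ε : ℚ} (hok : absOKg 200 wR m1 x (lcA m1) ε = true)
    (h17 : 17 ≤ m1) {m : ℕ} (hm1 : m1 ≤ m) (hx : (x : ℝ) ≤ 1 / m) (hmm : m = finrank ℝ V)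
    (hW : finrank ℝ W = finrank ℝ V + 2) {F : M → W}
    (hF : SphImm V F) (hmin : ∀ x n, IsUnitNormal V F x n → meanCurv V F x n = 0)
    {N : M → W} (hNs : ContMDiff 𝓘(ℝ, V) 𝓘(ℝ, W) ∞ N) (hN : ∀ x, IsUnitNormal V F x (N x))
    {l : ℝ → ℝ}
    (l1 : ∀ T ∈ Ioo (0 : ℝ) 1, T ≤ 1 / 2 →
      17 * (1 - T ^ 10) * ((1 - 9 / (5 * m)) / (1 + 7 / (5 * m))) ≤ l T)
    (l2 : ∀ T ∈ Ioo (0 : ℝ) 1, 1 / 2 < T → 94 / 5 - 256 / (5 * (m : ℝ)) ≤ l T
      ∧ (63 / 5 - 146 / (5 * (m : ℝ))) / (1 - T ^ 2) ≤ l T) :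
    AbsTail (volM V F) m F N l ε := by
  have hfin : IsFiniteMeasure (volM V F) := isFiniteMeasure_volM hF
  have hnt : Nontrivial W := Module.nontrivial_of_finrank_pos (R := ℝ) (by omega)
  have h2 := two_of_min hW hF hmin hNs hN
  have h1 := minRow_of_min (by omega) hW hF hmin hNs hN
  rw [← hmm] at h1 h2
  exact abs_odd h2 h1 hok h17 hm1 hx l1 l2

end

end Vale.Agent.P224.R2.H355
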