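import Mathlib.Tactic.Positivity
import Mathlib.Tactic.LinearCombination
import Mathlib.Tactic.Linarith
import Mathlib.Tactic.Ring
import Mathlib.Data.Real.Basic

/-!
Polynomial certificates for the pointwise bounds of the odd functions of the flow (ce, cd).
-/

namespace Vale.Agent.P224.R2.H355.PC

lemma ce_0 {h : ℝ} (h0 : 0 ≤ h) (h1 : h ≤ 1) :
    0 ≤ 119 / 100 + 256849753 / 1600000 * h - 2164385753 / 1600000 * h ^ 2 + 6210729 / 1600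
      * h ^ 3 - 2084047 / 800 * h ^ 4 - 936139 / 400 * h ^ 5 + 912383 / 400 * h ^ 6 - 113111
      / 400 * h ^ 7 + 3179 / 10 * h ^ 8 := by
  rcases le_total h (1 / 2) with g0 | g0
  · obtain ⟨u, hu⟩ : ∃ u, u = h := ⟨_, rfl⟩
    obtain ⟨v, hv⟩ : ∃ v, v = 1 / 2 - h := ⟨_, rfl⟩
    have hu0 : 0 ≤ u := by linarith
    have hv0 : 0 ≤ v := by linarith
    have e : 119 / 100 + 256849753 / 1600000 * h - 2164385753 / 1600000 * h ^ 2 + 6210729 /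
        1600 * h ^ 3 - 2084047 / 800 * h ^ 4 - 936139 / 400 * h ^ 5 + 912383 / 400 * h ^ 6 -
        113111 / 400 * h ^ 7 + 3179 / 10 * h ^ 8
        = 7616 / 25 * v ^ 8 + 287313753 / 12500 * u * v ^ 7 + 1644758789 / 25000 * u ^ 2 * v
          ^ 6 + 166654451 / 3125 * u ^ 3 * v ^ 5 + 106323083 / 5000 * u ^ 4 * v ^ 4 +
          30714903 / 500 * u ^ 5 * v ^ 3 + 2160542581 / 25000 * u ^ 6 * v ^ 2 + 1067082649 /
          25000 * u ^ 7 * v + 43526407 / 6250 * u ^ 8 := by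
      rw [hu, hv]
      ring
    rw [e]
    positivity
  rcases le_total h (7 / 8) with g1 | g1
  · obtain ⟨u, hu⟩ : ∃ u, u = h - 1 / 2 := ⟨_, rfl⟩
    obtain ⟨v, hv⟩ : ∃ v, v = 7 / 8 - h := ⟨_, rfl⟩
    have hu0 : 0 ≤ u := by linarith
    have hv0 : 0 ≤ v := by linarith
    have e : 119 / 100 + 256849753 / 1600000 * h - 2164385753 / 1600000 * h ^ 2 + 6210729 /
        1600 * h ^ 3 - 2084047 / 800 * h ^ 4 - 936139 / 400 * h ^ 5 + 912383 / 400 * h ^ 6 -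
        113111 / 400 * h ^ 7 + 3179 / 10 * h ^ 8
        = 1426273304576 / 20503125 * v ^ 8 + 13411670468608 / 20503125 * u * v ^ 7 +
          51945807586304 / 20503125 * u ^ 2 * v ^ 6 + 105645662941312 / 20503125 * u ^ 3 * v
          ^ 5 + 23774221756192 / 4100625 * u ^ 4 * v ^ 4 + 70445369018776 / 20503125 * u ^ 5
          * v ^ 3 + 17601108287018 / 20503125 * u ^ 6 * v ^ 2 + 759264958703 / 41006250 * u
          ^ 7 * v + 44554892627 / 20503125 * u ^ 8 := by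
      rw [hu, hv]
      ring
    rw [e]
    positivity
  obtain ⟨u, hu⟩ : ∃ u, u = h - 7 / 8 := ⟨_, rfl⟩
  obtain ⟨v, hv⟩ : ∃ v, v = 1 - h := ⟨_, rfl⟩
  have hu0 : 0 ≤ u := by linarith
  have hv0 : 0 ≤ v := by linarith
  have e : 119 / 100 + 256849753 / 1600000 * h - 2164385753 / 1600000 * h ^ 2 + 6210729 /
      1600 * h ^ 3 - 2084047 / 800 * h ^ 4 - 936139 / 400 * h ^ 5 + 912383 / 400 * h ^ 6 -
      113111 / 400 * h ^ 7 + 3179 / 10 * h ^ 8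
      = 44554892627 / 3125 * v ^ 8 + 27896642259 / 250 * u * v ^ 7 + 2992443418008 / 3125 *
        u ^ 2 * v ^ 6 + 2845255199872 / 625 * u ^ 3 * v ^ 5 + 7116732443008 / 625 * u ^ 4 *
        v ^ 4 + 50238273208832 / 3125 * u ^ 5 * v ^ 3 + 8133151888896 / 625 * u ^ 6 * v ^ 2
        + 17690160140288 / 3125 * u ^ 7 * v + 1029439488 * u ^ 8 := by
    rw [hu, hv]
    ring
  rw [e]
  positivity

lemma ce_1 {h : ℝ} (h0 : 0 ≤ h) (h1 : h ≤ 1) :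
    0 ≤ 29 / 25 + 37140809 / 800000 * h - 253388809 / 800000 * h ^ 2 + 288281 / 400 * h ^ 3
      - 43521 / 100 * h ^ 4 - 55067 / 200 * h ^ 5 + 6812 / 25 * h ^ 6 - 374 / 5 * h ^ 7 +
      374 / 5 * h ^ 8 := by
  rcases le_total h (1 / 2) with g0 | g0
  · obtain ⟨u, hu⟩ : ∃ u, u = h := ⟨_, rfl⟩
    obtain ⟨v, hv⟩ : ∃ v, v = 1 / 2 - h := ⟨_, rfl⟩
    have hu0 : 0 ≤ u := by linarith
    have hv0 : 0 ≤ v := by linarith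
    have e : 29 / 25 + 37140809 / 800000 * h - 253388809 / 800000 * h ^ 2 + 288281 / 400 * h
        ^ 3 - 43521 / 100 * h ^ 4 - 55067 / 200 * h ^ 5 + 6812 / 25 * h ^ 6 - 374 / 5 * h ^
        7 + 374 / 5 * h ^ 8
        = 7424 / 25 * v ^ 8 + 51988809 / 6250 * u * v ^ 7 + 370518517 / 12500 * u ^ 2 * v ^
          6 + 133933531 / 3125 * u ^ 3 * v ^ 5 + 82645499 / 2500 * u ^ 4 * v ^ 4 + 4941219 /
          250 * u ^ 5 * v ^ 3 + 154599343 / 12500 * u ^ 6 * v ^ 2 + 16337243 / 3125 * u ^ 7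
          * v + 10999309 / 12500 * u ^ 8 := by
      rw [hu, hv]
      ring
    rw [e]
    positivity
  obtain ⟨u, hu⟩ : ∃ u, u = h - 1 / 2 := ⟨_, rfl⟩
  obtain ⟨v, hv⟩ : ∃ v, v = 1 - h := ⟨_, rfl⟩
  have hu0 : 0 ≤ u := by linarith
  have hv0 : 0 ≤ v := by linarith
  have e : 29 / 25 + 37140809 / 800000 * h - 253388809 / 800000 * h ^ 2 + 288281 / 400 * h ^
      3 - 43521 / 100 * h ^ 4 - 55067 / 200 * h ^ 5 + 6812 / 25 * h ^ 6 - 374 / 5 * h ^ 7 +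
      374 / 5 * h ^ 8
      = 10999309 / 12500 * v ^ 8 + 27659993 / 3125 * u * v ^ 7 + 471636343 / 12500 * u ^ 2 *
        v ^ 6 + 20930159 / 250 * u ^ 3 * v ^ 5 + 248018499 / 2500 * u ^ 4 * v ^ 4 +
        184720031 / 3125 * u ^ 5 * v ^ 3 + 208792517 / 12500 * u ^ 6 * v ^ 2 + 38858809 /
        6250 * u ^ 7 * v + 17264 / 5 * u ^ 8 := by
    rw [hu, hv]
    ring
  rw [e]
  positivity

lemma ce_2 {h : ℝ} (h0 : 0 ≤ h) (h1 : h ≤ 1) :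
    0 ≤ 3 / 25 + 81 / 25 * h - 927 / 50 * h ^ 2 + 497 / 16 * h ^ 3 - 3029 / 200 * h ^ 4 - 22
      / 5 * h ^ 7 + 22 / 5 * h ^ 8 := by
  rcases le_total h (1 / 2) with g0 | g0
  · obtain ⟨u, hu⟩ : ∃ u, u = h := ⟨_, rfl⟩
    obtain ⟨v, hv⟩ : ∃ v, v = 1 / 2 - h := ⟨_, rfl⟩
    have hu0 : 0 ≤ u := by linarith
    have hv0 : 0 ≤ v := by linarith
    have e : 3 / 25 + 81 / 25 * h - 927 / 50 * h ^ 2 + 497 / 16 * h ^ 3 - 3029 / 200 * h ^ 4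
        - 22 / 5 * h ^ 7 + 22 / 5 * h ^ 8
        = 768 / 25 * v ^ 8 + 16512 / 25 * u * v ^ 7 + 64416 / 25 * u ^ 2 * v ^ 6 + 107602 /
          25 * u ^ 3 * v ^ 5 + 89872 / 25 * u ^ 4 * v ^ 4 + 36876 / 25 * u ^ 5 * v ^ 3 +
          6424 / 25 * u ^ 6 * v ^ 2 + 534 / 25 * u ^ 7 * v + 154 / 25 * u ^ 8 := by
      rw [hu, hv]
      ring
    rw [e]
    positivity
  obtain ⟨u, hu⟩ : ∃ u, u = h - 1 / 2 := ⟨_, rfl⟩
  obtain ⟨v, hv⟩ : ∃ v, v = 1 - h := ⟨_, rfl⟩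
  have hu0 : 0 ≤ u := by linarith
  have hv0 : 0 ≤ v := by linarith
  have e : 3 / 25 + 81 / 25 * h - 927 / 50 * h ^ 2 + 497 / 16 * h ^ 3 - 3029 / 200 * h ^ 4 -
      22 / 5 * h ^ 7 + 22 / 5 * h ^ 8
      = 154 / 25 * v ^ 8 + 386 / 5 * u * v ^ 7 + 16196 / 25 * u ^ 2 * v ^ 6 + 64348 / 25 * u
        ^ 3 * v ^ 5 + 129512 / 25 * u ^ 4 * v ^ 4 + 141102 / 25 * u ^ 5 * v ^ 3 + 84532 / 25
        * u ^ 6 * v ^ 2 + 27624 / 25 * u ^ 7 * v + 944 / 5 * u ^ 8 := by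
    rw [hu, hv]
    ring
  rw [e]
  positivity

lemma ce {h X t : ℝ} (h0 : 0 ≤ h) (h1 : h ≤ 1) (X0 : 0 ≤ X) (t0 : 0 ≤ t)
    (hX : X * (17 / 2 + t) = 1) :
    0 ≤ 3 / 25 * X ^ 2 + 81 / 25 * X ^ 2 * h - 927 / 50 * X ^ 2 * h ^ 2 + 497 / 16 * X ^ 2 *
      h ^ 3 - 3029 / 200 * X ^ 2 * h ^ 4 - 22 / 5 * X ^ 2 * h ^ 7 + 22 / 5 * X ^ 2 * h ^ 8 -
      22 / 25 * X ^ 3 - 6923191 / 800000 * X ^ 3 * h - 1244809 / 800000 * X ^ 3 * h ^ 2 +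
      4816 / 25 * X ^ 3 * h ^ 3 - 35549 / 200 * X ^ 3 * h ^ 4 - 55067 / 200 * X ^ 3 * h ^ 5
      + 6812 / 25 * X ^ 3 * h ^ 6 - 14049 / 400 * X ^ 4 * h ^ 6 + 14049 / 400 * X ^ 4 * h ^
      7 := by
  have q0 := ce_0 h0 h1
  have q1 := ce_1 h0 h1
  have q2 := ce_2 h0 h1
  have e : 3 / 25 * X ^ 2 + 81 / 25 * X ^ 2 * h - 927 / 50 * X ^ 2 * h ^ 2 + 497 / 16 * X ^
      2 * h ^ 3 - 3029 / 200 * X ^ 2 * h ^ 4 - 22 / 5 * X ^ 2 * h ^ 7 + 22 / 5 * X ^ 2 * h ^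
      8 - 22 / 25 * X ^ 3 - 6923191 / 800000 * X ^ 3 * h - 1244809 / 800000 * X ^ 3 * h ^ 2
      + 4816 / 25 * X ^ 3 * h ^ 3 - 35549 / 200 * X ^ 3 * h ^ 4 - 55067 / 200 * X ^ 3 * h ^
      5 + 6812 / 25 * X ^ 3 * h ^ 6 - 14049 / 400 * X ^ 4 * h ^ 6 + 14049 / 400 * X ^ 4 * h
      ^ 7
      = X ^ 4 * (((119 / 100 + 256849753 / 1600000 * h - 2164385753 / 1600000 * h ^ 2 +
        6210729 / 1600 * h ^ 3 - 2084047 / 800 * h ^ 4 - 936139 / 400 * h ^ 5 + 912383 / 400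
        * h ^ 6 - 113111 / 400 * h ^ 7 + 3179 / 10 * h ^ 8)) + t * ((29 / 25 + 37140809 /
        800000 * h - 253388809 / 800000 * h ^ 2 + 288281 / 400 * h ^ 3 - 43521 / 100 * h ^ 4
        - 55067 / 200 * h ^ 5 + 6812 / 25 * h ^ 6 - 374 / 5 * h ^ 7 + 374 / 5 * h ^ 8)) + t
        ^ 2 * ((3 / 25 + 81 / 25 * h - 927 / 50 * h ^ 2 + 497 / 16 * h ^ 3 - 3029 / 200 * h
        ^ 4 - 22 / 5 * h ^ 7 + 22 / 5 * h ^ 8))) := by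
    linear_combination -(X ^ 2 * (3 / 25 + 81 / 25 * h - 927 / 50 * h ^ 2 + 497 / 16 * h ^ 3
        - 3029 / 200 * h ^ 4 - 22 / 5 * h ^ 7 + 22 / 5 * h ^ 8) * (1 + X * (17 / 2 + t)) + X
        ^ 3 * (-22 / 25 - 6923191 / 800000 * h - 1244809 / 800000 * h ^ 2 + 4816 / 25 * h ^
        3 - 35549 / 200 * h ^ 4 - 55067 / 200 * h ^ 5 + 6812 / 25 * h ^ 6) * (1)) * hX
  rw [e]
  have e2 : 0 ≤ ((119 / 100 + 256849753 / 1600000 * h - 2164385753 / 1600000 * h ^ 2 +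
        6210729 / 1600 * h ^ 3 - 2084047 / 800 * h ^ 4 - 936139 / 400 * h ^ 5 + 912383 / 400
        * h ^ 6 - 113111 / 400 * h ^ 7 + 3179 / 10 * h ^ 8)) + t * ((29 / 25 + 37140809 /
        800000 * h - 253388809 / 800000 * h ^ 2 + 288281 / 400 * h ^ 3 - 43521 / 100 * h ^ 4
        - 55067 / 200 * h ^ 5 + 6812 / 25 * h ^ 6 - 374 / 5 * h ^ 7 + 374 / 5 * h ^ 8)) + t
        ^ 2 * ((3 / 25 + 81 / 25 * h - 927 / 50 * h ^ 2 + 497 / 16 * h ^ 3 - 3029 / 200 * h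
        ^ 4 - 22 / 5 * h ^ 7 + 22 / 5 * h ^ 8)) := by
    exact add_nonneg (add_nonneg (q0) (mul_nonneg t0 q1)) (mul_nonneg (pow_nonneg t0 2) q2)
  exact mul_nonneg (pow_nonneg X0 _) e2

lemma cd_0 {h : ℝ} (h0 : 0 ≤ h) (h1 : h ≤ 1) :
    0 ≤ 42307 / 400 - 6819 / 800 * h - 10181 / 150 * h ^ 2 + 92039 / 160 * h ^ 3 - 257379 /
      400 * h ^ 4 + 11608 / 25 * h ^ 6 := by
  obtain ⟨u, hu⟩ : ∃ u, u = h := ⟨_, rfl⟩
  obtain ⟨v, hv⟩ : ∃ v, v = 1 - h := ⟨_, rfl⟩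
  have hu0 : 0 ≤ u := by linarith
  have hv0 : 0 ≤ v := by linarith
  have e : 42307 / 400 - 6819 / 800 * h - 10181 / 150 * h ^ 2 + 92039 / 160 * h ^ 3 - 257379
      / 400 * h ^ 4 + 11608 / 25 * h ^ 6
      = 42307 / 400 * v ^ 6 + 100173 / 160 * u * v ^ 5 + 3542449 / 2400 * u ^ 2 * v ^ 4 +
        5601271 / 2400 * u ^ 3 * v ^ 3 + 348211 / 160 * u ^ 4 * v ^ 2 + 182239 / 240 * u ^ 5
        * v + 63823 / 150 * u ^ 6 := by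
    rw [hu, hv]
    ring
  rw [e]
  positivity

lemma cd_1 {h : ℝ} (h0 : 0 ≤ h) (h1 : h ≤ 1) :
    0 ≤ 5651 / 200 - 2307 / 400 * h + 1823 / 75 * h ^ 2 + 107 / 16 * h ^ 3 + 261 / 200 * h ^
      4 - 92 / 25 * h ^ 6 := by
  obtain ⟨u, hu⟩ : ∃ u, u = h := ⟨_, rfl⟩
  obtain ⟨v, hv⟩ : ∃ v, v = 1 - h := ⟨_, rfl⟩
  have hu0 : 0 ≤ u := by linarith
  have hv0 : 0 ≤ v := by linarith
  have e : 5651 / 200 - 2307 / 400 * h + 1823 / 75 * h ^ 2 + 107 / 16 * h ^ 3 + 261 / 200 *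
      h ^ 4 - 92 / 25 * h ^ 6
      = 5651 / 200 * v ^ 6 + 13101 / 80 * u * v ^ 5 + 503153 / 1200 * u ^ 2 * v ^ 4 + 733607
        / 1200 * u ^ 3 * v ^ 3 + 213343 / 400 * u ^ 4 * v ^ 2 + 31271 / 120 * u ^ 5 * v +
        3833 / 75 * u ^ 6 := by
    rw [hu, hv]
    ring
  rw [e]
  positivity

lemma cd_2 {h : ℝ} (h0 : 0 ≤ h) (h1 : h ≤ 1) :
    (0 : ℝ) ≤ 2 := by
  norm_num

lemma cd {h X t : ℝ} (h0 : 0 ≤ h) (h1 : h ≤ 1) (X0 : 0 ≤ X) (t0 : 0 ≤ t)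
    (hX : X * (17 / 2 + t) = 1) :
    0 ≤ 2 - 1149 / 200 * X - 2307 / 400 * X * h + 1823 / 75 * X * h ^ 2 + 107 / 16 * X * h ^
      3 + 261 / 200 * X * h ^ 4 - 92 / 25 * X * h ^ 6 + 101 / 10 * X ^ 2 + 81 / 2 * X ^ 2 *
      h - 6862 / 25 * X ^ 2 * h ^ 2 + 2592 / 5 * X ^ 2 * h ^ 3 - 32727 / 50 * X ^ 2 * h ^ 4
      + 2478 / 5 * X ^ 2 * h ^ 6 := by
  have q0 := cd_0 h0 h1
  have q1 := cd_1 h0 h1
  have q2 := cd_2 h0 h1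
  have e : 2 - 1149 / 200 * X - 2307 / 400 * X * h + 1823 / 75 * X * h ^ 2 + 107 / 16 * X *
      h ^ 3 + 261 / 200 * X * h ^ 4 - 92 / 25 * X * h ^ 6 + 101 / 10 * X ^ 2 + 81 / 2 * X ^
      2 * h - 6862 / 25 * X ^ 2 * h ^ 2 + 2592 / 5 * X ^ 2 * h ^ 3 - 32727 / 50 * X ^ 2 * h
      ^ 4 + 2478 / 5 * X ^ 2 * h ^ 6
      = X ^ 2 * (((42307 / 400 - 6819 / 800 * h - 10181 / 150 * h ^ 2 + 92039 / 160 * h ^ 3
        - 257379 / 400 * h ^ 4 + 11608 / 25 * h ^ 6)) + t * ((5651 / 200 - 2307 / 400 * h +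
        1823 / 75 * h ^ 2 + 107 / 16 * h ^ 3 + 261 / 200 * h ^ 4 - 92 / 25 * h ^ 6)) + t ^ 2
        * ((2))) := by
    linear_combination -((2) * (1 + X * (17 / 2 + t)) + X * (-1149 / 200 - 2307 / 400 * h +
        1823 / 75 * h ^ 2 + 107 / 16 * h ^ 3 + 261 / 200 * h ^ 4 - 92 / 25 * h ^ 6) * (1)) *
        hX
  rw [e]
  have e2 : 0 ≤ ((42307 / 400 - 6819 / 800 * h - 10181 / 150 * h ^ 2 + 92039 / 160 * h ^ 3 -
        257379 / 400 * h ^ 4 + 11608 / 25 * h ^ 6)) + t * ((5651 / 200 - 2307 / 400 * h +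
        1823 / 75 * h ^ 2 + 107 / 16 * h ^ 3 + 261 / 200 * h ^ 4 - 92 / 25 * h ^ 6)) + t ^ 2
        * ((2)) := by
    exact add_nonneg (add_nonneg (q0) (mul_nonneg t0 q1)) (mul_nonneg (pow_nonneg t0 2) q2)
  exact mul_nonneg (pow_nonneg X0 _) e2


end Vale.Agent.P224.R2.H355.PC
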