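import Mathlib.Tactic.Positivity
import Mathlib.Tactic.LinearCombination
import Mathlib.Tactic.Linarith
import Mathlib.Tactic.Ring
import Mathlib.Data.Real.Basic

/-!
Polynomial certificates for the pointwise bounds of the odd functions of the flow (cep, cr).
-/

namespace Vale.Agent.P224.R2.H355.PC

lemma cep_0 {h : ℝ} (h0 : 0 ≤ h) (h1 : h ≤ 1) :
    0 ≤ 176163 / 400 - 152819 / 160 * h + 10865579 / 3200 * h ^ 2 - 44235849 / 4000 * h ^ 3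
      + 24943177 / 1600 * h ^ 4 - 40090303 / 5600 * h ^ 5 - 78354 / 25 * h ^ 6 + 74001 / 25
      * h ^ 7 := by
  rcases le_total h (3 / 4) with g0 | g0
  · obtain ⟨u, hu⟩ : ∃ u, u = h := ⟨_, rfl⟩
    obtain ⟨v, hv⟩ : ∃ v, v = 3 / 4 - h := ⟨_, rfl⟩
    have hu0 : 0 ≤ u := by linarith
    have hv0 : 0 ≤ v := by linarith
    have e : 176163 / 400 - 152819 / 160 * h + 10865579 / 3200 * h ^ 2 - 44235849 / 4000 * h
        ^ 3 + 24943177 / 1600 * h ^ 4 - 40090303 / 5600 * h ^ 5 - 78354 / 25 * h ^ 6 + 74001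
        / 25 * h ^ 7
        = 60130304 / 18225 * v ^ 7 + 107702656 / 6075 * u * v ^ 6 + 62445688 / 1215 * u ^ 2
          * v ^ 5 + 6521857472 / 91125 * u ^ 3 * v ^ 4 + 1469495461 / 30375 * u ^ 4 * v ^ 3
          + 8630577401 / 425250 * u ^ 5 * v ^ 2 + 2460742096 / 637875 * u ^ 6 * v +
          126121231 / 425250 * u ^ 7 := by
      rw [hu, hv]
      ring
    rw [e]
    positivity
  obtain ⟨u, hu⟩ : ∃ u, u = h - 3 / 4 := ⟨_, rfl⟩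
  obtain ⟨v, hv⟩ : ∃ v, v = 1 - h := ⟨_, rfl⟩
  have hu0 : 0 ≤ u := by linarith
  have hv0 : 0 ≤ v := by linarith
  have e : 176163 / 400 - 152819 / 160 * h + 10865579 / 3200 * h ^ 2 - 44235849 / 4000 * h ^
      3 + 24943177 / 1600 * h ^ 4 - 40090303 / 5600 * h ^ 5 - 78354 / 25 * h ^ 6 + 74001 /
      25 * h ^ 7
      = 1135091079 / 1750 * v ^ 7 + 2836349606 / 875 * u * v ^ 6 + 11635437481 / 1750 * u ^
        2 * v ^ 5 + 6805238941 / 875 * u ^ 3 * v ^ 4 + 6242983904 / 875 * u ^ 4 * v ^ 3 +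
        5639756488 / 875 * u ^ 5 * v ^ 2 + 754324672 / 175 * u ^ 6 * v + 1121116544 / 875 *
        u ^ 7 := by
    rw [hu, hv]
    ring
  rw [e]
  positivity

lemma cep_1 {h : ℝ} (h0 : 0 ≤ h) (h1 : h ≤ 1) :
    0 ≤ 49437 / 400 - 137097 / 800 * h + 907217 / 3200 * h ^ 2 - 2435791 / 2000 * h ^ 3 +
      580303 / 320 * h ^ 4 - 4458613 / 5600 * h ^ 5 - 1617 / 5 * h ^ 6 + 9163 / 30 * h ^ 7
      := by
  rcases le_total h (1 / 2) with g0 | g0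
  · obtain ⟨u, hu⟩ : ∃ u, u = h := ⟨_, rfl⟩
    obtain ⟨v, hv⟩ : ∃ v, v = 1 / 2 - h := ⟨_, rfl⟩
    have hu0 : 0 ≤ u := by linarith
    have hv0 : 0 ≤ v := by linarith
    have e : 49437 / 400 - 137097 / 800 * h + 907217 / 3200 * h ^ 2 - 2435791 / 2000 * h ^ 3
        + 580303 / 320 * h ^ 4 - 4458613 / 5600 * h ^ 5 - 1617 / 5 * h ^ 6 + 9163 / 30 * h ^
        7
        = 395496 / 25 * v ^ 7 + 2494278 / 25 * u * v ^ 6 + 1101929 / 4 * u ^ 2 * v ^ 5 +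
          207526261 / 500 * u ^ 3 * v ^ 4 + 361623163 / 1000 * u ^ 4 * v ^ 3 + 636446907 /
          3500 * u ^ 5 * v ^ 2 + 341980351 / 7000 * u ^ 6 * v + 56903771 / 10500 * u ^ 7 :=
          by
      rw [hu, hv]
      ring
    rw [e]
    positivity
  obtain ⟨u, hu⟩ : ∃ u, u = h - 1 / 2 := ⟨_, rfl⟩
  obtain ⟨v, hv⟩ : ∃ v, v = 1 - h := ⟨_, rfl⟩
  have hu0 : 0 ≤ u := by linarith
  have hv0 : 0 ≤ v := by linarith
  have e : 49437 / 400 - 137097 / 800 * h + 907217 / 3200 * h ^ 2 - 2435791 / 2000 * h ^ 3 +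
      580303 / 320 * h ^ 4 - 4458613 / 5600 * h ^ 5 - 1617 / 5 * h ^ 6 + 9163 / 30 * h ^ 7
      = 56903771 / 10500 * v ^ 7 + 113472907 / 4200 * u * v ^ 6 + 177870389 / 3500 * u ^ 2 *
        v ^ 5 + 902376577 / 21000 * u ^ 3 * v ^ 4 + 20880307 / 1500 * u ^ 4 * v ^ 3 + 124539
        / 3500 * u ^ 5 * v ^ 2 + 4595816 / 2625 * u ^ 6 * v + 5755807 / 2625 * u ^ 7 := by
    rw [hu, hv]
    ring
  rw [e]
  positivity

lemma cep_2 {h : ℝ} (h0 : 0 ≤ h) (h1 : h ≤ 1) :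
    0 ≤ 1647 / 200 - 2931 / 400 * h - 3297 / 320 * h ^ 2 + 1457 / 500 * h ^ 3 + 4841 / 800 *
      h ^ 4 + 3393 / 2800 * h ^ 5 + 69 / 25 * h ^ 6 - 391 / 150 * h ^ 7 := by
  rcases le_total h (3 / 4) with g0 | g0
  · obtain ⟨u, hu⟩ : ∃ u, u = h := ⟨_, rfl⟩
    obtain ⟨v, hv⟩ : ∃ v, v = 3 / 4 - h := ⟨_, rfl⟩
    have hu0 : 0 ≤ u := by linarith
    have hv0 : 0 ≤ v := by linarith
    have e : 1647 / 200 - 2931 / 400 * h - 3297 / 320 * h ^ 2 + 1457 / 500 * h ^ 3 + 4841 /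
        800 * h ^ 4 + 3393 / 2800 * h ^ 5 + 69 / 25 * h ^ 6 - 391 / 150 * h ^ 7
        = 124928 / 2025 * v ^ 7 + 2373376 / 6075 * u * v ^ 6 + 678448 / 675 * u ^ 2 * v ^ 5
          + 4501616 / 3375 * u ^ 3 * v ^ 4 + 28942666 / 30375 * u ^ 4 * v ^ 3 + 8133137 /
          23625 * u ^ 5 * v ^ 2 + 3940484 / 70875 * u ^ 6 * v + 1652461 / 425250 * u ^ 7 :=
          by
      rw [hu, hv]
      ring
    rw [e]
    positivity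
  obtain ⟨u, hu⟩ : ∃ u, u = h - 3 / 4 := ⟨_, rfl⟩
  obtain ⟨v, hv⟩ : ∃ v, v = 1 - h := ⟨_, rfl⟩
  have hu0 : 0 ≤ u := by linarith
  have hv0 : 0 ≤ v := by linarith
  have e : 1647 / 200 - 2931 / 400 * h - 3297 / 320 * h ^ 2 + 1457 / 500 * h ^ 3 + 4841 /
      800 * h ^ 4 + 3393 / 2800 * h ^ 5 + 69 / 25 * h ^ 6 - 391 / 150 * h ^ 7
      = 14872149 / 1750 * v ^ 7 + 33939006 / 875 * u * v ^ 6 + 67096833 / 875 * u ^ 2 * v ^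
        5 + 91657946 / 875 * u ^ 3 * v ^ 4 + 113923024 / 875 * u ^ 4 * v ^ 3 + 109621968 /
        875 * u ^ 5 * v ^ 2 + 12033152 / 175 * u ^ 6 * v + 40201472 / 2625 * u ^ 7 := by
    rw [hu, hv]
    ring
  rw [e]
  positivity

lemma cep {h X t : ℝ} (h0 : 0 ≤ h) (h1 : h ≤ 1) (X0 : 0 ≤ X) (t0 : 0 ≤ t)
    (hX : X * (17 / 2 + t) = 1) :
    0 ≤ 1647 / 200 * X - 2931 / 400 * X * h - 3297 / 320 * X * h ^ 2 + 1457 / 500 * X * h ^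
      3 + 4841 / 800 * X * h ^ 4 + 3393 / 2800 * X * h ^ 5 + 69 / 25 * X * h ^ 6 - 391 / 150
      * X * h ^ 7 - 6561 / 400 * X ^ 2 - 37443 / 800 * X ^ 2 * h + 1467707 / 3200 * X ^ 2 *
      h ^ 2 - 2534867 / 2000 * X ^ 2 * h ^ 3 + 2736921 / 1600 * X ^ 2 * h ^ 4 - 26137 / 32 *
      X ^ 2 * h ^ 5 - 9258 / 25 * X ^ 2 * h ^ 6 + 26231 / 75 * X ^ 2 * h ^ 7 - 303 / 20 * X
      ^ 3 - 223 / 8 * X ^ 3 * h + 96519 / 400 * X ^ 3 * h ^ 2 - 248157 / 500 * X ^ 3 * h ^ 3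
      + 61239 / 100 * X ^ 3 * h ^ 4 - 425451 / 1400 * X ^ 3 * h ^ 5 - 3717 / 20 * X ^ 3 * h
      ^ 6 + 7021 / 40 * X ^ 3 * h ^ 7 := by
  have q0 := cep_0 h0 h1
  have q1 := cep_1 h0 h1
  have q2 := cep_2 h0 h1
  have e : 1647 / 200 * X - 2931 / 400 * X * h - 3297 / 320 * X * h ^ 2 + 1457 / 500 * X * h
      ^ 3 + 4841 / 800 * X * h ^ 4 + 3393 / 2800 * X * h ^ 5 + 69 / 25 * X * h ^ 6 - 391 /
      150 * X * h ^ 7 - 6561 / 400 * X ^ 2 - 37443 / 800 * X ^ 2 * h + 1467707 / 3200 * X ^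
      2 * h ^ 2 - 2534867 / 2000 * X ^ 2 * h ^ 3 + 2736921 / 1600 * X ^ 2 * h ^ 4 - 26137 /
      32 * X ^ 2 * h ^ 5 - 9258 / 25 * X ^ 2 * h ^ 6 + 26231 / 75 * X ^ 2 * h ^ 7 - 303 / 20
      * X ^ 3 - 223 / 8 * X ^ 3 * h + 96519 / 400 * X ^ 3 * h ^ 2 - 248157 / 500 * X ^ 3 * h
      ^ 3 + 61239 / 100 * X ^ 3 * h ^ 4 - 425451 / 1400 * X ^ 3 * h ^ 5 - 3717 / 20 * X ^ 3
      * h ^ 6 + 7021 / 40 * X ^ 3 * h ^ 7
      = X ^ 3 * (((176163 / 400 - 152819 / 160 * h + 10865579 / 3200 * h ^ 2 - 44235849 /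
        4000 * h ^ 3 + 24943177 / 1600 * h ^ 4 - 40090303 / 5600 * h ^ 5 - 78354 / 25 * h ^
        6 + 74001 / 25 * h ^ 7)) + t * ((49437 / 400 - 137097 / 800 * h + 907217 / 3200 * h
        ^ 2 - 2435791 / 2000 * h ^ 3 + 580303 / 320 * h ^ 4 - 4458613 / 5600 * h ^ 5 - 1617
        / 5 * h ^ 6 + 9163 / 30 * h ^ 7)) + t ^ 2 * ((1647 / 200 - 2931 / 400 * h - 3297 /
        320 * h ^ 2 + 1457 / 500 * h ^ 3 + 4841 / 800 * h ^ 4 + 3393 / 2800 * h ^ 5 + 69 /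
        25 * h ^ 6 - 391 / 150 * h ^ 7))) := by
    linear_combination -(X * (1647 / 200 - 2931 / 400 * h - 3297 / 320 * h ^ 2 + 1457 / 500
        * h ^ 3 + 4841 / 800 * h ^ 4 + 3393 / 2800 * h ^ 5 + 69 / 25 * h ^ 6 - 391 / 150 * h
        ^ 7) * (1 + X * (17 / 2 + t)) + X ^ 2 * (-6561 / 400 - 37443 / 800 * h + 1467707 /
        3200 * h ^ 2 - 2534867 / 2000 * h ^ 3 + 2736921 / 1600 * h ^ 4 - 26137 / 32 * h ^ 5
        - 9258 / 25 * h ^ 6 + 26231 / 75 * h ^ 7) * (1)) * hX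
  rw [e]
  have e2 : 0 ≤ ((176163 / 400 - 152819 / 160 * h + 10865579 / 3200 * h ^ 2 - 44235849 /
        4000 * h ^ 3 + 24943177 / 1600 * h ^ 4 - 40090303 / 5600 * h ^ 5 - 78354 / 25 * h ^
        6 + 74001 / 25 * h ^ 7)) + t * ((49437 / 400 - 137097 / 800 * h + 907217 / 3200 * h
        ^ 2 - 2435791 / 2000 * h ^ 3 + 580303 / 320 * h ^ 4 - 4458613 / 5600 * h ^ 5 - 1617
        / 5 * h ^ 6 + 9163 / 30 * h ^ 7)) + t ^ 2 * ((1647 / 200 - 2931 / 400 * h - 3297 /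
        320 * h ^ 2 + 1457 / 500 * h ^ 3 + 4841 / 800 * h ^ 4 + 3393 / 2800 * h ^ 5 + 69 /
        25 * h ^ 6 - 391 / 150 * h ^ 7)) := by
    exact add_nonneg (add_nonneg (q0) (mul_nonneg t0 q1)) (mul_nonneg (pow_nonneg t0 2) q2)
  exact mul_nonneg (pow_nonneg X0 _) e2

lemma cr_0 {h : ℝ} (h0 : 0 ≤ h) (h1 : h ≤ 1) :
    0 ≤ 86789 / 4000 - 1484473 / 16000 * h + 1571643 / 4000 * h ^ 2 - 1398151 / 1600 * h ^ 3
      + 20620007 / 28000 * h ^ 4 - 4353 / 25 * h ^ 6 := by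
  rcases le_total h (1 / 2) with g0 | g0
  · obtain ⟨u, hu⟩ : ∃ u, u = h := ⟨_, rfl⟩
    obtain ⟨v, hv⟩ : ∃ v, v = 1 / 2 - h := ⟨_, rfl⟩
    have hu0 : 0 ≤ u := by linarith
    have hv0 : 0 ≤ v := by linarith
    have e : 86789 / 4000 - 1484473 / 16000 * h + 1571643 / 4000 * h ^ 2 - 1398151 / 1600 *
        h ^ 3 + 20620007 / 28000 * h ^ 4 - 4353 / 25 * h ^ 6
        = 173578 / 125 * v ^ 6 + 2681399 / 500 * u * v ^ 5 + 6135601 / 500 * u ^ 2 * v ^ 4 +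
          16238553 / 1000 * u ^ 3 * v ^ 3 + 18957369 / 1750 * u ^ 4 * v ^ 2 + 24867273 /
          7000 * u ^ 5 * v + 426204 / 875 * u ^ 6 := by
      rw [hu, hv]
      ring
    rw [e]
    positivity
  obtain ⟨u, hu⟩ : ∃ u, u = h - 1 / 2 := ⟨_, rfl⟩
  obtain ⟨v, hv⟩ : ∃ v, v = 1 - h := ⟨_, rfl⟩
  have hu0 : 0 ≤ u := by linarith
  have hv0 : 0 ≤ v := by linarith
  have e : 86789 / 4000 - 1484473 / 16000 * h + 1571643 / 4000 * h ^ 2 - 1398151 / 1600 * h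
      ^ 3 + 20620007 / 28000 * h ^ 4 - 4353 / 25 * h ^ 6
      = 426204 / 875 * v ^ 6 + 16048311 / 7000 * u * v ^ 5 + 15867333 / 3500 * u ^ 2 * v ^ 4
        + 43816137 / 7000 * u ^ 3 * v ^ 3 + 13179113 / 1750 * u ^ 4 * v ^ 2 + 16913177 /
        3500 * u ^ 5 * v + 1152803 / 1750 * u ^ 6 := by
    rw [hu, hv]
    ring
  rw [e]
  positivity

lemma cr_1 {h : ℝ} (h0 : 0 ≤ h) (h1 : h ≤ 1) :
    0 ≤ 6239 / 800 - 47463 / 3200 * h + 25091 / 500 * h ^ 2 - 175669 / 1600 * h ^ 3 + 487433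
      / 5600 * h ^ 4 - 539 / 30 * h ^ 6 := by
  obtain ⟨u, hu⟩ : ∃ u, u = h := ⟨_, rfl⟩
  obtain ⟨v, hv⟩ : ∃ v, v = 1 - h := ⟨_, rfl⟩
  have hu0 : 0 ≤ u := by linarith
  have hv0 : 0 ≤ v := by linarith
  have e : 6239 / 800 - 47463 / 3200 * h + 25091 / 500 * h ^ 2 - 175669 / 1600 * h ^ 3 +
      487433 / 5600 * h ^ 4 - 539 / 30 * h ^ 6
      = 6239 / 800 * v ^ 6 + 102273 / 3200 * u * v ^ 5 + 1488037 / 16000 * u ^ 2 * v ^ 4 +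
        24647 / 250 * u ^ 3 * v ^ 3 + 767581 / 28000 * u ^ 4 * v ^ 2 + 2023101 / 112000 * u
        ^ 5 * v + 816607 / 336000 * u ^ 6 := by
    rw [hu, hv]
    ring
  rw [e]
  positivity

lemma cr_2 {h : ℝ} (h0 : 0 ≤ h) (h1 : h ≤ 1) :
    0 ≤ 229 / 400 - 893 / 1600 * h + 729 / 1000 * h ^ 2 - 107 / 160 * h ^ 3 - 261 / 2800 * h
      ^ 4 + 23 / 150 * h ^ 6 := by
  obtain ⟨u, hu⟩ : ∃ u, u = h := ⟨_, rfl⟩
  obtain ⟨v, hv⟩ : ∃ v, v = 1 - h := ⟨_, rfl⟩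
  have hu0 : 0 ≤ u := by linarith
  have hv0 : 0 ≤ v := by linarith
  have e : 229 / 400 - 893 / 1600 * h + 729 / 1000 * h ^ 2 - 107 / 160 * h ^ 3 - 261 / 2800
      * h ^ 4 + 23 / 150 * h ^ 6
      = 229 / 400 * v ^ 6 + 4603 / 1600 * u * v ^ 5 + 52207 / 8000 * u ^ 2 * v ^ 4 + 2029 /
        250 * u ^ 3 * v ^ 3 + 73931 / 14000 * u ^ 4 * v ^ 2 + 76591 / 56000 * u ^ 5 * v +
        22637 / 168000 * u ^ 6 := by
    rw [hu, hv]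
    ring
  rw [e]
  positivity

lemma cr {h X t : ℝ} (h0 : 0 ≤ h) (h1 : h ≤ 1) (X0 : 0 ≤ X) (t0 : 0 ≤ t)
    (hX : X * (17 / 2 + t) = 1) :
    0 ≤ 229 / 400 * X - 893 / 1600 * X * h + 729 / 1000 * X * h ^ 2 - 107 / 160 * X * h ^ 3
      - 261 / 2800 * X * h ^ 4 + 23 / 150 * X * h ^ 6 - 1547 / 800 * X ^ 2 - 17101 / 3200 *
      X ^ 2 * h + 37789 / 1000 * X ^ 2 * h ^ 2 - 157479 / 1600 * X ^ 2 * h ^ 3 + 70901 / 800
      * X ^ 2 * h ^ 4 - 1543 / 75 * X ^ 2 * h ^ 6 - 3229 / 1000 * X ^ 3 - 14061 / 2000 * X ^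
      3 * h + 9517 / 500 * X ^ 3 * h ^ 2 + 277 / 25 * X ^ 3 * h ^ 3 - 71117 / 7000 * X ^ 3 *
      h ^ 4 - 413 / 40 * X ^ 3 * h ^ 6 := by
  have q0 := cr_0 h0 h1
  have q1 := cr_1 h0 h1
  have q2 := cr_2 h0 h1
  have e : 229 / 400 * X - 893 / 1600 * X * h + 729 / 1000 * X * h ^ 2 - 107 / 160 * X * h ^
      3 - 261 / 2800 * X * h ^ 4 + 23 / 150 * X * h ^ 6 - 1547 / 800 * X ^ 2 - 17101 / 3200
      * X ^ 2 * h + 37789 / 1000 * X ^ 2 * h ^ 2 - 157479 / 1600 * X ^ 2 * h ^ 3 + 70901 /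
      800 * X ^ 2 * h ^ 4 - 1543 / 75 * X ^ 2 * h ^ 6 - 3229 / 1000 * X ^ 3 - 14061 / 2000 *
      X ^ 3 * h + 9517 / 500 * X ^ 3 * h ^ 2 + 277 / 25 * X ^ 3 * h ^ 3 - 71117 / 7000 * X ^
      3 * h ^ 4 - 413 / 40 * X ^ 3 * h ^ 6
      = X ^ 3 * (((86789 / 4000 - 1484473 / 16000 * h + 1571643 / 4000 * h ^ 2 - 1398151 /
        1600 * h ^ 3 + 20620007 / 28000 * h ^ 4 - 4353 / 25 * h ^ 6)) + t * ((6239 / 800 -
        47463 / 3200 * h + 25091 / 500 * h ^ 2 - 175669 / 1600 * h ^ 3 + 487433 / 5600 * h ^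
        4 - 539 / 30 * h ^ 6)) + t ^ 2 * ((229 / 400 - 893 / 1600 * h + 729 / 1000 * h ^ 2 -
        107 / 160 * h ^ 3 - 261 / 2800 * h ^ 4 + 23 / 150 * h ^ 6))) := by
    linear_combination -(X * (229 / 400 - 893 / 1600 * h + 729 / 1000 * h ^ 2 - 107 / 160 *
        h ^ 3 - 261 / 2800 * h ^ 4 + 23 / 150 * h ^ 6) * (1 + X * (17 / 2 + t)) + X ^ 2 *
        (-1547 / 800 - 17101 / 3200 * h + 37789 / 1000 * h ^ 2 - 157479 / 1600 * h ^ 3 +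
        70901 / 800 * h ^ 4 - 1543 / 75 * h ^ 6) * (1)) * hX
  rw [e]
  have e2 : 0 ≤ ((86789 / 4000 - 1484473 / 16000 * h + 1571643 / 4000 * h ^ 2 - 1398151 /
        1600 * h ^ 3 + 20620007 / 28000 * h ^ 4 - 4353 / 25 * h ^ 6)) + t * ((6239 / 800 -
        47463 / 3200 * h + 25091 / 500 * h ^ 2 - 175669 / 1600 * h ^ 3 + 487433 / 5600 * h ^
        4 - 539 / 30 * h ^ 6)) + t ^ 2 * ((229 / 400 - 893 / 1600 * h + 729 / 1000 * h ^ 2 -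
        107 / 160 * h ^ 3 - 261 / 2800 * h ^ 4 + 23 / 150 * h ^ 6)) := by
    exact add_nonneg (add_nonneg (q0) (mul_nonneg t0 q1)) (mul_nonneg (pow_nonneg t0 2) q2)
  exact mul_nonneg (pow_nonneg X0 _) e2


end Vale.Agent.P224.R2.H355.PC
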