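import Vale.Agent.P224.R2.H355.DualF
import Vale.Agent.P224.R2.H355.PEpsCA
import Vale.Agent.P224.R2.H355.PEpsCB
import Vale.Agent.P224.R2.H355.PEpsCC
import Vale.Agent.P224.R2.H424.Abs6
import Vale.Agent.P224.R2.H494.ZCl2

/-!
Pointwise bounds of the odd functions of the flow relative to the weight e.
-/

namespace Vale.Agent.P224.R2.H355

open Set Vale.Agent.P224.R2.H424 Vale.Agent.P224.R2.H424.HS Vale.Agent.P224.R2.H876

noncomputable def lE (X : ℝ) : List ℝ := [0, 1 - X + 22 / 25 * X ^ 2, -2 * X + 123 / 50 * X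
    ^ 2, 35 / 8 * X + 97 / 50 * X ^ 2, -185 / 4 * X ^ 2, 1048 / 25 * X ^ 2]
noncomputable def lU (X : ℝ) : List ℝ := [0, 0, 1 - 1149 / 400 * X + 101 / 20 * X ^ 2, -769
    / 400 * X + 27 / 2 * X ^ 2, 1823 / 300 * X - 3431 / 50 * X ^ 2, 107 / 80 * X + 2592 / 25
    * X ^ 2, 87 / 400 * X - 10909 / 100 * X ^ 2, 0, -23 / 50 * X + 1239 / 20 * X ^ 2]
noncomputable def lP (X : ℝ) : List ℝ := [0, 0, 0, 1 / 3 - 383 / 400 * X + 101 / 60 * X ^ 2,
    -769 / 1600 * X + 27 / 8 * X ^ 2, 1823 / 1500 * X - 3431 / 250 * X ^ 2, 107 / 480 * X +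
    432 / 25 * X ^ 2, 87 / 2800 * X - 10909 / 700 * X ^ 2, 0, -23 / 450 * X + 413 / 60 * X ^
    2]

section

variable {a L : ℝ} (s : HSol a L) (hp : Par a L) {X : ℝ} (hx : a * X = 1) (hx0 : 0 < X)
  (hx1 : X ≤ 2 / 17) (haL : a * L ≤ 1.0035 * X)
include hp hx hx0 hx1 haL

omit hp hx1 in
lemma L_le_X : L ≤ 1.0035 * X ^ 2 := by
  have h1 : L = a * L * X := by
    have : a * L * X = L * (a * X) := by ring
    rw [this, hx, mul_one]
  have h2 : a * L * X ≤ 1.0035 * X * X := mul_le_mul_of_nonneg_right haL hx0.le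
  nlinarith

omit hx1 haL hx0 in
lemma hXt : ∃ t : ℝ, 0 ≤ t ∧ X * (17 / 2 + t) = 1 := by
  refine ⟨a - 17 / 2, by linarith [hp.ha], ?_⟩
  linear_combination hx

/-- lower barrier of `E` -/
lemma lE_le : ∀ h ∈ Icc (0 : ℝ) 1, pe (lE X) h ≤ s.E h := by
  have hL := hp.L0
  have hLx := L_le_X hx hx0 haL
  obtain ⟨t, t0, hX⟩ := hXt hp hx
  refine le_of_le (a := fun h => X * h * (1 - h ^ 2)) (c := fun h => 1 + X / 2 * (h - 3 * h ^ 2))
    (f := pe (lE X)) (g := pd (lE X)) (F := s.E) (G := s.E1) zero_le_one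
    (fun y _ => (hpe (lE X) y).continuousAt.continuousWithinAt) (fun y _ => hpe (lE X) y)
    s.cE.c0 (fun h hh => ct s.cE hh) (by simp) (by simp)
    (fun h hh => ?_) (fun h hh => ?_)
  · have h0 := hh.1
    have h1 := hh.2
    have : h - 3 * h ^ 2 ≥ -2 := by nlinarith
    nlinarith
  · have h0 := hh.1
    have h1 := hh.2
    have e := s.eE h hh
    rw [s.eW h hh, hW1 s h hh] at e
    have v1 := (V_up s hp hx hx0 hx1 haL h hh).1
    have v := (V_lo s hp hx hx0 hx1 h hh).2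
    have f := F_ge s hp h hh
    have S := S_up s hp hx hx0 hx1 haL h hh
    unfold Sf at S
    unfold pu at v1
    have ha' := hp.a0.ne'
    have e1 : L / (8 * a) = L * X / 8 := by
      field_simp
      linear_combination -L * hx
    rw [e1] at e
    have e2 : X * h * (1 - h ^ 2) * s.E1 h + (1 + X / 2 * (h - 3 * h ^ 2)) * s.E h
        = h * (s.V h - 2 * (1 - h) * s.V1 h) + L * X / 8 * (h * s.F h)
          - L * X / 4 * ((1 - h) * (h * s.F1 h)) := by
      linear_combination X / 2 * e + (h * (s.V h + L * X / 8 * s.F h - 2 * (1 - h) * (s.V1 h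
        + L * X / 8 * s.F1 h)) - s.E h) * hx
    have f1 : h * s.F1 h ≤ h ^ 2 * (13.13 + 140 * X * h ^ 5) := by nlinarith
    have f0 : 0 ≤ s.F h := (by positivity : 0 ≤ 3.74 * h ^ 2).trans f
    have k1 : 0 ≤ L * X / 8 * (h * s.F h) := by positivity
    have k2 : L * X / 4 * ((1 - h) * (h * s.F1 h))
        ≤ 1.0035 * X ^ 2 * X / 4 * ((1 - h) * (h ^ 2 * (13.13 + 140 * X * h ^ 5))) := by
      have c1 : (1 - h) * (h * s.F1 h) ≤ (1 - h) * (h ^ 2 * (13.13 + 140 * X * h ^ 5)) :=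
        mul_le_mul_of_nonneg_left f1 (by linarith)
      have c2 : 0 ≤ (1 - h) * (h ^ 2 * (13.13 + 140 * X * h ^ 5)) :=
        mul_nonneg (by linarith) (by positivity)
      calc L * X / 4 * ((1 - h) * (h * s.F1 h))
          ≤ L * X / 4 * ((1 - h) * (h ^ 2 * (13.13 + 140 * X * h ^ 5))) :=
            mul_le_mul_of_nonneg_left c1 (by positivity)
        _ ≤ _ := mul_le_mul_of_nonneg_right (by gcongr) c2
    have k3 := mul_le_mul_of_nonneg_left v h0
    have k4 := mul_le_mul_of_nonneg_left v1 (show 0 ≤ 2 * h * (1 - h) from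
      mul_nonneg (by linarith) (by linarith))
    have key := mul_nonneg h0 (PC.ce h0 h1 hx0.le t0 hX)
    rw [e2]
    simp only [pe, pd, lE]
    linarith

omit hx1 haL in
lemma lU_deriv {h : ℝ} (hh : h ∈ Icc (0 : ℝ) 1) : 0 ≤ pd (lU X) h := by
  obtain ⟨t, t0, hX⟩ := hXt hp hx
  have key := mul_nonneg hh.1 (PC.cd hh.1 hh.2 hx0.le t0 hX)
  simp only [pd, pe, lU]
  linarith

omit hx1 haL in
lemma lU_nonneg : ∀ h ∈ Icc (0 : ℝ) 1, 0 ≤ pe (lU X) h := by
  refine le_of_deriv (f := fun _ => 0) (F := pe (lU X)) (f' := fun _ => 0) (F' := pd (lU X))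
    continuousOn_const (fun y _ => (hpe (lU X) y).continuousAt.continuousWithinAt)
    (fun _ _ => hasDerivAt_const _ _) (fun y _ => hpe (lU X) y) ?_
    (fun h hh => lU_deriv hp hx hx0 hh)
  simp [pe, lU]

/-- upper barrier of `P1` -/
lemma P1_le_lU : ∀ h ∈ Icc (0 : ℝ) 1, s.P1 h ≤ pe (lU X) h := by
  have hL := hp.L0
  have hLx := L_le_X hx hx0 haL
  obtain ⟨t, t0, hX⟩ := hXt hp hx
  refine le_of_le (a := fun h => X * w L h * (1 - h ^ 2)) (c := fun h => 1 - X * (h * w L h))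
    (f := s.P1) (g := s.P2) (F := pe (lU X)) (G := pd (lU X)) zero_le_one
    s.cP.c1 (fun h hh => ct1 s.cP hh)
    (fun y _ => (hpe (lU X) y).continuousAt.continuousWithinAt) (fun y _ => hpe (lU X) y)
    (by simp [w]) (by simp)
    (fun h hh => ?_) (fun h hh => ?_)
  · have w0 := w_nonneg hp hh
    have w1 := w_le hp hh
    have : h * w L h ≤ 1 := by nlinarith [hh.1, hh.2]
    nlinarith
  · have h0 := hh.1
    have h1 := hh.2
    have w0 := w_nonneg hp hh
    have w1 := w_le hp hh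
    have e := hP1 s hp hh
    unfold HS.D at e
    have q0 := HS.P_nonneg s hp h hh
    have u0 := lU_nonneg hp hx hx0 h hh
    have u1 := lU_deriv hp hx hx0 hh
    have ge := (abs_le.1 (G_abs' s hp h hh)).1
    have eu := E_up s hp hx hx0 hx1 haL h hh
    have w2 : (1 - 0.2509 * X ^ 2) * h ≤ w L h := by
      have hpos : 0 < 1 + h := by linarith
      have c1 : h / (1 + h) ≤ 1 / 2 := by
        rw [div_le_div_iff₀ hpos (by norm_num)]
        linarith
      have c2 : L / 2 * (h / (1 + h)) ≤ 0.2509 * X ^ 2 := by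
        calc L / 2 * (h / (1 + h)) ≤ 1.0035 * X ^ 2 / 2 * (1 / 2) := by gcongr
          _ ≤ _ := by nlinarith [sq_nonneg X]
      unfold w
      nlinarith
    have e2 : X * w L h * (1 - h ^ 2) * s.P2 h + (1 - X * (h * w L h)) * s.P1 h
        = h * (s.E h - s.G h) - X * (w L h * s.P h) / 4 := by
      linear_combination X * e + (h * (s.E h - s.G h) - s.P1 h) * hx
    have k1 : 0 ≤ X * (w L h * s.P h) := by positivity
    have k2 : h * (s.E h - s.G h) ≤ h * (h * (1 + X * (-1 - 2 * h + 35 / 8 * h ^ 2)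
    + X ^ 2 * (3 / 2 + 6 * h - 657 / 40 * h ^ 2 - 3509 / 240 * h ^ 3 + 2079 / 80 * h ^ 4
    + 11 / 40 * h ^ 8)) + 0.5875 * X ^ 2 * h ^ 3) := by
      refine mul_le_mul_of_nonneg_left ?_ h0
      have : 0.5854 * L * h ^ 3 ≤ 0.5875 * X ^ 2 * h ^ 3 := by
        refine mul_le_mul_of_nonneg_right ?_ (by positivity)
        nlinarith [sq_nonneg X]
      linarith
    have k3 : X * ((1 - 0.2509 * X ^ 2) * h) * (1 - h ^ 2) * pd (lU X) h
        ≤ X * w L h * (1 - h ^ 2) * pd (lU X) h := by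
      have : 0 ≤ 1 - h ^ 2 := by nlinarith
      gcongr
    have k4 : (1 - X * (h * h)) * pe (lU X) h ≤ (1 - X * (h * w L h)) * pe (lU X) h := by
      gcongr
    have key := mul_nonneg (mul_nonneg h0 h0) (PC.cu h0 h1 hx0.le t0 hX)
    rw [e2]
    have k5 : h * (h * (1 + X * (-1 - 2 * h + 35 / 8 * h ^ 2)
    + X ^ 2 * (3 / 2 + 6 * h - 657 / 40 * h ^ 2 - 3509 / 240 * h ^ 3 + 2079 / 80 * h ^ 4
    + 11 / 40 * h ^ 8)) + 0.5875 * X ^ 2 * h ^ 3)
        ≤ X * ((1 - 0.2509 * X ^ 2) * h) * (1 - h ^ 2) * pd (lU X) h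
          + (1 - X * (h * h)) * pe (lU X) h := by
      clear k1 k2 k3 k4 e2 w2 eu ge u0 u1 q0 e w0 w1
      simp only [pe, pd, lU]
      linarith
    linarith

/-- upper barrier of `P` -/
lemma P_le_lP : ∀ h ∈ Icc (0 : ℝ) 1, s.P h ≤ pe (lP X) h := by
  refine le_of_deriv (f := s.P) (F := pe (lP X)) (f' := s.P1) (F' := pd (lP X))
    s.cP.c0 (fun y _ => (hpe (lP X) y).continuousAt.continuousWithinAt)
    (fun h hh => ct s.cP hh) (fun y _ => hpe (lP X) y) ?_
    (fun h hh => ?_)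
  · rw [s.P0]
    simp [pe, lP]
  · refine (P1_le_lU s hp hx hx0 hx1 haL h hh).trans (le_of_eq ?_)
    simp only [pe, pd, lU, lP]
    ring

end

section

variable {a L : ℝ}

/-- pointwise bound of `P` -/
theorem P_le_E (s : HSol a L) (hp : Par a L) : ∀ h ∈ Icc (0 : ℝ) 1,
    3 * (2 * a + 1) * s.P h ≤ (2 * a - 8 / 5) * (h ^ 2 * s.E h) := by
  intro h hh
  obtain ⟨X, hx, hx0, hx1, haL, -⟩ := exX hp
  obtain ⟨t, t0, hX⟩ := hXt hp hx
  have h0 := hh.1
  have h1 := hh.2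
  have ha := hp.ha
  have ha0 := hp.a0
  have p := P_le_lP s hp hx hx0 hx1 haL h hh
  have e := lE_le s hp hx hx0 hx1 haL h hh
  have key := mul_nonneg (pow_nonneg h0 3) (PC.cr h0 h1 hx0.le t0 hX)
  have k : 3 * (1 + X / 2) * s.P h ≤ (1 - 4 / 5 * X) * (h ^ 2 * s.E h) := by
    have k1 := mul_le_mul_of_nonneg_left p (show 0 ≤ 3 * (1 + X / 2) by positivity)
    have k2 := mul_le_mul_of_nonneg_left e (show 0 ≤ (1 - 4 / 5 * X) * h ^ 2 from
      mul_nonneg (by linarith) (by positivity))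
    have k3 : 3 * (1 + X / 2) * pe (lP X) h ≤ (1 - 4 / 5 * X) * h ^ 2 * pe (lE X) h := by
      clear k1 k2 p e
      simp only [pe, lP, lE]
      linarith
    linarith
  have k' := mul_le_mul_of_nonneg_left k (show 0 ≤ 2 * a by linarith)
  have e1 : 2 * a * (3 * (1 + X / 2) * s.P h) = 3 * (2 * a + 1) * s.P h := by
    linear_combination 3 * s.P h * hx
  have e2 : 2 * a * ((1 - 4 / 5 * X) * (h ^ 2 * s.E h)) = (2 * a - 8 / 5) * (h ^ 2 * s.E h) := by
    linear_combination -(8 / 5 * (h ^ 2 * s.E h)) * hx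
  rwa [e1, e2] at k'

/-- pointwise bound of `P / 2 + (1 - h) P1` -/
theorem PP_le_E (s : HSol a L) (hp : Par a L) : ∀ h ∈ Icc (0 : ℝ) 1,
    6 * (2 * a + 1) * (s.P h / 2 + (1 - h) * s.P1 h) ≤ 2 * a * (6 - 5 * h) * (h * s.E h) := by
  intro h hh
  obtain ⟨X, hx, hx0, hx1, haL, -⟩ := exX hp
  obtain ⟨t, t0, hX⟩ := hXt hp hx
  have h0 := hh.1
  have h1 := hh.2
  have ha := hp.ha
  have ha0 := hp.a0
  have p := P_le_lP s hp hx hx0 hx1 haL h hh
  have p1 := P1_le_lU s hp hx hx0 hx1 haL h hh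
  have e := lE_le s hp hx hx0 hx1 haL h hh
  have key := mul_nonneg (mul_nonneg h0 h0) (PC.cep h0 h1 hx0.le t0 hX)
  have k : 6 * (1 + X / 2) * (s.P h / 2 + (1 - h) * s.P1 h) ≤ (6 - 5 * h) * (h * s.E h) := by
    have k1 := mul_le_mul_of_nonneg_left p (show 0 ≤ 3 * (1 + X / 2) by positivity)
    have k1' := mul_le_mul_of_nonneg_left p1 (show 0 ≤ 6 * (1 + X / 2) * (1 - h) from
      mul_nonneg (by positivity) (by linarith))
    have k2 := mul_le_mul_of_nonneg_left e (show 0 ≤ (6 - 5 * h) * h from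
      mul_nonneg (by linarith) h0)
    have k3 : 3 * (1 + X / 2) * pe (lP X) h + 6 * (1 + X / 2) * (1 - h) * pe (lU X) h
        ≤ (6 - 5 * h) * h * pe (lE X) h := by
      clear k1 k1' k2 p p1 e
      simp only [pe, lP, lE, lU]
      linarith
    linarith
  have k' := mul_le_mul_of_nonneg_left k (show 0 ≤ 2 * a by linarith)
  have e1 : 2 * a * (6 * (1 + X / 2) * (s.P h / 2 + (1 - h) * s.P1 h))
      = 6 * (2 * a + 1) * (s.P h / 2 + (1 - h) * s.P1 h) := by
    linear_combination 6 * (s.P h / 2 + (1 - h) * s.P1 h) * hx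
  have e2 : 2 * a * ((6 - 5 * h) * (h * s.E h)) = 2 * a * (6 - 5 * h) * (h * s.E h) := by ring
  rwa [e1, e2] at k'

end

end Vale.Agent.P224.R2.H355

namespace Vale.Agent.P224.R2.H355

open Set Vale.Agent.P224.R2.H424 Vale.Agent.P224.R2.H494.ZT Vale.Agent.P224.R2.H627

variable {a L : ℝ}

/-- **the pointwise bound of ρ relative to e** -/
theorem rho_le_e (ha : 0 < a) (s : ZSol a L) (hp : Par a L) {T : ℝ} (hT : T ∈ Ioo (0 : ℝ) 1) :
    T * -(uZ s).ρ T ≤ (2 * a - 8 / 5) / 12 * (1 - T ^ 2) * (uZ s).e T := by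
  have hh := hv_mem hT
  have h := P_le_E (hsol ha s) hp _ hh
  have := rho_le (C := (2 * a - 8 / 5) / 12) ha s hT (by linarith)
  linarith

/-- **the pointwise bound of ε relative to e** -/
theorem eps_le_e (ha : 0 < a) (s : ZSol a L) (hp : Par a L) {T : ℝ} (hT : T ∈ Ioo (0 : ℝ) 1) :
    T * -(uZ s).ε T ≤ 2 * a / 12 * ((1 + 11 * T ^ 2) / (1 + T ^ 2)) * (1 - T ^ 2)
      * (uZ s).e T := by
  have hh := hv_mem hT
  have h := PP_le_E (hsol ha s) hp _ hh
  have e1 : (1 + 11 * T ^ 2) / (1 + T ^ 2) = 6 - 5 * hv T := by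
    unfold hv
    have : (1 : ℝ) + T ^ 2 ≠ 0 := by positivity
    field_simp
    ring
  rw [e1]
  have := eps_le (C := 2 * a / 12 * (6 - 5 * hv T)) ha s hT (by linarith)
  linarith

end Vale.Agent.P224.R2.H355
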