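import Vale.Agent.P224.R2.H581.RelOdd
import Vale.Agent.P224.R2.H355.Co400
import Vale.Agent.P224.R2.H535.OddDef

/-!
The relative tail in odd dimension, in the box of the uniform part, for all dimensions from 400 on.
-/

namespace Vale.Agent.P224.R2.H355

open MeasureTheory Set Function Real Module Matrix Vale.Agent.P224 Vale.Agent.P224.FV
  Vale.Agent.P224.R2.H582 Vale.Agent.P224.R2.H484 Vale.Agent.P224.R2.H728
  Vale.Agent.P224.R2.H581
open Vale.Agent.P224.SM2 hiding ker
open scoped Topology RealInnerProductSpace ContDiff Manifold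

set_option linter.unusedSectionVars false

/-- the threshold function of the law in odd dimension satisfies the threshold conditions -/
theorem thr_lamO (m : ℕ) : Thr m (H535.lamO m) := by
  refine ⟨fun T _ h => ?_, fun T _ h => ⟨?_, ?_⟩⟩
  · unfold H535.lamO
    rw [if_pos h]
  · unfold H535.lamO
    rw [if_neg (not_le.2 h)]
    exact le_max_left _ _
  · unfold H535.lamO
    rw [if_neg (not_le.2 h)]
    exact le_max_right _ _

theorem box400 : boxUok Co400.cert (1057 / 100000) = true := by decide +kernel

section

variable {V W M : Type*} [NormedAddCommGroup V] [InnerProductSpace ℝ V] [FiniteDimensional ℝ V]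
  [NormedAddCommGroup W] [InnerProductSpace ℝ W] [FiniteDimensional ℝ W]
  [TopologicalSpace M] [ChartedSpace V M]
  [MeasurableSpace V] [BorelSpace V] [MeasurableSpace M] [BorelSpace M]
  [MeasurableSpace W] [BorelSpace W] [IsManifold 𝓘(ℝ, V) ∞ M]
  [CompactSpace M] [T2Space M]

/-- **the relative tail in odd dimension for the dimensions from 400 on, any threshold function** -/
theorem tailO400' [Nonempty M] {m : ℕ} (hV : finrank ℝ V = m) (hm : 400 ≤ m)
    (hW : finrank ℝ W = finrank ℝ V + 2) {F : M → W} (hF : SphImm V F)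
    (hmin : ∀ x n, IsUnitNormal V F x n → meanCurv V F x n = 0) {lT : ℝ → ℝ} (hT : Thr m lT)
    {ν h1 : ℝ} : TailB V F ν m lT h1 (6 / (m : ℝ)) (1057 / 100000) := by
  have h := tailU_cert (ν := ν) (h1 := h1) Co400.cert box400 hV hm hW hF hmin hT
  push_cast at h
  exact h

/-- **the relative tail in odd dimension for the dimensions from 400 on** -/
theorem tailO400 [Nonempty M] (hm : 400 ≤ finrank ℝ V)
    (hW : finrank ℝ W = finrank ℝ V + 2) {F : M → W} (hF : SphImm V F)
    (hmin : ∀ x n, IsUnitNormal V F x n → meanCurv V F x n = 0) {ν h1 : ℝ} :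
    TailB V F ν (finrank ℝ V) (H535.lamO (finrank ℝ V)) h1 (6 / (finrank ℝ V : ℝ))
      (1057 / 100000) :=
  tailO400' rfl hm hW hF hmin (thr_lamO _)

end

end Vale.Agent.P224.R2.H355
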