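import Vale.Agent.P224.R2.H355.DualF
import Vale.Agent.P224.R2.H494.ZCl
import Vale.Agent.P224.R2.H627.ShB

/-!
The boundary value of the odd flow against the integral of the even weight.
-/

namespace Vale.Agent.P224.R2.H355

open Set Filter Real Vale.Agent.P224.SM2 Vale.Agent.P224.R2.H424 Vale.Agent.P224.R2.H494.ZT
  Vale.Agent.P224.R2.H627
open scoped Topology

lemma Wf_one_eq {a c : ℝ} (ha : 17 / 2 ≤ a) (hn : Nrm a c) : Wf a c 1 = Rr a / √2 := by
  have hI := II_pos (a := a) (by linarith) 0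
  have h2 : √(2 : ℝ) ^ 2 = 2 := sq_sqrt (by norm_num)
  have h3 : 0 < √(2 : ℝ) := by positivity
  unfold Wf Rr
  rw [show (1 : ℝ) + 1 ^ 2 = 2 by norm_num]
  have hn' : c = (2 * a - 1) / (2 * a - 2) / II a 0 := by
    rw [eq_div_iff hI.ne']
    exact hn
  rw [hn']
  have h5 : a - 1 ≠ 0 := by linarith
  have h6 : 2 * a - 2 ≠ 0 := by linarith
  field_simp
  rw [h2]
  ring

lemma Rr_pos {a : ℝ} (ha : 17 / 2 ≤ a) : 0 < Rr a := by
  have h := Rr_ge (a := a) (by linarith)
  have : 0 < √2 * ((8 * a + 8) / (8 * a + 7)) := by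
    have : 0 < 8 * a + 7 := by linarith
    positivity
  linarith

lemma Rr_le_crude {a : ℝ} (ha : 17 / 2 ≤ a) : Rr a ≤ √2 * (1 + 1 / (2 * a - 2)) := by
  have hI := II_pos (a := a) (by linarith) 0
  set c := (2 * a - 1) / (2 * a - 2) / II a 0 with hc
  have hn : Nrm a c := by
    unfold Nrm
    rw [hc, div_mul_cancel₀ _ hI.ne']
  have hc0 := hn.pos' ha
  have h1 := IS_anti (a := a) (by linarith) (left_mem_Icc.2 zero_le_one)
    (right_mem_Icc.2 zero_le_one) zero_le_one
  have h4 : Wf a c 1 ≤ Wf a c 0 := by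
    have e : ∀ x, Wf a c x = c * IS a x := fun x => by
      unfold Wf IS
      ring
    rw [e, e]
    exact mul_le_mul_of_nonneg_left h1 hc0.le
  rw [Wf_one_eq ha hn, Wf_zero' hn, div_le_iff₀ (by positivity)] at h4
  refine h4.trans (le_of_eq ?_)
  have h5 : 2 * a - 2 ≠ 0 := by linarith
  rw [show 2 * a - 1 = (2 * a - 2) + 1 by ring, add_div, div_self h5, mul_comm]

/-- the rescaled constant -/
noncomputable def gR (a : ℝ) : ℝ := Rr a * ((16 * a - 1) / (16 * a + 1))

lemma gR_step {a : ℝ} (ha : 17 / 2 ≤ a) : gR a ≤ gR (a + 2) := by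
  unfold gR
  rw [Rr_step (a := a) (by linarith), mul_assoc]
  refine mul_le_mul_of_nonneg_left ?_ (Rr_pos (by linarith)).le
  have a0 : 0 < a := by linarith
  rw [div_mul_div_comm, div_le_div_iff₀ (by positivity) (by linarith)]
  nlinarith

lemma gR_steps {a : ℝ} (ha : 17 / 2 ≤ a) (n : ℕ) : gR a ≤ gR (a + 2 * n) := by
  induction n with
  | zero => simp
  | succ n ih =>
    refine ih.trans ?_
    have h := gR_step (a := a + 2 * n) (by have : (0 : ℝ) ≤ n := Nat.cast_nonneg n; linarith)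
    refine h.trans (le_of_eq ?_)
    push_cast
    ring_nf

lemma Rr_le {a : ℝ} (ha : 17 / 2 ≤ a) : Rr a ≤ √2 * ((16 * a + 1) / (16 * a - 1)) := by
  have key : gR a ≤ √2 := by
    refine le_of_forall_pos_le_add fun ε hε => ?_
    obtain ⟨n, hn⟩ := exists_nat_gt (2 / ε)
    have hn0 : (0 : ℝ) ≤ n := Nat.cast_nonneg n
    have hb : 17 / 2 ≤ a + 2 * n := by linarith
    have h1 := gR_steps ha n
    have h2 := Rr_le_crude hb
    have h3 : gR (a + 2 * n) ≤ Rr (a + 2 * n) := by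
      unfold gR
      have : (16 * (a + 2 * n) - 1) / (16 * (a + 2 * n) + 1) ≤ 1 := by
        rw [div_le_one (by linarith)]
        linarith
      nlinarith [Rr_pos hb]
    have h4 : √2 * (1 / (2 * (a + 2 * n) - 2)) ≤ ε := by
      have s2 : √2 ≤ 2 := by
        rw [sqrt_le_left (by norm_num)]
        norm_num
      have h5 : 0 < 2 * (a + 2 * n) - 2 := by linarith
      rw [mul_one_div, div_le_iff₀ h5]
      have h6 : 2 < n * ε := by
        rwa [div_lt_iff₀ hε] at hn
      nlinarith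
    calc gR a ≤ Rr (a + 2 * n) := h1.trans h3
      _ ≤ √2 * (1 + 1 / (2 * (a + 2 * n) - 2)) := h2
      _ = √2 + √2 * (1 / (2 * (a + 2 * n) - 2)) := by ring
      _ ≤ √2 + ε := by linarith
  unfold gR at key
  have h1 : 0 < 16 * a - 1 := by linarith
  have h2 : 0 < 16 * a + 1 := by linarith
  rw [mul_div_assoc', div_le_iff₀ h2] at key
  rw [mul_div_assoc', le_div_iff₀ h1]
  linarith

/-- sharp upper bound of the normalised weight at `T = 1` -/
theorem Wf_one_le {a c : ℝ} (ha : 17 / 2 ≤ a) (hn : Nrm a c) :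
    Wf a c 1 ≤ (16 * a + 1) / (16 * a - 1) := by
  rw [Wf_one_eq ha hn, div_le_iff₀ (by positivity)]
  exact (Rr_le ha).trans (le_of_eq (by ring))

section

variable {a L : ℝ}

/-- the boundary value of P in the two normalisations -/
lemma P_one_eq (ha : 0 < a) (s : ZSol a L) :
    -(s.P 1) = (2 * a + 1) / (4 * a * √2) * (hsol ha s).P 1 := by
  have h1 : (hsol ha s).P 1 = -4 * a / (2 * a + 1) * √(1 + 1) / (1 + 1) ^ 0 * s.P (zt 1) := rfl
  have h2 : zt 1 = 1 := by
    unfold zt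
    norm_num
  have h3 : 0 < √(2 : ℝ) := by positivity
  rw [h1, h2, show (1 : ℝ) + 1 = 2 by norm_num]
  have : 2 * a + 1 ≠ 0 := by linarith
  field_simp

end

/-- **the final inequality for the boundary value** (m odd or not, m >= 17) -/
theorem X_le {m L c : ℝ} (hm : 17 ≤ m) (hL : L * (m ^ 2 - 1) = 4) (s : ZSol (m / 2) L)
    (hn : Nrm (m / 2) c) :
    4 * (2 * m - 1) * (-(s.P 1)) / (m ^ 2 - 1)
      ≤ (2 / 3 + 569 / (125 * m)) * (K0 (m / 2) c * m / ((m + 2) * (m + 4))) := by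
  have ha : 17 / 2 ≤ m / 2 := by linarith
  have hm0 : 0 < m := by linarith
  have ha0 : 0 < m / 2 := by linarith
  have hm1 : 0 < m ^ 2 - 1 := by nlinarith
  have hL0 : 0 ≤ L := by
    by_contra h
    push Not at h
    have := mul_neg_of_neg_of_pos h hm1
    linarith
  have e4 : 4 * (m / 2) ^ 2 - 1 = m ^ 2 - 1 := by ring
  have hp : Par (m / 2) L := ⟨ha, hL0, by rw [e4, hL]⟩
  have hP := P_one_le (hsol ha0 s) hp (by rw [e4, hL])
  have hW := Wf_one_le ha hn
  have hW0 : 0 < Wf (m / 2) c 1 := Wf_pos (hn.pos' ha) (by linarith)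
  rw [P_one_eq ha0 s]
  have h3 : 0 < √(2 : ℝ) := by positivity
  have h4 : √(2 : ℝ) * √2 = 2 := mul_self_sqrt (by norm_num)
  set p := (hsol ha0 s).P 1 with hp_def
  set W := Wf (m / 2) c 1 with hWd
  unfold K0
  rw [← hWd]
  have eL : 4 * (2 * m - 1) * ((2 * (m / 2) + 1) / (4 * (m / 2) * √2) * p) / (m ^ 2 - 1)
      = √2 * ((2 * m - 1) / (m * (m - 1)) * p) := by
    have : m - 1 ≠ 0 := by linarith
    have : m + 1 ≠ 0 := by linarith
    rw [show m ^ 2 - 1 = (m - 1) * (m + 1) by ring]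
    field_simp
    rw [show √(2 : ℝ) ^ 2 = 2 by rw [sq]; exact h4]
    ring
  have eR : (2 / 3 + 569 / (125 * m)) * (√2 / W * m / ((m + 2) * (m + 4)))
      = √2 * ((2 / 3 + 569 / (125 * m)) * (m / ((m + 2) * (m + 4))) / W) := by
    ring
  rw [eL, eR]
  refine mul_le_mul_of_nonneg_left ?_ h3.le
  rw [le_div_iff₀ hW0]
  have hW' : W ≤ (8 * m + 1) / (8 * m - 1) := by
    refine hW.trans (le_of_eq ?_)
    congr 1 <;> ring
  have hP' : p ≤ 1 / 3 - 1 / (24 * m) - 272 / (125 * m ^ 2) := by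
    refine hP.trans (le_of_eq ?_)
    field_simp
    ring
  have q0 : 0 ≤ (2 * m - 1) / (m * (m - 1)) := by
    have : 0 < m - 1 := by linarith
    have : 0 < 2 * m - 1 := by linarith
    positivity
  have p1 : 0 ≤ 1 / 3 - 1 / (24 * m) - 272 / (125 * m ^ 2) := by
    have f1 : 1 / (24 * m) ≤ 1 / (24 * 17) := by gcongr
    have f2 : 272 / (125 * m ^ 2) ≤ 272 / (125 * 17 ^ 2) := by gcongr
    norm_num at f1 f2 ⊢
    linarith
  calc (2 * m - 1) / (m * (m - 1)) * p * W
      ≤ (2 * m - 1) / (m * (m - 1)) * (1 / 3 - 1 / (24 * m) - 272 / (125 * m ^ 2))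
          * ((8 * m + 1) / (8 * m - 1)) :=
        mul_le_mul (mul_le_mul_of_nonneg_left hP' q0) hW' hW0.le (mul_nonneg q0 p1)
    _ ≤ _ := by
      have h5 : 0 < m - 1 := by linarith
      have h6 : 0 < 8 * m - 1 := by linarith
      obtain ⟨t, ht⟩ : ∃ t, t = m - 17 := ⟨_, rfl⟩
      have t0 : 0 ≤ t := by linarith
      have hmt : m = 17 + t := by linarith
      have e1 : (2 * m - 1) / (m * (m - 1)) * (1 / 3 - 1 / (24 * m) - 272 / (125 * m ^ 2))
          = (2 * m - 1) * (1000 * m ^ 2 - 125 * m - 6528) / (3000 * (m ^ 3 * (m - 1))) := by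
        have : m - 1 ≠ 0 := h5.ne'
        field_simp
        ring
      have e2 : (2 / 3 + 569 / (125 * m)) * (m / ((m + 2) * (m + 4)))
          = (250 * m + 1707) / (375 * ((m + 2) * (m + 4))) := by
        field_simp
        ring
      rw [e1, e2, div_mul_div_comm, div_le_div_iff₀ (by positivity) (by positivity),
        ← sub_nonneg, hmt]
      ring_nf
      positivity

end Vale.Agent.P224.R2.H355
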